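import Vale.Agent.P254.H602.Local

set_option linter.all false

/-!
P254, block (X) (helper602): crude bound of the terms of first homogeneity in the drift.
-/

namespace Vale.Agent.P254.X602

open Matrix Polynomial Filter Topology Asymptotics Set
open Vale.Agent.P254.L Vale.Agent.P254.S526 Vale.Agent.P254.Z546

variable {n : ℕ} {F : Profile} {D : TiltData n}

theorem Profile.contP (F : Profile) {δ : ℝ} (hδ : 0 < δ) :
    ContinuousOn F.p (Icc δ (1 - δ)) := fun x hx =>
  (F.d1 x ⟨by linarith [hx.1], by linarith [hx.2]⟩).continuousAt.continuousWithinAt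

theorem Profile.contP1 (F : Profile) {δ : ℝ} (hδ : 0 < δ) :
    ContinuousOn F.p1 (Icc δ (1 - δ)) := fun x hx =>
  (F.d2 x ⟨by linarith [hx.1], by linarith [hx.2]⟩).continuousAt.continuousWithinAt

/-- bounds of the profile on a compact subinterval -/
theorem profile_bds (F : Profile) {δ : ℝ} (hδ : 0 < δ) : ∃ pm pM Mf : ℝ, 0 < pm ∧ 0 ≤ pM ∧ 0 ≤ Mf ∧
    (∀ x ∈ Icc δ (1 - δ), pm ≤ F.p x ∧ F.p x ≤ pM) ∧
    ∀ x ∈ Icc δ (1 - δ), ∀ y ∈ Icc δ (1 - δ),
      |dd1 (fun x => (1 - x) * F.p x) (fun x => - F.p x + (1 - x) * F.p1 x) x y| ≤ Mf := by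
  have hK : IsCompact (Icc δ (1 - δ)) := isCompact_Icc
  have hin : ∀ x ∈ Icc δ (1 - δ), x ∈ Ioo (0 : ℝ) 1 := fun x hx =>
    ⟨by linarith [hx.1], by linarith [hx.2]⟩
  have hc := Profile.contP F hδ
  have hc1 := Profile.contP1 F hδ
  have hf1 : ContinuousOn (fun x => - F.p x + (1 - x) * F.p1 x) (Icc δ (1 - δ)) :=
    hc.neg.add ((continuousOn_const.sub continuousOn_id).mul hc1)
  obtain ⟨M1, hM1⟩ := hK.exists_bound_of_continuousOn hf1
  obtain ⟨M2, hM2⟩ := hK.exists_bound_of_continuousOn hc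
  obtain ⟨pm, hpm, hpm2⟩ : ∃ pm : ℝ, 0 < pm ∧ ∀ x ∈ Icc δ (1 - δ), pm ≤ F.p x := by
    by_cases hne : (Icc δ (1 - δ)).Nonempty
    · obtain ⟨x0, hx0, hmin⟩ := hK.exists_isMinOn hne hc
      exact ⟨F.p x0, F.pos _ (hin _ hx0), fun x hx => hmin hx⟩
    · exact ⟨1, one_pos, fun x hx => absurd ⟨x, hx⟩ hne⟩
  refine ⟨pm, |M2|, |M1|, hpm, abs_nonneg _, abs_nonneg _, ?_, ?_⟩
  · intro x hx
    refine ⟨hpm2 x hx, ?_⟩
    have := hM2 x hx
    rw [Real.norm_eq_abs] at this
    exact (le_abs_self _).trans (this.trans (le_abs_self _))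
  · intro x hx y hy
    unfold dd1
    split_ifs with h
    · have := hM1 x hx
      rw [Real.norm_eq_abs] at this
      exact this.trans (le_abs_self _)
    · have hd : ∀ z ∈ Icc δ (1 - δ), HasDerivWithinAt (fun x => (1 - x) * F.p x)
          (- F.p z + (1 - z) * F.p1 z) (Icc δ (1 - δ)) z := by
        intro z hz
        have h1 : HasDerivAt (fun x : ℝ => 1 - x) (-1) z := by
          simpa using (hasDerivAt_id z).const_sub 1
        have h2 := h1.mul (F.d1 z (hin z hz))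
        refine (h2.congr_deriv ?_).hasDerivWithinAt
        ring
      have hmv := (convex_Icc δ (1 - δ)).norm_image_sub_le_of_norm_hasDerivWithin_le hd
        (fun z hz => (hM1 z hz).trans (le_abs_self _)) hy hx
      rw [Real.norm_eq_abs, Real.norm_eq_abs] at hmv
      rw [abs_div, div_le_iff₀ (abs_pos.2 (sub_ne_zero.2 h))]
      exact hmv

theorem abs_sum_le_card {m : ℕ} (f : Fin m → ℝ) {C : ℝ} (h : ∀ i, |f i| ≤ C) :
    |∑ i, f i| ≤ m * C := by
  refine (Finset.abs_sum_le_sum_abs _ _).trans ?_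
  refine (Finset.sum_le_sum fun i _ => h i).trans ?_
  rw [Finset.sum_const, Finset.card_univ, Fintype.card_fin, nsmul_eq_mul]

/-- crude entrywise bound of `NN` -/
theorem NN_abs_le {P : Mat n} {T T' : Ten n} {τ u v : ℝ} (hτ : 0 ≤ τ) (hu : 0 ≤ u) (hv : 0 ≤ v)
    (hP : ∀ i j, |P i j| ≤ τ) (hT : ∀ i j k, |T i j k| ≤ u) (hT' : ∀ i j k, |T' i j k| ≤ v) :
    |NN P T T'| ≤ n * (n * (n * (n * (n * (n * (τ * τ * τ * u * v)))))) := by
  unfold NN N3
  refine abs_sum_le_card _ fun a => abs_sum_le_card _ fun b => abs_sum_le_card _ fun c =>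
    abs_sum_le_card _ fun a' => abs_sum_le_card _ fun b' => abs_sum_le_card _ fun c' => ?_
  rw [abs_mul, abs_mul, abs_mul, abs_mul]
  have h1 := hP a a'
  have h2 := hP b b'
  have h3 := hP c c'
  have h4 := hT a b c
  have h5 := hT' a' b' c'
  gcongr

theorem trace_cube_ge {P : Mat n} (hP : P.PosSemidef) :
    P.trace ^ 3 ≤ n ^ 2 * (P * P * P).trace := by
  obtain ⟨U, q, h1, h2, h3, h4⟩ := spec_symm hP.isHermitian
  have hq : ∀ k, 0 ≤ q k := fun k => by rw [h4]; exact hP.eigenvalues_nonneg k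
  have e : (P * P * P).trace = ∑ k, q k ^ 3 := by
    have e1 : P * P * P = U * Matrix.diagonal (fun k => q k * q k * q k) * Uᵀ := by
      conv_lhs => rw [h3]
      calc U * Matrix.diagonal q * Uᵀ * (U * Matrix.diagonal q * Uᵀ) * (U * Matrix.diagonal q * Uᵀ)
          = U * Matrix.diagonal q * (Uᵀ * U) * Matrix.diagonal q * (Uᵀ * U) * Matrix.diagonal q
            * Uᵀ := by simp only [Matrix.mul_assoc]
        _ = U * (Matrix.diagonal q * Matrix.diagonal q * Matrix.diagonal q) * Uᵀ := by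
            rw [h1]; simp only [Matrix.mul_assoc, Matrix.mul_one, Matrix.one_mul]
        _ = _ := by rw [Matrix.diagonal_mul_diagonal, Matrix.diagonal_mul_diagonal]
    rw [e1, Matrix.trace_mul_comm, ← Matrix.mul_assoc, h1, Matrix.one_mul, Matrix.trace_diagonal]
    exact Finset.sum_congr rfl fun k _ => by ring
  have e2 : P.trace = ∑ k, q k := by
    conv_lhs => rw [h3]
    rw [Matrix.trace_mul_comm, ← Matrix.mul_assoc, h1, Matrix.one_mul, Matrix.trace_diagonal]
  rw [e, e2]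
  have key := pow_sum_le_card_mul_sum_pow (s := (Finset.univ : Finset (Fin n))) (f := q)
    (fun k _ => hq k) 2
  simpa using key

/-- the form `NN 1` is the sum of squares -/
theorem NN_one (T : Ten n) : NN 1 T T = ∑ a, ∑ b, ∑ c, T a b c ^ 2 := by
  unfold NN N3
  refine Finset.sum_congr rfl fun a _ => Finset.sum_congr rfl fun b _ =>
    Finset.sum_congr rfl fun c _ => ?_
  simp only [Matrix.one_apply]
  rw [Finset.sum_eq_single a (fun a' _ h => by
    simp [Ne.symm h]) (by simp)]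
  rw [Finset.sum_eq_single b (fun b' _ h => by
    simp [Ne.symm h]) (by simp)]
  rw [Finset.sum_eq_single c (fun c' _ h => by
    simp [Ne.symm h]) (by simp)]
  simp
  ring

/-- entries of a tensor in contact -/
theorem T_entry_le {T : Ten n}
    (hle : ∀ P' : Mat n, P'.PosSemidef → NN P' T T ≤ (P' * P' * P').trace) (i j k : Fin n) :
    |T i j k| ≤ n := by
  have h1 := hle 1 Matrix.PosSemidef.one
  rw [NN_one, Matrix.mul_one, Matrix.mul_one, Matrix.trace_one, Fintype.card_fin] at h1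
  have h2 : T i j k ^ 2 ≤ ∑ a, ∑ b, ∑ c, T a b c ^ 2 := by
    have s1 : T i j k ^ 2 ≤ ∑ c, T i j c ^ 2 :=
      Finset.single_le_sum (f := fun c => T i j c ^ 2) (fun _ _ => sq_nonneg _)
        (Finset.mem_univ k)
    have s2 : ∑ c, T i j c ^ 2 ≤ ∑ b, ∑ c, T i b c ^ 2 :=
      Finset.single_le_sum (f := fun b => ∑ c, T i b c ^ 2)
        (fun _ _ => Finset.sum_nonneg fun _ _ => sq_nonneg _) (Finset.mem_univ j)
    have s3 : ∑ b, ∑ c, T i b c ^ 2 ≤ ∑ a, ∑ b, ∑ c, T a b c ^ 2 :=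
      Finset.single_le_sum (f := fun a => ∑ b, ∑ c, T a b c ^ 2)
        (fun _ _ => Finset.sum_nonneg fun _ _ => Finset.sum_nonneg fun _ _ => sq_nonneg _)
        (Finset.mem_univ i)
    linarith
  have hn : (1 : ℝ) ≤ n := by
    have : 0 < n := Fin.pos i
    exact_mod_cast this
  refine abs_le_of_sq_le_sq ?_ (by positivity)
  nlinarith

theorem abs_entry_le_trace {P : Mat n} (hP : P.PosSemidef) (i j : Fin n) : |P i j| ≤ P.trace :=
  Fr.abs_le_trace hP i j

theorem mul_entry_le {M N : Mat n} {u v : ℝ} (hu : 0 ≤ u) (hv : 0 ≤ v)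
    (hM : ∀ i j, |M i j| ≤ u) (hN : ∀ i j, |N i j| ≤ v) (i j : Fin n) :
    |(M * N) i j| ≤ n * (u * v) := by
  rw [Matrix.mul_apply]
  refine abs_sum_le_card _ fun k => ?_
  rw [abs_mul]
  have := hM i k
  have := hN k j
  gcongr

/-- **the bound used at the contact point** -/
theorem exists_Kb (F : Profile) (n : ℕ) {δ : ℝ} (hδ : 0 < δ) {η C₀ : ℝ} (hη : 0 ≤ η)
    (hC₀ : 0 ≤ C₀) :
    ∃ Kb : ℝ, 0 ≤ Kb ∧ ∀ (β : Vec n), (∀ i, β i ∈ Icc δ (1 - δ)) →
      ∀ (T : Ten n) (P : Mat n) (K : Fin n → Ten n) (Qh : Mat n), Contact F β T P K →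
      (Qh - η • Matrix.diagonal fun i => F.p (β i)).PosSemidef →
      ((C₀ • Matrix.diagonal fun i => F.p (β i)) - Qh).PosSemidef →
      - (Kb * (P * P * P).trace) ≤ 6 * NN P (AQT F β T Qh) T
        + 3 * (Sflow F β Qh * (P * P * P)).trace := by
  obtain ⟨pm, pM, Mf, hpm, hpM, hMf, hp, hdd⟩ := profile_bds F hδ
  set N : ℝ := (n : ℝ) with hN
  have hN0 : 0 ≤ N := Nat.cast_nonneg n
  set cA : ℝ := N * (1 / pm * (C₀ * pM) * N) with hcA
  set cS : ℝ := C₀ * pM * Mf / (pm * pm) with hcS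
  have hcA0 : 0 ≤ cA := by positivity
  have hcS0 : 0 ≤ cS := by positivity
  set C1 : ℝ := 6 * (N * (N * (N * (N * (N * (N * (cA * N))))))) with hC1
  set C2 : ℝ := 3 * (N * (N * (cS * (N * (N * 1))))) with hC2
  have hC10 : 0 ≤ C1 := by positivity
  have hC20 : 0 ≤ C2 := by positivity
  refine ⟨(C1 + C2) * N ^ 2, by positivity, fun β hβ T P K Qh hc hQ1 hQ2 => ?_⟩
  have hppos : ∀ i, 0 < F.p (β i) := fun i => F.pos _ (hc.hb i)
  have hQ : Qh.PosSemidef := by
    have h1 : (Matrix.diagonal fun i => F.p (β i) : Mat n).PosSemidef := by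
      rw [Matrix.posSemidef_diagonal_iff]
      exact fun i => (hppos i).le
    have := hQ1.add (h1.smul hη)
    rwa [sub_add_cancel] at this
  have hQe : ∀ i j, |Qh i j| ≤ C₀ * pM := by
    intro i j
    have h1 := psd_entry hQ i j
    have h2 : ∀ i, Qh i i ≤ C₀ * pM := by
      intro i
      have h3 := hQ2.diag_nonneg (i := i)
      simp only [Matrix.sub_apply, Matrix.smul_apply, Matrix.diagonal_apply_eq, smul_eq_mul] at h3
      have h4 : C₀ * F.p (β i) ≤ C₀ * pM := mul_le_mul_of_nonneg_left (hp _ (hβ i)).2 hC₀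
      linarith
    have h5 := h2 i
    have h6 := h2 j
    linarith
  have hT : ∀ i j k, |T i j k| ≤ N := T_entry_le hc.le
  set τ := P.trace with hτ
  have hτ0 : 0 ≤ τ := hc.hP.trace_nonneg
  have hPe : ∀ i j, |P i j| ≤ τ := fun i j => abs_entry_le_trace hc.hP i j
  have hA : ∀ i j k, |AQT F β T Qh i j k| ≤ cA := by
    intro i j k
    unfold AQT
    refine abs_sum_le_card _ fun l => ?_
    rw [abs_mul, abs_mul]
    have h1 : |1 / F.p (β i)| ≤ 1 / pm := by
      rw [abs_of_pos (one_div_pos.2 (hppos i))]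
      exact one_div_le_one_div_of_le hpm (hp _ (hβ i)).1
    have h2 := hQe i l
    have h3 := hT l j k
    gcongr
  have hNN := NN_abs_le hτ0 hcA0 hN0 hPe hA hT
  have hSe : ∀ i j, |Sflow F β Qh i j| ≤ cS := by
    intro i j
    unfold Sflow
    rw [Matrix.of_apply, abs_div, abs_mul, abs_mul (F.p (β i)), abs_of_pos (hppos i),
      abs_of_pos (hppos j)]
    have h1 := hQe i j
    have h2 := hdd _ (hβ i) _ (hβ j)
    have h3 := (hp _ (hβ i)).1
    have h4 := (hp _ (hβ j)).1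
    have h5 := (hppos i).le
    have h6 := (hppos j).le
    rw [hcS]
    gcongr
  have hP2 : ∀ i j, |(P * P) i j| ≤ N * (τ * τ) := mul_entry_le hτ0 hτ0 hPe hPe
  have hP3 : ∀ i j, |(P * P * P) i j| ≤ N * (N * (τ * τ) * τ) :=
    mul_entry_le (by positivity) hτ0 hP2 hPe
  have hS2 : ∀ i j, |(Sflow F β Qh * (P * P * P)) i j| ≤ N * (cS * (N * (N * (τ * τ) * τ))) :=
    mul_entry_le hcS0 (by positivity) hSe hP3
  have hStr : |(Sflow F β Qh * (P * P * P)).trace| ≤ N * (N * (cS * (N * (N * (τ * τ) * τ)))) := by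
    unfold Matrix.trace
    exact abs_sum_le_card _ fun i => by
      rw [Matrix.diag_apply]; exact hS2 i i
  have hcube := trace_cube_ge hc.hP
  have e1 : 6 * (N * (N * (N * (N * (N * (N * (τ * τ * τ * cA * N))))))) = C1 * τ ^ 3 := by
    rw [hC1]; ring
  have e2 : 3 * (N * (N * (cS * (N * (N * (τ * τ) * τ))))) = C2 * τ ^ 3 := by
    rw [hC2]; ring
  have h1 := (abs_le.1 hNN).1
  have h2 := (abs_le.1 hStr).1
  have h3 : (C1 + C2) * τ ^ 3 ≤ (C1 + C2) * (N ^ 2 * (P * P * P).trace) :=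
    mul_le_mul_of_nonneg_left hcube (by positivity)
  have h4 : (C1 + C2) * (N ^ 2 * (P * P * P).trace) = (C1 + C2) * N ^ 2 * (P * P * P).trace := by
    ring
  linarith

end Vale.Agent.P254.X602
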