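import Vale.Agent.P254.H602.Lin

set_option linter.all false

/-!
P254, block (X) (helper602): the contact inequality.
-/

namespace Vale.Agent.P254.X602

open Matrix Polynomial Filter Topology Asymptotics Set
open Vale.Agent.P254.L Vale.Agent.P254.S526 Vale.Agent.P254.Z546

variable {n : ℕ} {F : Profile} {D : TiltData n}

theorem tr_bilin (v : Vec n) (U V : Fin n → Mat n) (M N : Mat n) :
    ((∑ a, v a • U a) * M * (∑ a, v a • V a) * N).trace
      = ∑ a, ∑ a', v a * v a' * (U a * M * V a' * N).trace := by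
  simp only [Finset.sum_mul, Finset.mul_sum, Matrix.trace_sum, Matrix.smul_mul, Matrix.mul_smul,
    Matrix.trace_smul, smul_eq_mul]
  rw [Finset.sum_comm]
  refine Finset.sum_congr rfl fun a _ => Finset.sum_congr rfl fun a' _ => ?_
  ring

theorem NN_bilin (v : Vec n) (K : Fin n → Ten n) (P : Mat n) :
    NN P (∑ a, v a • K a) (∑ a, v a • K a) = ∑ a, ∑ a', v a * v a' * NN P (K a) (K a') := by
  unfold NN
  rw [N3_sumT]
  refine Finset.sum_congr rfl fun a _ => ?_
  rw [N3_sumT', Finset.mul_sum]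
  refine Finset.sum_congr rfl fun a' _ => ?_
  ring

theorem N3_bilinXK (v : Vec n) (X : Fin n → Mat n) (K : Fin n → Ten n) (P : Mat n) (T : Ten n) :
    N3 (∑ a, v a • X a) P P (∑ a, v a • K a) T
      = ∑ a, ∑ a', v a * v a' * N3 (X a) P P (K a') T := by
  rw [N3_sum1]
  refine Finset.sum_congr rfl fun a _ => ?_
  rw [N3_sumT, Finset.mul_sum]
  refine Finset.sum_congr rfl fun a' _ => ?_
  ring

theorem N3_bilinXX (v : Vec n) (X : Fin n → Mat n) (P : Mat n) (T : Ten n) :
    N3 (∑ a, v a • X a) (∑ a, v a • X a) P T T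
      = ∑ a, ∑ a', v a * v a' * N3 (X a) (X a') P T T := by
  rw [N3_sum1]
  refine Finset.sum_congr rfl fun a _ => ?_
  rw [N3_sum2, Finset.mul_sum]
  refine Finset.sum_congr rfl fun a' _ => ?_
  ring

/-- the second order part of the generator for the pair of directions `(a, a')` -/
noncomputable def gen (F : Profile) (β : Vec n) (lam : ℝ) (P : Mat n) (T : Ten n)
    (K : Fin n → Ten n) (X : Fin n → Mat n) (a a' : Fin n) : ℝ :=
  NN P (K a) (K a') + 6 * N3 (X a) P P (K a') T + 3 * N3 (X a) (X a') P T T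
  - lam * (3 * (Gam F β T a a' * (P * P * P)).trace
    + 3 * (Sd F β T a * P * Sd F β T a' * (P * P)).trace
    + 3 * (X a * (Sd F β T a' * (P * P) + P * Sd F β T a' * P + P * P * Sd F β T a')).trace
    + 3 * (X a * X a' * P).trace)

/-- test function in direction `v`, coupling `X` -/
def TestC (D : TiltData n) (F : Profile) (B : Mat n) (c : Vec n) (L : Mat n) (lam : ℝ)
    (P : Mat n) (v : Vec n) (X : Mat n) : Prop :=
  ∀ᶠ t in 𝓝 (0 : ℝ), NN (P + t • X) (frT L (D.T B (c + t • dirv L v)))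
      (frT L (D.T B (c + t • dirv L v)))
    ≤ lam * (((L * Sf F.p (D.A B (c + t • dirv L v)) B * Lᵀ) * (P + t • X)) ^ 3).trace

/-- test function along the flow -/
def TestF (D : TiltData n) (F : Profile) (B : Mat n) (c : Vec n) (L : Mat n) (lam : ℝ)
    (G : ℝ → ℝ) (P Q : Mat n) : Prop :=
  ∀ᶠ t in 𝓝[≥] (0 : ℝ), NN P (frT L (D.T (B + t • Q) (c + t • (Q *ᵥ D.mu B c))))
      (frT L (D.T (B + t • Q) (c + t • (Q *ᵥ D.mu B c))))
    ≤ (1 + (lam - 1) * G t) * (((L * Sf F.p (D.A (B + t • Q) (c + t • (Q *ᵥ D.mu B c)))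
        (B + t • Q) * Lᵀ) * P) ^ 3).trace

/-- the derivative of `S` in the direction of the fourth cumulant -/
noncomputable def DK (F : Profile) (β : Vec n) (Y : Mat n) : Mat n :=
  Matrix.of fun i j => dd1 F.h F.h1 (β i) (β j) * Y i j

theorem Gam_bilin (β : Vec n) (T : Ten n) (v : Vec n) (i j : Fin n) :
    ∑ k, F.h (β k) * dd2 F.h F.h1 F.h2 (β i) (β k) (β j) * (∑ a, v a * T a i k)
        * (∑ a, v a * T a k j)
      = (∑ a, ∑ a', (v a * v a') • Gam F β T a a') i j := by
  simp only [Matrix.sum_apply, Matrix.smul_apply, Gam, Matrix.of_apply, smul_eq_mul,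
    Finset.mul_sum, Finset.sum_mul]
  have s1 : ∀ f : Fin n → Fin n → Fin n → ℝ,
      ∑ k, ∑ a', ∑ a, f k a' a = ∑ a, ∑ a', ∑ k, f k a' a := by
    intro f
    calc ∑ k, ∑ a', ∑ a, f k a' a = ∑ k, ∑ a, ∑ a', f k a' a :=
          Finset.sum_congr rfl fun _ _ => Finset.sum_comm
      _ = ∑ a, ∑ k, ∑ a', f k a' a := Finset.sum_comm
      _ = _ := Finset.sum_congr rfl fun _ _ => Finset.sum_comm
  rw [s1]
  refine Finset.sum_congr rfl fun a _ => Finset.sum_congr rfl fun a' _ =>
    Finset.sum_congr rfl fun k _ => ?_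
  ring

/-- **second order test** in the direction `v` -/
theorem contact_c {B : Mat n} (hB : B.PosDef) {c : Vec n} {L : Mat n} {β : Vec n}
    (h0 : SFr F (D.A B c) B L β) {P : Mat n} (hP : Pᵀ = P) {lam : ℝ}
    (heq : NN P (frT L (D.T B c)) (frT L (D.T B c)) = lam * (P * P * P).trace)
    {X : Fin n → Mat n} (hX : ∀ a, (X a)ᵀ = X a) (v : Vec n)
    (ht : TestC D F B c L lam P v (∑ a, v a • X a)) :
    (3 * (∑ a, v a * N3 (X a) P P (frT L (D.T B c)) (frT L (D.T B c)))
        + 2 * (∑ a, v a * NN P (fr4 L (D.K B c) a) (frT L (D.T B c)))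
      = lam * (3 * (∑ a, v a * (Sd F β (frT L (D.T B c)) a * (P * P * P)).trace)
        + 3 * (∑ a, v a * (X a * (P * P)).trace))) ∧
    ((∑ a, ∑ a', v a * v a' * gen F β lam P (frT L (D.T B c)) (fr4 L (D.K B c)) X a a')
      + 2 * NN P (frT L (R2 (D.R B c) (rk (dirv L v)))) (frT L (D.T B c))
      - lam * (3 * (DK F β (L * K2 (D.K B c) (rk (dirv L v)) * Lᵀ) * (P * P * P)).trace) ≤ 0) := by
  set T := frT L (D.T B c) with hTdef
  set K := fr4 L (D.K B c) with hKdef
  set Xv := ∑ a, v a • X a with hXv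
  have hTs : TSymm T := frT_symm (D.T_symm B c)
  have hKs : KSymm K := fr4_symm (D.K_symm1 B c) (D.K_symm2 B c) (D.K_symm3 B c)
  have hXs : Xvᵀ = Xv := by
    rw [hXv, Matrix.transpose_sum]
    exact Finset.sum_congr rfl fun a _ => by rw [Matrix.transpose_smul, hX]
  have hT := frT_jet2 L (T_jet_c (D := D) hB.posSemidef c (dirv L v))
  rw [frT_K1] at hT
  have hT1s : TSymm (∑ a, v a • K a) := by
    constructor
    · intro i j k
      simp only [Finset.sum_apply, Pi.smul_apply]
      exact Finset.sum_congr rfl fun a _ => by rw [hKs.2.1 a i j k]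
    · intro i j k
      simp only [Finset.sum_apply, Pi.smul_apply]
      exact Finset.sum_congr rfl fun a _ => by rw [hKs.2.2 a i j k]
  have hNN := NN_jet2 le_rfl (MJ2.line P Xv) hT hP hXs hTs hT1s
  have hS := S_jet_c hB h0 (dirv L v)
  have hcub := cube_jet2 le_rfl hS (MJ2.line P Xv)
  have hJ := hNN.sub (hcub.const_mul lam)
  have hle := hJ.le_test (by
    filter_upwards [ht] with t ht
    rw [heq, sub_self]
    linarith)
  -- the direction derivative of `S`
  have hconj : ∀ i j, (L * T1 (D.T B c) (dirv L v) * Lᵀ) i j = ∑ a, v a * T a i j := fun i j =>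
    conj_T1 L (D.T_symm B c) v i j
  have hS1 : (Matrix.of fun i j => dd1 F.h F.h1 (β i) (β j)
      * (L * T1 (D.T B c) (dirv L v) * Lᵀ) i j) = ∑ a, v a • Sd F β T a := by
    ext i j
    simp only [Matrix.of_apply, hconj, Matrix.sum_apply, Matrix.smul_apply, Sd, smul_eq_mul,
      Finset.mul_sum]
    exact Finset.sum_congr rfl fun a _ => by ring
  have hS2 : (Matrix.of fun i j => dd1 F.h F.h1 (β i) (β j)
        * (L * K2 (D.K B c) (rk (dirv L v)) * Lᵀ) i j
        + ∑ k, F.h (β k) * dd2 F.h F.h1 F.h2 (β i) (β k) (β j)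
            * (L * T1 (D.T B c) (dirv L v) * Lᵀ) i k
            * (L * T1 (D.T B c) (dirv L v) * Lᵀ) k j)
      = DK F β (L * K2 (D.K B c) (rk (dirv L v)) * Lᵀ)
        + ∑ a, ∑ a', (v a * v a') • Gam F β T a a' := by
    ext i j
    simp only [Matrix.of_apply, hconj, Matrix.add_apply, DK]
    rw [Gam_bilin]
  rw [hS1, hS2] at hle
  refine ⟨?_, ?_⟩
  · have h1 := hle.1
    have e1 : N3 Xv P P T T = ∑ a, v a * N3 (X a) P P T T := N3_sum1 _ _ _ _ _ _
    have e2 : NN P (∑ a, v a • K a) T = ∑ a, v a * NN P (K a) T := N3_sumT _ _ _ _ _ _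
    have e3 : ((∑ a, v a • Sd F β T a) * (P * P * P)).trace
        = ∑ a, v a * (Sd F β T a * (P * P * P)).trace := by
      simp only [Finset.sum_mul, Matrix.trace_sum, Matrix.smul_mul, Matrix.trace_smul, smul_eq_mul]
    have e4 : (Xv * (P * P)).trace = ∑ a, v a * (X a * (P * P)).trace := by
      rw [hXv]
      simp only [Finset.sum_mul, Matrix.trace_sum, Matrix.smul_mul, Matrix.trace_smul, smul_eq_mul]
    rw [e1, e2, e3, e4] at h1
    linarith
  · have h2 := hle.2
    have e1 : NN P (∑ a, v a • K a) (∑ a, v a • K a)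
        = ∑ a, ∑ a', v a * v a' * NN P (K a) (K a') := NN_bilin _ _ _
    have e2 : N3 Xv P P (∑ a, v a • K a) T = ∑ a, ∑ a', v a * v a' * N3 (X a) P P (K a') T :=
      N3_bilinXK _ _ _ _ _
    have e3 : N3 Xv Xv P T T = ∑ a, ∑ a', v a * v a' * N3 (X a) (X a') P T T := N3_bilinXX _ _ _ _
    have e4 : ((∑ a, v a • Sd F β T a) * P * (∑ a, v a • Sd F β T a) * (P * P)).trace
        = ∑ a, ∑ a', v a * v a' * (Sd F β T a * P * Sd F β T a' * (P * P)).trace :=
      tr_bilin _ _ _ _ _
    have e5 : (Xv * ((∑ a, v a • Sd F β T a) * (P * P) + P * (∑ a, v a • Sd F β T a) * P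
        + P * P * (∑ a, v a • Sd F β T a))).trace
        = ∑ a, ∑ a', v a * v a' *
          (X a * (Sd F β T a' * (P * P) + P * Sd F β T a' * P + P * P * Sd F β T a')).trace := by
      have f1 := tr_bilin v X (Sd F β T) 1 (P * P)
      have f2 := tr_bilin v X (Sd F β T) P P
      have f3 := tr_bilin v X (Sd F β T) (P * P) 1
      rw [Matrix.mul_add, Matrix.mul_add, Matrix.trace_add, Matrix.trace_add]
      have g1 : (Xv * ((∑ a, v a • Sd F β T a) * (P * P))).trace
          = ∑ a, ∑ a', v a * v a' * (X a * (Sd F β T a' * (P * P))).trace := by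
        simpa only [Matrix.mul_one, Matrix.mul_assoc] using f1
      have g2 : (Xv * (P * (∑ a, v a • Sd F β T a) * P)).trace
          = ∑ a, ∑ a', v a * v a' * (X a * (P * Sd F β T a' * P)).trace := by
        simpa only [Matrix.mul_one, Matrix.mul_assoc] using f2
      have g3 : (Xv * (P * P * (∑ a, v a • Sd F β T a))).trace
          = ∑ a, ∑ a', v a * v a' * (X a * (P * P * Sd F β T a')).trace := by
        simpa only [Matrix.mul_one, Matrix.mul_assoc] using f3
      rw [g1, g2, g3, ← Finset.sum_add_distrib, ← Finset.sum_add_distrib]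
      refine Finset.sum_congr rfl fun a _ => ?_
      rw [← Finset.sum_add_distrib, ← Finset.sum_add_distrib]
      refine Finset.sum_congr rfl fun a' _ => ?_
      rw [Matrix.mul_add, Matrix.mul_add, Matrix.trace_add, Matrix.trace_add]
      ring
    have e6 : (Xv * Xv * P).trace = ∑ a, ∑ a', v a * v a' * (X a * X a' * P).trace := by
      have f1 := tr_bilin v X X 1 P
      simpa only [Matrix.mul_one] using f1
    have e7 : ((DK F β (L * K2 (D.K B c) (rk (dirv L v)) * Lᵀ)
        + ∑ a, ∑ a', (v a * v a') • Gam F β T a a') * (P * P * P)).trace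
        = (DK F β (L * K2 (D.K B c) (rk (dirv L v)) * Lᵀ) * (P * P * P)).trace
          + ∑ a, ∑ a', v a * v a' * (Gam F β T a a' * (P * P * P)).trace := by
      rw [Matrix.add_mul, Matrix.trace_add]
      congr 1
      simp only [Finset.sum_mul, Matrix.trace_sum, Matrix.smul_mul, Matrix.trace_smul, smul_eq_mul]
    rw [e1, e2, e3, e4, e5, e6, e7] at h2
    have e8 : ∑ a, ∑ a', v a * v a' * gen F β lam P T K X a a'
        = (∑ a, ∑ a', v a * v a' * NN P (K a) (K a'))
          + 6 * (∑ a, ∑ a', v a * v a' * N3 (X a) P P (K a') T)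
          + 3 * (∑ a, ∑ a', v a * v a' * N3 (X a) (X a') P T T)
          - lam * (3 * (∑ a, ∑ a', v a * v a' * (Gam F β T a a' * (P * P * P)).trace)
            + 3 * (∑ a, ∑ a', v a * v a' * (Sd F β T a * P * Sd F β T a' * (P * P)).trace)
            + 3 * (∑ a, ∑ a', v a * v a' *
              (X a * (Sd F β T a' * (P * P) + P * Sd F β T a' * P + P * P * Sd F β T a')).trace)
            + 3 * (∑ a, ∑ a', v a * v a' * (X a * X a' * P).trace)) := by
      simp only [Finset.mul_sum, ← Finset.sum_add_distrib, ← Finset.sum_sub_distrib]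
      refine Finset.sum_congr rfl fun a _ => Finset.sum_congr rfl fun a' _ => ?_
      unfold gen
      ring
    rw [e8]
    linarith

/-- **first order test** along the flow -/
theorem contact_f {B : Mat n} (hB : B.PosDef) {c : Vec n} {L : Mat n} {β : Vec n}
    (h0 : SFr F (D.A B c) B L β) {P : Mat n} (hP : Pᵀ = P) {lam κ : ℝ} {G : ℝ → ℝ}
    (hG : J1 (𝓝[≥] 0) G 1 (-κ))
    (heq : NN P (frT L (D.T B c)) (frT L (D.T B c)) = lam * (P * P * P).trace)
    {Qh : Mat n} (hQ : (Lᵀ * Qh * L).PosSemidef)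
    (ht : TestF D F B c L lam G P (Lᵀ * Qh * L)) :
    - 6 * NN P (AQT F β (frT L (D.T B c)) Qh) (frT L (D.T B c))
      - 2 * NN P (frT L (R2 (D.R B c) (Lᵀ * Qh * L))) (frT L (D.T B c))
      - lam * (3 * (Sflow F β Qh * (P * P * P)).trace)
      + lam * (3 * (DK F β (L * K2 (D.K B c) (Lᵀ * Qh * L) * Lᵀ) * (P * P * P)).trace)
      + κ * (lam - 1) * (P * P * P).trace ≤ 0 := by
  set T := frT L (D.T B c) with hTdef
  have hTs : TSymm T := frT_symm (D.T_symm B c)
  have hT := frT_jet1 L (T_jet_f (D := D) hB.posSemidef c hQ)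
  have e0 : frT L (-slot3 (D.A B c * (Lᵀ * Qh * L)) (D.T B c) - R2 (D.R B c) (Lᵀ * Qh * L))
      = - slot3 ((Matrix.diagonal fun i => 1 / F.p (β i)) * Qh) T
        - frT L (R2 (D.R B c) (Lᵀ * Qh * L)) := by
    have := (frTL L).map_sub (-slot3 (D.A B c * (Lᵀ * Qh * L)) (D.T B c))
      (R2 (D.R B c) (Lᵀ * Qh * L))
    have h2 := (frTL L).map_neg (slot3 (D.A B c * (Lᵀ * Qh * L)) (D.T B c))
    rw [h2] at this
    rw [← frT_slot3 h0]
    exact this
  rw [e0] at hT
  have hNN := NN_jet1 nhdsWithin_le_nhds hT hP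
  have hS := S_jet_f hB h0 hQ
  have hcub := cube_jet1 nhdsWithin_le_nhds P hS
  have hlam : J1 (𝓝[≥] 0) (fun t => 1 + (lam - 1) * G t) lam (-(κ * (lam - 1))) := by
    refine ((J1.const 1).add (hG.const_mul (lam - 1))).congr_coef ?_ ?_ <;> ring
  have hJ := hNN.sub (hlam.mul nhdsWithin_le_nhds hcub)
  have hle := hJ.le_test (by
    unfold TestF at ht
    filter_upwards [ht] with t ht
    rw [heq, sub_self]
    linarith)
  have e1 : NN P (-slot3 ((Matrix.diagonal fun i => 1 / F.p (β i)) * Qh) T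
      - frT L (R2 (D.R B c) (Lᵀ * Qh * L))) T
      = - (3 * NN P (AQT F β T Qh) T) - NN P (frT L (R2 (D.R B c) (Lᵀ * Qh * L))) T := by
    have h1 : NN P (slot3 ((Matrix.diagonal fun i => 1 / F.p (β i)) * Qh) T) T
        = 3 * NN P (AQT F β T Qh) T := by
      rw [NN_slot3 hTs]
      congr 2
      funext i j k
      unfold AQT
      refine Finset.sum_congr rfl fun l _ => ?_
      rw [Matrix.diagonal_mul]
    rw [← h1]
    unfold NN
    rw [N3_subT, N3_negT]
  rw [e1] at hle
  have e2 : ((Sflow F β Qh - Matrix.of fun i j => dd1 F.h F.h1 (β i) (β j)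
        * (L * K2 (D.K B c) (Lᵀ * Qh * L) * Lᵀ) i j) * (P * P * P)).trace
      = (Sflow F β Qh * (P * P * P)).trace
        - (DK F β (L * K2 (D.K B c) (Lᵀ * Qh * L) * Lᵀ) * (P * P * P)).trace := by
    rw [Matrix.sub_mul, Matrix.trace_sub]
    rfl
  rw [e2] at hle
  linarith

end Vale.Agent.P254.X602
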