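import Vale.Agent.P254.Bdl.B3

set_option linter.all false

/-!
P254, block (X) (helper602): jets of the functionals `⟨T, P⊗P⊗P T⟩` and `tr ((S P)^3)`.
Everything here is about curves of matrices and tensors with given entrywise jets.
-/

namespace Vale.Agent.P254.X602

open Matrix Filter Topology Asymptotics Set
open Vale.Agent.P254.L

variable {n : ℕ} {l : Filter ℝ}

/-- entrywise second order jet of a curve of matrices -/
def MJ2 (l : Filter ℝ) (M : ℝ → Mat n) (M0 M1 M2 : Mat n) : Prop :=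
  ∀ i j, J2 l (fun t => M t i j) (M0 i j) (M1 i j) (M2 i j)

/-- entrywise first order jet of a curve of matrices -/
def MJ1 (l : Filter ℝ) (M : ℝ → Mat n) (M0 M1 : Mat n) : Prop :=
  ∀ i j, J1 l (fun t => M t i j) (M0 i j) (M1 i j)

/-- entrywise second order jet of a curve of 3-tensors -/
def TJ2 (l : Filter ℝ) (T : ℝ → Ten n) (T0 T1 T2 : Ten n) : Prop :=
  ∀ i j k, J2 l (fun t => T t i j k) (T0 i j k) (T1 i j k) (T2 i j k)

/-- entrywise first order jet of a curve of 3-tensors -/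
def TJ1 (l : Filter ℝ) (T : ℝ → Ten n) (T0 T1 : Ten n) : Prop :=
  ∀ i j k, J1 l (fun t => T t i j k) (T0 i j k) (T1 i j k)

theorem MJ2.mul (hl : l ≤ 𝓝 0) {M N : ℝ → Mat n} {M0 M1 M2 N0 N1 N2 : Mat n}
    (hM : MJ2 l M M0 M1 M2) (hN : MJ2 l N N0 N1 N2) :
    MJ2 l (fun t => M t * N t) (M0 * N0) (M0 * N1 + M1 * N0) (M0 * N2 + M1 * N1 + M2 * N0) := by
  intro i j
  have h := J2.sum Finset.univ (fun k _ => (hM i k).mul hl (hN k j))
  refine h.congr (Eventually.of_forall fun t => ?_) ?_ ?_ ?_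
  · simp only [Matrix.mul_apply]
  · simp only [Matrix.mul_apply]
  · simp only [Matrix.mul_apply, Matrix.add_apply, ← Finset.sum_add_distrib]
  · simp only [Matrix.mul_apply, Matrix.add_apply, ← Finset.sum_add_distrib]

theorem MJ1.mul (hl : l ≤ 𝓝 0) {M N : ℝ → Mat n} {M0 M1 N0 N1 : Mat n}
    (hM : MJ1 l M M0 M1) (hN : MJ1 l N N0 N1) :
    MJ1 l (fun t => M t * N t) (M0 * N0) (M0 * N1 + M1 * N0) := by
  intro i j
  have h := J1.sum Finset.univ (fun k _ => (hM i k).mul hl (hN k j))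
  refine h.congr (Eventually.of_forall fun t => ?_) ?_ ?_
  · simp only [Matrix.mul_apply]
  · simp only [Matrix.mul_apply]
  · simp only [Matrix.mul_apply, Matrix.add_apply, ← Finset.sum_add_distrib]

theorem MJ2.trace {M : ℝ → Mat n} {M0 M1 M2 : Mat n} (hM : MJ2 l M M0 M1 M2) :
    J2 l (fun t => (M t).trace) M0.trace M1.trace M2.trace := by
  have h := J2.sum Finset.univ (fun i _ => hM i i)
  exact h

theorem MJ1.trace {M : ℝ → Mat n} {M0 M1 : Mat n} (hM : MJ1 l M M0 M1) :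
    J1 l (fun t => (M t).trace) M0.trace M1.trace := by
  have h := J1.sum Finset.univ (fun i _ => hM i i)
  exact h

theorem MJ2.line (P X : Mat n) : MJ2 l (fun t => P + t • X) P X 0 := by
  intro i j
  refine ((J2.const (P i j)).add (J2.id.mul_const (X i j))).congr
    (Eventually.of_forall fun t => ?_) ?_ ?_ ?_
  · simp only [Matrix.add_apply, Matrix.smul_apply, smul_eq_mul]
  · ring
  · ring
  · simp

theorem MJ1.const (P : Mat n) : MJ1 l (fun _ => P) P 0 := by
  intro i j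
  refine (J1.const (P i j)).congr_coef rfl ?_
  simp

/-- second order jet of `tr ((S P)^3)` at `S = 1` -/
theorem cube_jet2 (hl : l ≤ 𝓝 0) {S P : ℝ → Mat n} {S1 S2 P0 X : Mat n}
    (hS : MJ2 l S 1 S1 S2) (hP : MJ2 l P P0 X 0) :
    J2 l (fun t => ((S t * P t) ^ 3).trace) (P0 * P0 * P0).trace
      (3 * (S1 * (P0 * P0 * P0)).trace + 3 * (X * (P0 * P0)).trace)
      (3 * (S2 * (P0 * P0 * P0)).trace + 3 * (S1 * P0 * S1 * (P0 * P0)).trace
        + 3 * (X * (S1 * (P0 * P0) + P0 * S1 * P0 + P0 * P0 * S1)).trace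
        + 3 * (X * X * P0).trace) := by
  have h1 := hS.mul hl hP
  have h3 := ((h1.mul hl h1).mul hl h1).trace
  refine h3.congr (Eventually.of_forall fun t => ?_) ?_ ?_ ?_
  · simp only [pow_succ, pow_zero, Matrix.one_mul]
  · simp only [Matrix.one_mul]
  · simp only [Matrix.one_mul, Matrix.mul_add, Matrix.add_mul, Matrix.trace_add]
    have e1 : (P0 * P0 * X).trace = (X * (P0 * P0)).trace := Matrix.trace_mul_comm _ _
    have e2 : (P0 * P0 * (S1 * P0)).trace = (S1 * (P0 * P0 * P0)).trace := by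
      rw [Matrix.trace_mul_comm]; simp only [Matrix.mul_assoc]
    have e3 : (P0 * X * P0).trace = (X * (P0 * P0)).trace := by
      rw [Matrix.mul_assoc, Matrix.trace_mul_comm]; simp only [Matrix.mul_assoc]
    have e4 : (P0 * (S1 * P0) * P0).trace = (S1 * (P0 * P0 * P0)).trace := by
      rw [Matrix.mul_assoc, Matrix.trace_mul_comm]; simp only [Matrix.mul_assoc]
    have e5 : (X * P0 * P0).trace = (X * (P0 * P0)).trace := by rw [Matrix.mul_assoc]
    have e6 : (S1 * P0 * P0 * P0).trace = (S1 * (P0 * P0 * P0)).trace := by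
      try simp only [Matrix.mul_assoc]
    rw [e1, e2, e3, e4, e5, e6]
    ring
  · simp only [Matrix.one_mul, Matrix.mul_add, Matrix.add_mul, Matrix.trace_add, Matrix.mul_zero,
      Matrix.zero_mul, Matrix.trace_zero, add_zero, zero_add]
    simp only [Matrix.mul_assoc]
    have c (U V : Mat n) : (U * V).trace = (V * U).trace := Matrix.trace_mul_comm _ _
    have r0 : (P0 * (P0 * (S1 * X))).trace = (X * (P0 * (P0 * S1))).trace := by
      rw [show ((P0 * (P0 * (S1 * X))) : Mat n) = (P0 * (P0 * S1)) * X from by simp only [Matrix.mul_assoc], c]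
      try simp only [Matrix.mul_assoc]
    have r1 : (P0 * (P0 * (S2 * P0))).trace = (S2 * (P0 * (P0 * P0))).trace := by
      rw [show ((P0 * (P0 * (S2 * P0))) : Mat n) = (P0 * P0) * (S2 * P0) from by simp only [Matrix.mul_assoc], c]
      try simp only [Matrix.mul_assoc]
    have r2 : (P0 * (X * X)).trace = (X * (X * P0)).trace := by
      rw [show ((P0 * (X * X)) : Mat n) = P0 * (X * X) from by simp only [Matrix.mul_assoc], c]
      try simp only [Matrix.mul_assoc]
    have r3 : (P0 * (S1 * (P0 * X))).trace = (X * (P0 * (S1 * P0))).trace := by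
      rw [show ((P0 * (S1 * (P0 * X))) : Mat n) = (P0 * (S1 * P0)) * X from by simp only [Matrix.mul_assoc], c]
      try simp only [Matrix.mul_assoc]
    have r4 : (X * (P0 * X)).trace = (X * (X * P0)).trace := by
      rw [show ((X * (P0 * X)) : Mat n) = (X * P0) * X from by simp only [Matrix.mul_assoc], c]
      try simp only [Matrix.mul_assoc]
    have r5 : (S1 * (P0 * (P0 * X))).trace = (X * (S1 * (P0 * P0))).trace := by
      rw [show ((S1 * (P0 * (P0 * X))) : Mat n) = (S1 * (P0 * P0)) * X from by simp only [Matrix.mul_assoc], c]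
      try simp only [Matrix.mul_assoc]
    have r6 : (P0 * (X * (S1 * P0))).trace = (X * (S1 * (P0 * P0))).trace := by
      rw [show ((P0 * (X * (S1 * P0))) : Mat n) = P0 * (X * (S1 * P0)) from by simp only [Matrix.mul_assoc], c]
      try simp only [Matrix.mul_assoc]
    have r7 : (P0 * (S1 * (P0 * (S1 * P0)))).trace = (S1 * (P0 * (S1 * (P0 * P0)))).trace := by
      rw [show ((P0 * (S1 * (P0 * (S1 * P0)))) : Mat n) = P0 * (S1 * (P0 * (S1 * P0))) from by simp only [Matrix.mul_assoc], c]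
      try simp only [Matrix.mul_assoc]
    have r8 : (S1 * (P0 * (P0 * (S1 * P0)))).trace = (S1 * (P0 * (S1 * (P0 * P0)))).trace := by
      rw [show ((S1 * (P0 * (P0 * (S1 * P0)))) : Mat n) = (S1 * (P0 * P0)) * (S1 * P0) from by simp only [Matrix.mul_assoc], c]
      try simp only [Matrix.mul_assoc]
    have r9 : (P0 * (S1 * (X * P0))).trace = (X * (P0 * (P0 * S1))).trace := by
      rw [show ((P0 * (S1 * (X * P0))) : Mat n) = (P0 * S1) * (X * P0) from by simp only [Matrix.mul_assoc], c]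
      try simp only [Matrix.mul_assoc]
    have r10 : (P0 * (S2 * (P0 * P0))).trace = (S2 * (P0 * (P0 * P0))).trace := by
      rw [show ((P0 * (S2 * (P0 * P0))) : Mat n) = P0 * (S2 * (P0 * P0)) from by simp only [Matrix.mul_assoc], c]
      try simp only [Matrix.mul_assoc]
    have r11 : (S1 * (P0 * (X * P0))).trace = (X * (P0 * (S1 * P0))).trace := by
      rw [show ((S1 * (P0 * (X * P0))) : Mat n) = (S1 * P0) * (X * P0) from by simp only [Matrix.mul_assoc], c]
      try simp only [Matrix.mul_assoc]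
    have r12 : (S1 * (X * (P0 * P0))).trace = (X * (P0 * (P0 * S1))).trace := by
      rw [show ((S1 * (X * (P0 * P0))) : Mat n) = S1 * (X * (P0 * P0)) from by simp only [Matrix.mul_assoc], c]
      try simp only [Matrix.mul_assoc]
    simp only [r0, r1, r2, r3, r4, r5, r6, r7, r8, r9, r10, r11, r12]
    ring

/-- first order jet of `tr ((S P)^3)` at `S = 1`, `P` fixed -/
theorem cube_jet1 (hl : l ≤ 𝓝 0) {S : ℝ → Mat n} {S1 : Mat n} (P0 : Mat n)
    (hS : MJ1 l S 1 S1) :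
    J1 l (fun t => ((S t * P0) ^ 3).trace) (P0 * P0 * P0).trace
      (3 * (S1 * (P0 * P0 * P0)).trace) := by
  have h1 := hS.mul hl (MJ1.const P0)
  have h3 := ((h1.mul hl h1).mul hl h1).trace
  refine h3.congr (Eventually.of_forall fun t => ?_) ?_ ?_
  · simp only [pow_succ, pow_zero, Matrix.one_mul]
  · simp only [Matrix.one_mul]
  · simp only [Matrix.one_mul, Matrix.mul_add, Matrix.add_mul, Matrix.trace_add, Matrix.mul_zero,
      Matrix.zero_mul, Matrix.trace_zero, add_zero, zero_add]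
    have c (U V : Mat n) : (U * V).trace = (V * U).trace := Matrix.trace_mul_comm _ _
    have e2 : (P0 * P0 * (S1 * P0)).trace = (S1 * (P0 * P0 * P0)).trace := by
      rw [Matrix.trace_mul_comm]; simp only [Matrix.mul_assoc]
    have e4 : (P0 * (S1 * P0) * P0).trace = (S1 * (P0 * P0 * P0)).trace := by
      rw [Matrix.mul_assoc, Matrix.trace_mul_comm]; simp only [Matrix.mul_assoc]
    have e6 : (S1 * P0 * P0 * P0).trace = (S1 * (P0 * P0 * P0)).trace := by
      simp only [Matrix.mul_assoc]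
    rw [e2, e4, e6]
    ring

/-! ### the form `N3` -/

theorem N3_symm {P1 P2 P3 : Mat n} (h1 : P1ᵀ = P1) (h2 : P2ᵀ = P2) (h3 : P3ᵀ = P3) (T T' : Ten n) :
    N3 P1 P2 P3 T T' = N3 P1 P2 P3 T' T := by
  have g1 : ∀ a b, P1 a b = P1 b a := fun a b => congrFun (congrFun h1 b) a
  have g2 : ∀ a b, P2 a b = P2 b a := fun a b => congrFun (congrFun h2 b) a
  have g3 : ∀ a b, P3 a b = P3 b a := fun a b => congrFun (congrFun h3 b) a
  unfold N3
  have e : ∀ f : Fin n → Fin n → Fin n → Fin n → Fin n → Fin n → ℝ,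
      ∑ a, ∑ b, ∑ c, ∑ a', ∑ b', ∑ c', f a b c a' b' c'
      = ∑ a', ∑ b', ∑ c', ∑ a, ∑ b, ∑ c, f a b c a' b' c' := by
    intro f
    have h := fun F : (Fin n × Fin n × Fin n) → (Fin n × Fin n × Fin n) → ℝ =>
      Finset.sum_comm (s := Finset.univ) (t := Finset.univ) (f := F)
    have h' := h fun x y => f x.1 x.2.1 x.2.2 y.1 y.2.1 y.2.2
    simpa only [Fintype.sum_prod_type] using h'
  rw [e]
  refine Finset.sum_congr rfl fun a _ => Finset.sum_congr rfl fun b _ =>
    Finset.sum_congr rfl fun c _ => Finset.sum_congr rfl fun a' _ =>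
    Finset.sum_congr rfl fun b' _ => Finset.sum_congr rfl fun c' _ => ?_
  rw [g1 a' a, g2 b' b, g3 c' c]
  ring

theorem N3_swap12 (P1 P2 P3 : Mat n) {T T' : Ten n} (hT : TSymm T) (hT' : TSymm T') :
    N3 P1 P2 P3 T T' = N3 P2 P1 P3 T T' := by
  unfold N3
  rw [Finset.sum_comm]
  refine Finset.sum_congr rfl fun a _ => Finset.sum_congr rfl fun b _ =>
    Finset.sum_congr rfl fun c _ => ?_
  rw [Finset.sum_comm]
  refine Finset.sum_congr rfl fun a' _ => Finset.sum_congr rfl fun b' _ =>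
    Finset.sum_congr rfl fun c' _ => ?_
  rw [hT.1 b a c, hT'.1 b' a' c']
  ring

theorem N3_swap23 (P1 P2 P3 : Mat n) {T T' : Ten n} (hT : TSymm T) (hT' : TSymm T') :
    N3 P1 P2 P3 T T' = N3 P1 P3 P2 T T' := by
  unfold N3
  refine Finset.sum_congr rfl fun a _ => ?_
  rw [Finset.sum_comm]
  refine Finset.sum_congr rfl fun b _ =>
    Finset.sum_congr rfl fun c _ => Finset.sum_congr rfl fun a' _ => ?_
  rw [Finset.sum_comm]
  refine Finset.sum_congr rfl fun b' _ => Finset.sum_congr rfl fun c' _ => ?_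
  rw [hT.2 a c b, hT'.2 a' c' b']
  ring

/-- second order jet of `N3` -/
theorem N3_jet2 (hl : l ≤ 𝓝 0) {P : ℝ → Mat n} {T : ℝ → Ten n} {P0 X : Mat n} {T0 T1 T2 : Ten n}
    (hP : MJ2 l P P0 X 0) (hT : TJ2 l T T0 T1 T2) :
    J2 l (fun t => NN (P t) (T t) (T t)) (NN P0 T0 T0)
      (N3 X P0 P0 T0 T0 + N3 P0 X P0 T0 T0 + N3 P0 P0 X T0 T0 + NN P0 T1 T0 + NN P0 T0 T1)
      (N3 X X P0 T0 T0 + N3 X P0 X T0 T0 + N3 P0 X X T0 T0
        + (N3 X P0 P0 T1 T0 + N3 P0 X P0 T1 T0 + N3 P0 P0 X T1 T0)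
        + (N3 X P0 P0 T0 T1 + N3 P0 X P0 T0 T1 + N3 P0 P0 X T0 T1)
        + NN P0 T1 T1 + NN P0 T2 T0 + NN P0 T0 T2) := by
  have h := J2.sum (Finset.univ : Finset (Fin n)) (fun a _ => J2.sum (Finset.univ : Finset (Fin n))
    (fun b _ => J2.sum (Finset.univ : Finset (Fin n)) (fun c _ =>
    J2.sum (Finset.univ : Finset (Fin n)) (fun a' _ => J2.sum (Finset.univ : Finset (Fin n))
    (fun b' _ => J2.sum (Finset.univ : Finset (Fin n)) (fun c' _ =>
      ((((hP a a').mul hl (hP b b')).mul hl (hP c c')).mul hl (hT a b c)).mul hl (hT a' b' c')))))))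
  refine h.congr (Eventually.of_forall fun t => rfl) rfl ?_ ?_
  · unfold NN N3
    simp only [← Finset.sum_add_distrib]
    refine Finset.sum_congr rfl fun a _ => Finset.sum_congr rfl fun b _ =>
      Finset.sum_congr rfl fun c _ => Finset.sum_congr rfl fun a' _ =>
      Finset.sum_congr rfl fun b' _ => Finset.sum_congr rfl fun c' _ => ?_
    ring
  · unfold NN N3
    simp only [← Finset.sum_add_distrib, Matrix.zero_apply]
    refine Finset.sum_congr rfl fun a _ => Finset.sum_congr rfl fun b _ =>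
      Finset.sum_congr rfl fun c _ => Finset.sum_congr rfl fun a' _ =>
      Finset.sum_congr rfl fun b' _ => Finset.sum_congr rfl fun c' _ => ?_
    ring

/-- second order jet of `⟨T, P⊗P⊗P T⟩`, symmetric case -/
theorem NN_jet2 (hl : l ≤ 𝓝 0) {P : ℝ → Mat n} {T : ℝ → Ten n} {P0 X : Mat n} {T0 T1 T2 : Ten n}
    (hP : MJ2 l P P0 X 0) (hT : TJ2 l T T0 T1 T2) (hP0 : P0ᵀ = P0) (hX : Xᵀ = X)
    (h0 : TSymm T0) (h1 : TSymm T1) :
    J2 l (fun t => NN (P t) (T t) (T t)) (NN P0 T0 T0)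
      (3 * N3 X P0 P0 T0 T0 + 2 * NN P0 T1 T0)
      (NN P0 T1 T1 + 6 * N3 X P0 P0 T1 T0 + 3 * N3 X X P0 T0 T0 + 2 * NN P0 T2 T0) := by
  refine (N3_jet2 hl hP hT).congr_coef rfl ?_ ?_
  · have e1 : N3 P0 X P0 T0 T0 = N3 X P0 P0 T0 T0 := N3_swap12 _ _ _ h0 h0
    have e2 : N3 P0 P0 X T0 T0 = N3 X P0 P0 T0 T0 := by
      rw [N3_swap23 _ _ _ h0 h0, e1]
    have e3 : NN P0 T0 T1 = NN P0 T1 T0 := N3_symm hP0 hP0 hP0 _ _
    rw [e1, e2, e3]; ring
  · have e1 : N3 P0 X X T0 T0 = N3 X X P0 T0 T0 := by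
      rw [N3_swap12 _ _ _ h0 h0, N3_swap23 _ _ _ h0 h0]
    have e2 : N3 X P0 X T0 T0 = N3 X X P0 T0 T0 := N3_swap23 _ _ _ h0 h0
    have e3 : NN P0 T0 T2 = NN P0 T2 T0 := N3_symm hP0 hP0 hP0 _ _
    have e4 : N3 P0 X P0 T1 T0 = N3 X P0 P0 T1 T0 := N3_swap12 _ _ _ h1 h0
    have e5 : N3 P0 P0 X T1 T0 = N3 X P0 P0 T1 T0 := by
      rw [N3_swap23 _ _ _ h1 h0, e4]
    have e6 : N3 X P0 P0 T0 T1 = N3 X P0 P0 T1 T0 := N3_symm hX hP0 hP0 _ _
    have e7 : N3 P0 X P0 T0 T1 = N3 X P0 P0 T1 T0 := by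
      rw [N3_swap12 _ _ _ h0 h1, e6]
    have e8 : N3 P0 P0 X T0 T1 = N3 X P0 P0 T1 T0 := by
      rw [N3_swap23 _ _ _ h0 h1, e7]
    rw [e1, e2, e3, e4, e5, e6, e7, e8]; ring

/-- first order jet of `⟨T, P⊗P⊗P T⟩`, `P` fixed -/
theorem NN_jet1 (hl : l ≤ 𝓝 0) {T : ℝ → Ten n} {P0 : Mat n} {T0 T1 : Ten n}
    (hT : TJ1 l T T0 T1) (hP0 : P0ᵀ = P0) :
    J1 l (fun t => NN P0 (T t) (T t)) (NN P0 T0 T0) (2 * NN P0 T1 T0) := by
  have h := J1.sum (Finset.univ : Finset (Fin n)) (fun a _ => J1.sum (Finset.univ : Finset (Fin n))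
    (fun b _ => J1.sum (Finset.univ : Finset (Fin n)) (fun c _ =>
    J1.sum (Finset.univ : Finset (Fin n)) (fun a' _ => J1.sum (Finset.univ : Finset (Fin n))
    (fun b' _ => J1.sum (Finset.univ : Finset (Fin n)) (fun c' _ =>
      ((hT a b c).const_mul (P0 a a' * P0 b b' * P0 c c')).mul hl (hT a' b' c')))))))
  have e3 : NN P0 T0 T1 = NN P0 T1 T0 := N3_symm hP0 hP0 hP0 _ _
  have e4 : 2 * NN P0 T1 T0 = NN P0 T1 T0 + NN P0 T0 T1 := by rw [e3]; ring
  rw [e4]
  refine h.congr (Eventually.of_forall fun t => rfl) rfl ?_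
  unfold NN N3
  simp only [← Finset.sum_add_distrib]
  refine Finset.sum_congr rfl fun a _ => Finset.sum_congr rfl fun b _ =>
    Finset.sum_congr rfl fun c _ => Finset.sum_congr rfl fun a' _ =>
    Finset.sum_congr rfl fun b' _ => Finset.sum_congr rfl fun c' _ => ?_
  ring

end Vale.Agent.P254.X602
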