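import Vale.Agent.P254.Bdl.B3

set_option linter.all false

/-!
P254, block (X) (helper602): existence of the contact point, for a general functional
`R B c P`, `P` in the compact set `{P ≥ 0, tr P = 1}`.
-/

namespace Vale.Agent.P254.X602

open Matrix Polynomial Filter Topology Asymptotics Set
open Vale.Agent.P254.L

variable {n : ℕ} {F : Profile} {D : TiltData n}

/-- test matrices -/
def PP (n : ℕ) : Set (Mat n) := {P | P.PosSemidef ∧ P.trace = 1}

theorem PP_compact : IsCompact (PP n) := by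
  refine (isCompact_box (n := n) 1).of_isClosed_subset ?_ ?_
  · refine isClosed_psd.inter ?_
    exact isClosed_eq (continuous_id.matrix_trace) continuous_const
  · rintro P ⟨h1, h2⟩ i j
    have h3 := Fr.abs_le_trace h1 i j
    rw [h2] at h3
    exact abs_le.1 h3

theorem PP_ne_zero {P : Mat n} (h : P ∈ PP n) : P ≠ 0 := by
  rintro rfl
  have := h.2
  simp at this

theorem B_le_of_Dom {B0 : Mat n} {a M' Λ S ρ ρ' : ℝ} {p : ℝ × Mat n × Vec n}
    (hp : p ∈ Dom B0 a M' Λ S ρ) (hρ : 0 ≤ ρ') : (p.1, p.2.1, (0 : Vec n)) ∈ Dom B0 a M' Λ S ρ' :=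
  ⟨hp.1, hp.2.1, hp.2.2.1, by simpa using hρ⟩

/-- **Existence of a good maximum point.** -/
theorem exists_max {R : Mat n → Vec n → Mat n → ℝ}
    (hcont : ContinuousOn (fun p : Mat n × Vec n × Mat n => R p.1 p.2.1 p.2.2)
      ({B | B.PosDef} ×ˢ (univ ×ˢ PP n)))
    (htop : ∃ b : ℝ, 0 < b ∧ ∀ B : Mat n, B.PosDef → (B - b • (1 : Mat n)).PosSemidef →
      ∀ c, ∀ P ∈ PP n, R B c P ≤ 1)
    (hside : ∀ a b : ℝ, 0 < a → ∃ ρ : ℝ, ∀ B : Mat n, (B - a • (1 : Mat n)).PosSemidef →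
      (b • (1 : Mat n) - B).PosSemidef → ∀ c : Vec n, ρ ≤ ‖c‖ → ∀ P ∈ PP n, R B c P ≤ 1)
    {q0 Λ : ℝ} (hq0 : 0 < q0) (hΛ : q0 ≤ Λ) {B0 : Mat n} {c0 : Vec n} {P0 : Mat n}
    (hB0 : B0.PosDef) (hP0 : P0 ∈ PP n) (h : 1 < R B0 c0 P0) :
    ∃ a0 b0 Rm : ℝ, 0 < a0 ∧ a0 ≤ b0 ∧ ∀ κ : ℝ, 0 ≤ κ →
      ∃ (B : Mat n) (c : Vec n) (P : Mat n), B.PosDef ∧ (B - a0 • (1 : Mat n)).PosSemidef ∧
        (b0 • (1 : Mat n) - B).PosSemidef ∧ P ∈ PP n ∧ 1 < R B c P ∧ R B c P ≤ Rm ∧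
        (∀ᶠ c' in 𝓝 c, ∀ P' ∈ PP n, R B c' P' ≤ R B c P) ∧
        (∀ Q : Mat n, (Q - q0 • (D.A B c)⁻¹).PosSemidef → (Λ • (D.A B c)⁻¹ - Q).PosSemidef →
          ∀ᶠ t in 𝓝[≥] (0 : ℝ),
            R (B + t • Q) (c + t • (Q *ᵥ D.mu B c)) P
              ≤ 1 + (R B c P - 1) * Real.exp (-(κ * t))) := by
  have hm := D.hm
  have hMm := D.hM
  have hΛ0 : 0 < Λ := hq0.trans_le hΛ
  obtain ⟨b, hb0, hb⟩ := htop
  obtain ⟨M', hM0, hM'⟩ := exists_smul_ge (B0 + D.M • (1 : Mat n)) (by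
    rw [Matrix.transpose_add, (psd_iff.1 hB0.posSemidef).1, Matrix.transpose_smul,
      Matrix.transpose_one])
  set a : ℝ := q0 * D.m with ha
  have ha0 : 0 < a := mul_pos hq0 hm
  set S : ℝ := b / a with hS
  have hS0 : 0 < S := div_pos hb0 ha0
  -- lower bound of `B0`
  obtain ⟨a0, ha00, hB0a⟩ : ∃ a0 : ℝ, 0 < a0 ∧ (B0 - a0 • (1 : Mat n)).PosSemidef := by
    obtain ⟨r, hr0, hr⟩ := exists_smul_ge (B0⁻¹) (by
      have := (psd_iff.1 hB0.inv.posSemidef).1
      exact this)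
    refine ⟨(r + 1)⁻¹, by positivity, ?_⟩
    have hr1 : ((r + 1) • (1 : Mat n) - B0⁻¹).PosSemidef := by
      have := hr.add (Matrix.PosSemidef.one (n := Fin n) (R := ℝ))
      refine cast (congrArg Matrix.PosSemidef ?_) this
      rw [add_smul, one_smul]; abel
    obtain ⟨L, β, hF⟩ := exists_Fr hB0.inv (Matrix.PosDef.one (n := Fin n) (R := ℝ)).isHermitian
    have hBL : B0 = Lᵀ * L := by
      have := hF.inv_A
      rwa [Matrix.nonsing_inv_nonsing_inv _ ((Matrix.isUnit_iff_isUnit_det _).1 hB0.isUnit)] at this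
    -- `B0 - (r+1)⁻¹ = Lᵀ (1 - (r+1)⁻¹ β) L`, `β ≤ r+1`
    have h1 : (1 : Mat n) = Lᵀ * Matrix.diagonal β * L := hF.hB
    have e : B0 - (r + 1)⁻¹ • (1 : Mat n)
        = Lᵀ * (1 - (r + 1)⁻¹ • Matrix.diagonal β) * L := by
      rw [Matrix.mul_sub, Matrix.sub_mul, Matrix.mul_one, ← hBL, Matrix.mul_smul, Matrix.smul_mul,
        ← h1]
    rw [e, psd_conj_iff hF.isUnit]
    have hβ : ∀ i, β i ≤ r + 1 := by
      intro i
      have h2 : (L * ((r + 1) • (1 : Mat n) - B0⁻¹) * Lᵀ).PosSemidef := by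
        have := hr1.mul_mul_conjTranspose_same L
        rwa [Matrix.conjTranspose_eq_transpose_of_trivial] at this
      have e2 : L * ((r + 1) • (1 : Mat n) - B0⁻¹) * Lᵀ = (r + 1) • (L * Lᵀ) - 1 := by
        rw [Matrix.mul_sub, Matrix.sub_mul, hF.hA, Matrix.mul_smul, Matrix.mul_one,
          Matrix.smul_mul]
      rw [e2] at h2
      -- `L Lᵀ = (diag β)⁻¹`
      have h3 : Matrix.diagonal β * (L * Lᵀ) = 1 := by
        have h4 : Lᵀ * (Matrix.diagonal β * L) = 1 := by rw [← Matrix.mul_assoc]; exact h1.symm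
        have h5 := mul_eq_one_comm.1 h4
        rwa [Matrix.mul_assoc] at h5
      have h6 : β i * (L * Lᵀ) i i = 1 := by
        have := congrFun (congrFun h3 i) i
        rwa [Matrix.diagonal_mul, Matrix.one_apply_eq] at this
      have h7 := h2.diag_nonneg (i := i)
      simp only [Matrix.sub_apply, Matrix.smul_apply, Matrix.one_apply_eq, smul_eq_mul] at h7
      by_contra hcon
      push Not at hcon
      have hr1' : 0 < r + 1 := by linarith
      have hβ0 : 0 < β i := by linarith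
      have h8 : (L * Lᵀ) i i = 1 / β i := by
        field_simp
        linarith
      rw [h8] at h7
      have h9 : (r + 1) * (1 / β i) < 1 := by
        rw [mul_one_div, div_lt_one hβ0]; exact hcon
      linarith
    have e3 : (1 - (r + 1)⁻¹ • Matrix.diagonal β : Mat n)
        = Matrix.diagonal fun i => 1 - (r + 1)⁻¹ * β i := by
      ext i j
      simp only [Matrix.sub_apply, Matrix.smul_apply, Matrix.diagonal_apply, Matrix.one_apply,
        smul_eq_mul]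
      split_ifs <;> simp
    rw [e3, Matrix.posSemidef_diagonal_iff]
    intro i
    have hr1' : 0 < r + 1 := by linarith
    rw [inv_mul_eq_div, sub_nonneg, div_le_one hr1']
    exact hβ i
  obtain ⟨R1, hR1, -⟩ := Dom_compact (ρ := 0) hB0 (a := a) (M' := M') (Λ := Λ) (S := S) ha0.le hM0
    hΛ0.le
  -- lower bound in the domain
  have hlow : ∀ {ρ : ℝ} {p : ℝ × Mat n × Vec n}, p ∈ Dom B0 a M' Λ S ρ →
      (p.2.1 - a0 • (1 : Mat n)).PosSemidef := by
    intro ρ p hp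
    have h1 := (hp.2.1.add (Matrix.PosSemidef.one.smul (mul_nonneg ha0.le hp.1.1))).add hB0a
    refine cast (congrArg Matrix.PosSemidef ?_) h1
    abel
  obtain ⟨ρ1, hρ1⟩ := hside a0 R1 ha00
  set ρ : ℝ := max ρ1 (‖c0‖ + 1) with hρ
  obtain ⟨R', hR', hK⟩ := Dom_compact (ρ := ρ) hB0 (a := a) (M' := M') (Λ := Λ) (S := S) ha0.le hM0
    hΛ0.le
  have hne : ((0 : ℝ), B0, c0) ∈ Dom B0 a M' Λ S ρ := by
    refine ⟨⟨le_rfl, hS0.le⟩, ?_, ?_, ?_⟩
    · simpa using Matrix.PosSemidef.zero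
    · simpa using Matrix.PosSemidef.zero
    · exact (by linarith : ‖c0‖ ≤ ‖c0‖ + 1).trans (le_max_right _ _)
  have hKP : IsCompact (Dom B0 a M' Λ S ρ ×ˢ PP n) := hK.prod PP_compact
  have hcR : ContinuousOn (fun p : (ℝ × Mat n × Vec n) × Mat n => R p.1.2.1 p.1.2.2 p.2)
      (Dom B0 a M' Λ S ρ ×ˢ PP n) := by
    refine hcont.comp (f := fun p : (ℝ × Mat n × Vec n) × Mat n => (p.1.2.1, p.1.2.2, p.2)) ?_ ?_
    · fun_prop
    · rintro p ⟨hp1, hp2⟩
      exact ⟨Dom_B_mem hB0 ha0.le hp1, trivial, hp2⟩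
  obtain ⟨Rm, hRm⟩ := hKP.exists_bound_of_continuousOn hcR
  refine ⟨a0, max R1 a0, Rm, ha00, le_max_right _ _, fun κ hκ => ?_⟩
  have hcΨ : ContinuousOn (fun p : (ℝ × Mat n × Vec n) × Mat n =>
      (R p.1.2.1 p.1.2.2 p.2 - 1) * Real.exp (κ * p.1.1)) (Dom B0 a M' Λ S ρ ×ˢ PP n) := by
    refine (hcR.sub continuousOn_const).mul ?_
    fun_prop
  obtain ⟨⟨⟨s, B, c⟩, P⟩, hmem, hmax⟩ := hKP.exists_isMaxOn ⟨((0, B0, c0), P0), hne, hP0⟩ hcΨ
  have hmemD : (s, B, c) ∈ Dom B0 a M' Λ S ρ := hmem.1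
  have hP : P ∈ PP n := hmem.2
  have hB : B.PosDef := Dom_B_mem hB0 ha0.le hmemD
  have hmax' : ∀ p ∈ Dom B0 a M' Λ S ρ, ∀ P' ∈ PP n,
      (R p.2.1 p.2.2 P' - 1) * Real.exp (κ * p.1) ≤ (R B c P - 1) * Real.exp (κ * s) :=
    fun p hp P' hP' => hmax (show (p, P') ∈ Dom B0 a M' Λ S ρ ×ˢ PP n from ⟨hp, hP'⟩)
  have hpos : 0 < (R B c P - 1) * Real.exp (κ * s) := by
    have h1 := hmax' _ hne P0 hP0
    simp only [mul_zero, Real.exp_zero, mul_one] at h1
    linarith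
  have hgt : 1 < R B c P := by
    have := pos_of_mul_pos_left hpos (Real.exp_pos _).le
    linarith
  have hs : s < S := by
    rcases hmemD.1.2.lt_or_eq with h1 | h1
    · exact h1
    · exfalso
      simp only at h1
      have h2 : (B - b • (1 : Mat n)).PosSemidef := by
        have h3 := hmemD.2.1.add hB0.posSemidef
        refine cast (congrArg Matrix.PosSemidef ?_) h3
        simp only
        have : a * s = b := by rw [h1, hS]; field_simp
        rw [this]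
        abel
      have h3 := hb B hB h2 c P hP
      linarith
  have hBR : (R1 • (1 : Mat n) - B).PosSemidef := by
    refine hR1 (s, B, 0) ⟨hmemD.1, hmemD.2.1, hmemD.2.2.1, ?_⟩
    simp
  have hc : ‖c‖ < ρ := by
    rcases hmemD.2.2.2.lt_or_eq with h1 | h1
    · exact h1
    · exfalso
      simp only at h1
      have h3 := hρ1 B (hlow hmemD) hBR c (by rw [h1]; exact le_max_left _ _) P hP
      linarith
  have hRle : R B c P ≤ Rm := by
    have := hRm ((s, B, c), P) ⟨hmemD, hP⟩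
    rw [Real.norm_eq_abs] at this
    exact (le_abs_self _).trans this
  refine ⟨B, c, P, hB, hlow hmemD, ?_, hP, hgt, hRle, ?_, ?_⟩
  · have := hBR.add (psd_mono_smul (n := n) (le_max_left R1 a0))
    refine cast (congrArg Matrix.PosSemidef ?_) this
    abel
  · have h1 : ∀ᶠ c' in 𝓝 c, ‖c'‖ < ρ :=
      (continuous_norm.tendsto c).eventually (gt_mem_nhds hc)
    filter_upwards [h1] with c' hc' P' hP'
    have h2 := hmax' (s, B, c') ⟨hmemD.1, hmemD.2.1, hmemD.2.2.1, hc'.le⟩ P' hP'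
    have h3 := le_of_mul_le_mul_right h2 (Real.exp_pos _)
    linarith
  · intro Q hQ1 hQ2
    have h1 : Tendsto (fun t : ℝ => ‖c + t • (Q *ᵥ D.mu B c)‖) (𝓝[≥] 0)
        (𝓝 ‖c + (0 : ℝ) • (Q *ᵥ D.mu B c)‖) := by
      refine Tendsto.mono_left ?_ nhdsWithin_le_nhds
      apply Continuous.tendsto
      fun_prop
    rw [zero_smul, add_zero] at h1
    have h2 : ∀ᶠ t in 𝓝[≥] (0 : ℝ), t < S - s :=
      nhdsWithin_le_nhds (gt_mem_nhds (by linarith))
    filter_upwards [h1.eventually (gt_mem_nhds hc), h2, self_mem_nhdsWithin] with t ht h2 h3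
    have h4 := hmax' _ (Dom_step hB0 hq0.le hΛ0.le hM0 hM' hmemD hQ1 hQ2 h3 (by linarith) ht.le)
      P hP
    simp only at h4
    have e : Real.exp (κ * (s + t)) = Real.exp (κ * s) * Real.exp (κ * t) := by
      rw [← Real.exp_add]; ring_nf
    have e' : Real.exp (-(κ * t)) = (Real.exp (κ * t))⁻¹ := Real.exp_neg _
    rw [e] at h4
    have h5 : (R (B + t • Q) (c + t • (Q *ᵥ D.mu B c)) P - 1) * Real.exp (κ * t)
        ≤ R B c P - 1 := by
      have h6 : (R (B + t • Q) (c + t • (Q *ᵥ D.mu B c)) P - 1) * Real.exp (κ * t)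
          * Real.exp (κ * s) ≤ (R B c P - 1) * Real.exp (κ * s) := by
        calc _ = (R (B + t • Q) (c + t • (Q *ᵥ D.mu B c)) P - 1)
              * (Real.exp (κ * s) * Real.exp (κ * t)) := by ring
          _ ≤ _ := h4
      exact le_of_mul_le_mul_right h6 (Real.exp_pos _)
    rw [e']
    have h7 := (le_div_iff₀ (Real.exp_pos (κ * t))).2 h5
    rw [div_eq_mul_inv] at h7
    linarith

end Vale.Agent.P254.X602
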