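import Vale.Agent.P254.H602.Bound
import Vale.Agent.P254.H602.MaxPt

set_option linter.all false

/-!
P254, block (X) (helper602): the functional `NN P T T / tr ((S P)^3)`, its continuity and boundary
behaviour.
-/

namespace Vale.Agent.P254.X602

open Matrix Polynomial Filter Topology Asymptotics Set
open Vale.Agent.P254.L Vale.Agent.P254.S526 Vale.Agent.P254.Z546

variable {n : ℕ} {F : Profile} {D : TiltData n}

/-- the (stronger) decay of the third cumulant for large `B` -/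
def StrongT (D : TiltData n) : Prop := ∃ C : ℝ, 0 ≤ C ∧ ∀ B : Mat n, B.PosSemidef → ∀ c : Vec n,
  ∀ P : Mat n, P.PosSemidef → NN P (D.T B c) (D.T B c)
    ≤ C * ((B + D.M • (1 : Mat n))⁻¹ * (B + D.M • (1 : Mat n))⁻¹ * P).trace ^ 3

/-- the ratio -/
noncomputable def Rat (F : Profile) (D : TiltData n) (B : Mat n) (c : Vec n) (P : Mat n) : ℝ :=
  NN P (D.T B c) (D.T B c) / ((Sf F.p (D.A B c) B * P) ^ 3).trace

/-! ### spectral bounds -/

theorem fr_le_beta {A B L : Mat n} {β : Vec n} (h : Fr A B L β) {r : ℝ}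
    (hr : (B - r • A⁻¹).PosSemidef) (i : Fin n) : r ≤ β i := by
  have e : B - r • A⁻¹ = Lᵀ * (Matrix.diagonal fun i => β i - r) * L := by
    have e1 : (Matrix.diagonal fun i => β i - r) = Matrix.diagonal β - r • (1 : Mat n) := by
      rw [Matrix.smul_one_eq_diagonal, Matrix.diagonal_sub]
    rw [e1, Matrix.mul_sub, Matrix.sub_mul, ← h.hB, h.inv_A, Matrix.mul_smul, Matrix.smul_mul,
      Matrix.mul_one]
  rw [e, psd_conj_iff h.isUnit, Matrix.posSemidef_diagonal_iff] at hr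
  have := hr i
  linarith

theorem fr_beta_le {A B L : Mat n} {β : Vec n} (h : Fr A B L β) {r : ℝ}
    (hr : (r • A⁻¹ - B).PosSemidef) (i : Fin n) : β i ≤ r := by
  have e : r • A⁻¹ - B = Lᵀ * (Matrix.diagonal fun i => r - β i) * L := by
    have e1 : (Matrix.diagonal fun i => r - β i) = r • (1 : Mat n) - Matrix.diagonal β := by
      rw [Matrix.smul_one_eq_diagonal, Matrix.diagonal_sub]
    rw [e1, Matrix.mul_sub, Matrix.sub_mul, ← h.hB, h.inv_A, Matrix.mul_smul, Matrix.smul_mul,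
      Matrix.mul_one]
  rw [e, psd_conj_iff h.isUnit, Matrix.posSemidef_diagonal_iff] at hr
  have := hr i
  linarith

/-- on a bounded region the relative eigenvalues stay in a compact subset of `(0,1)` -/
theorem beta_range {a b : ℝ} (ha : 0 < a) (hab : a ≤ b) {B : Mat n} (hB : B.PosDef) (c : Vec n)
    (h1 : (B - a • (1 : Mat n)).PosSemidef) (h2 : (b • (1 : Mat n) - B).PosSemidef)
    {L : Mat n} {β : Vec n} (h : Fr (D.A B c) B L β) (i : Fin n) :
    β i ∈ Icc (min a D.m / (b + D.M)) (1 - min a D.m / (b + D.M)) := by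
  have hm := D.hm
  have hM := D.hM
  have hbM : 0 < b + D.M := by linarith
  have hlo := D.lo B hB.posSemidef c
  have hup := D.up B hB.posSemidef c
  -- `A⁻¹ ≤ (b+M)`
  have h3 : ((b + D.M) • (1 : Mat n) - (D.A B c)⁻¹).PosSemidef := by
    refine cast (congrArg Matrix.PosSemidef ?_) (h2.add hlo)
    rw [add_smul]; abel
  set r : ℝ := min a D.m / (b + D.M) with hr
  have hr0 : 0 ≤ r := div_nonneg (le_min ha.le hm.le) hbM.le
  have hra : r * (b + D.M) = min a D.m := by rw [hr]; field_simp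
  constructor
  · refine fr_le_beta h ?_ i
    have h4 := (h3.smul hr0).add (psd_mono_smul (n := n) (min_le_left a D.m))
    have h5 := h4.add h1
    refine cast (congrArg Matrix.PosSemidef ?_) h5
    rw [smul_sub, smul_smul, hra]; abel
  · refine fr_beta_le h ?_ i
    have h4 := (h3.smul hr0).add (psd_mono_smul (n := n) (min_le_right a D.m))
    have h5 := h4.add hup
    refine cast (congrArg Matrix.PosSemidef ?_) h5
    rw [smul_sub, smul_smul, hra, sub_smul, one_smul]; abel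

/-! ### the denominator in a frame -/

/-- `S` in the orthonormal frame -/
theorem S_frame {A B L : Mat n} {β : Vec n} (hA : Aᵀ = A) (h : Fr A B L β) (f : ℝ → ℝ) :
    Sf f A B = (L * A)ᵀ * (Matrix.diagonal fun i => f (β i)) * (L * A) := Sf_eq hA h f

theorem trace_cyc3 (U V W : Mat n) : ((U * V * W) ^ 3).trace = ((V * W * U) ^ 3).trace := by
  simp only [pow_succ, pow_zero, Matrix.one_mul]
  rw [show U * V * W * (U * V * W) * (U * V * W) = U * (V * W * U * (V * W * U) * (V * W)) from by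
    simp only [Matrix.mul_assoc], Matrix.trace_mul_comm]
  simp only [Matrix.mul_assoc]

/-- the denominator as the trace of the cube of a positive semidefinite matrix -/
theorem den_eq {A B L : Mat n} {β : Vec n} (hA : Aᵀ = A) (h : Fr A B L β)
    (hp : ∀ i, 0 ≤ F.p (β i)) (P : Mat n) (hP : P.PosSemidef) :
    ∃ W : Mat n, W.PosSemidef ∧ ((Sf F.p A B * P) ^ 3).trace = (W * W * W).trace ∧
      W.trace = ∑ i, F.p (β i) * ((L * A) * P * (L * A)ᵀ) i i ∧
      W = (Matrix.diagonal fun i => Real.sqrt (F.p (β i))) * ((L * A) * P * (L * A)ᵀ)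
        * (Matrix.diagonal fun i => Real.sqrt (F.p (β i))) := by
  set N := L * A with hN
  set d : Mat n := Matrix.diagonal fun i => Real.sqrt (F.p (β i)) with hd
  have hdd : d * d = Matrix.diagonal fun i => F.p (β i) := by
    rw [hd, Matrix.diagonal_mul_diagonal]
    congr 1
    funext i
    exact Real.mul_self_sqrt (hp i)
  have hdT : dᵀ = d := by rw [hd, Matrix.diagonal_transpose]
  refine ⟨d * (N * P * Nᵀ) * d, ?_, ?_, ?_, rfl⟩
  · have h1 := hP.mul_mul_conjTranspose_same N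
    rw [Matrix.conjTranspose_eq_transpose_of_trivial] at h1
    have h2 := h1.mul_mul_conjTranspose_same d
    rwa [Matrix.conjTranspose_eq_transpose_of_trivial, hdT] at h2
  · rw [S_frame hA h, ← hdd]
    have e1 : Nᵀ * (d * d) * N * P = Nᵀ * (d * d) * (N * P) := by simp only [Matrix.mul_assoc]
    rw [e1, trace_cyc3]
    have e2 : d * d * (N * P) * Nᵀ = d * (d * (N * P * Nᵀ)) := by simp only [Matrix.mul_assoc]
    have e3 : d * (d * (N * P * Nᵀ)) = d * (d * (N * P * Nᵀ)) * 1 := by rw [Matrix.mul_one]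
    rw [e2, e3, trace_cyc3]
    simp only [pow_succ, pow_zero, Matrix.one_mul, Matrix.mul_one]
  · rw [Matrix.mul_assoc, Matrix.trace_mul_comm, Matrix.mul_assoc, hdd]
    unfold Matrix.trace
    refine Finset.sum_congr rfl fun i _ => ?_
    rw [Matrix.diag_apply, Matrix.mul_diagonal]
    ring

theorem den_ge {A B L : Mat n} {β : Vec n} (hA : Aᵀ = A) (h : Fr A B L β)
    (hp : ∀ i, 0 ≤ F.p (β i)) (P : Mat n) (hP : P.PosSemidef) :
    (∑ i, F.p (β i) * ((L * A) * P * (L * A)ᵀ) i i) ^ 3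
      ≤ n ^ 2 * ((Sf F.p A B * P) ^ 3).trace := by
  obtain ⟨W, h1, h2, h3, -⟩ := den_eq hA h hp P hP
  rw [h2, ← h3]
  exact trace_cube_ge h1

theorem den_nonneg {A B L : Mat n} {β : Vec n} (hA : Aᵀ = A) (h : Fr A B L β)
    (hp : ∀ i, 0 ≤ F.p (β i)) (P : Mat n) (hP : P.PosSemidef) :
    0 ≤ ((Sf F.p A B * P) ^ 3).trace := by
  obtain ⟨W, h1, h2, h3, -⟩ := den_eq hA h hp P hP
  rw [h2]
  by_cases hW : W = 0
  · rw [hW]; simp
  · exact (trace_cube_pos h1 hW).le

theorem LA_isUnit {A B L : Mat n} {β : Vec n} (h : Fr A B L β) : IsUnit (L * A) :=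
  IsUnit.of_mul_eq_one _ h.mul1

theorem den_pos {A B L : Mat n} {β : Vec n} (hA : Aᵀ = A) (h : Fr A B L β)
    (hp : ∀ i, 0 < F.p (β i)) {P : Mat n} (hP : P.PosSemidef) (hP0 : P ≠ 0) :
    0 < ((Sf F.p A B * P) ^ 3).trace := by
  obtain ⟨W, h1, h2, h3, h4⟩ := den_eq hA h (fun i => (hp i).le) P hP
  rw [h2]
  refine trace_cube_pos h1 ?_
  rintro hW
  apply hP0
  rw [hW] at h4
  have hd : IsUnit (Matrix.diagonal fun i => Real.sqrt (F.p (β i)) : Mat n) := by
    rw [Matrix.isUnit_iff_isUnit_det, Matrix.det_diagonal, isUnit_iff_ne_zero,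
      Finset.prod_ne_zero_iff]
    exact fun i _ => (Real.sqrt_pos.2 (hp i)).ne'
  have hN := LA_isUnit h
  have hNT : IsUnit (L * A)ᵀ := isUnit_transpose hN
  have h5 := h4.symm
  rw [hd.mul_left_eq_zero, hd.mul_right_eq_zero, hNT.mul_left_eq_zero, hN.mul_right_eq_zero] at h5
  exact h5

/-! ### comparison of `G = (B+M)⁻¹` with `A` -/

theorem sq_le_of_psd {X : Mat n} {r : ℝ} (hX : X.PosSemidef)
    (h : (r • (1 : Mat n) - X).PosSemidef) (v : Vec n) :
    (X *ᵥ v) ⬝ᵥ (X *ᵥ v) ≤ r ^ 2 * (v ⬝ᵥ v) := by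
  obtain ⟨U, q, h1, h2, h3, h4⟩ := spec_symm hX.isHermitian
  have hq : ∀ k, 0 ≤ q k := fun k => by rw [h4]; exact hX.eigenvalues_nonneg k
  have hU : IsUnit Uᵀ := IsUnit.of_mul_eq_one _ h1
  have hq2 : ∀ k, q k ≤ r := by
    have e : r • (1 : Mat n) - X = (Uᵀ)ᵀ * (Matrix.diagonal fun k => r - q k) * Uᵀ := by
      have e1 : (Matrix.diagonal fun i => r - q i) = r • (1 : Mat n) - Matrix.diagonal q := by
        rw [Matrix.smul_one_eq_diagonal, Matrix.diagonal_sub]
      rw [e1, Matrix.transpose_transpose, Matrix.mul_sub, Matrix.sub_mul, ← h3, Matrix.mul_smul,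
        Matrix.smul_mul, Matrix.mul_one, h2]
    rw [e, psd_conj_iff hU, Matrix.posSemidef_diagonal_iff] at h
    intro k
    have := h k
    linarith
  -- coordinates
  set w := Uᵀ *ᵥ v with hw
  have e1 : ∀ x : Vec n, (U *ᵥ x) ⬝ᵥ (U *ᵥ x) = x ⬝ᵥ x := by
    intro x
    rw [Matrix.dotProduct_mulVec, Matrix.vecMul_mulVec, ← Matrix.mulVec_transpose,
      Matrix.transpose_mul, Matrix.transpose_transpose, h1, Matrix.one_mulVec]
  have e2 : X *ᵥ v = U *ᵥ (Matrix.diagonal q *ᵥ w) := by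
    rw [hw, Matrix.mulVec_mulVec, Matrix.mulVec_mulVec]
    conv_lhs => rw [h3]
  have e3 : v ⬝ᵥ v = w ⬝ᵥ w := by
    have : v = U *ᵥ w := by rw [hw, Matrix.mulVec_mulVec, h2, Matrix.one_mulVec]
    conv_lhs => rw [this]
    exact e1 w
  rw [e2, e1, e3]
  simp only [dotProduct, Matrix.mulVec_diagonal, Finset.mul_sum]
  refine Finset.sum_le_sum fun k _ => ?_
  have h5 : q k * q k ≤ r ^ 2 := by nlinarith [hq k, hq2 k]
  nlinarith [mul_self_nonneg (w k)]

theorem G_le_A (D : TiltData n) {B : Mat n} (hB : B.PosSemidef) (c : Vec n) :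
    ((4 : ℝ) • (D.A B c * D.A B c)
      - (B + D.M • (1 : Mat n))⁻¹ * (B + D.M • (1 : Mat n))⁻¹).PosSemidef := by
  have hm := D.hm
  have hM := D.hM
  have hM0 : 0 < D.M := by linarith
  set H : Mat n := B + D.M • (1 : Mat n) with hH
  have hHp : H.PosDef := by
    rw [hH, add_comm]; exact (Matrix.PosDef.one.smul hM0).add_posSemidef hB
  set G := H⁻¹ with hG
  set A := D.A B c with hA
  have hAp : A.PosDef := D.posA B hB c
  have hAs : Aᵀ = A := A_tr D B c
  have hGs : Gᵀ = G := (psd_iff.1 hHp.inv.posSemidef).1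
  have hHG : G * H = 1 := Matrix.nonsing_inv_mul _ ((Matrix.isUnit_iff_isUnit_det _).1 hHp.isUnit)
  have hAA : A⁻¹ * A = 1 := Matrix.nonsing_inv_mul _ ((Matrix.isUnit_iff_isUnit_det _).1 hAp.isUnit)
  set E := H - A⁻¹ with hE
  have hE1 : E.PosSemidef := D.lo B hB c
  have hE2 : ((D.M - D.m) • (1 : Mat n) - E).PosSemidef := by
    refine cast (congrArg Matrix.PosSemidef ?_) (D.up B hB c)
    rw [hE, hH, sub_smul]; abel
  have hE3 : (D.M • (1 : Mat n) - E).PosSemidef := by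
    refine cast (congrArg Matrix.PosSemidef ?_) (hE2.add (Matrix.PosSemidef.one.smul hm.le))
    rw [sub_smul]; abel
  -- `G ≤ 1/M`
  have hG1 : (D.M⁻¹ • (1 : Mat n) - G).PosSemidef := by
    obtain ⟨U, q, h1, h2, h3, h4⟩ := spec_symm hB.isHermitian
    have hq : ∀ k, 0 ≤ q k := fun k => by rw [h4]; exact hB.eigenvalues_nonneg k
    have hU : IsUnit Uᵀ := IsUnit.of_mul_eq_one _ h1
    have e1 : (Matrix.diagonal fun k => q k + D.M) = Matrix.diagonal q + D.M • (1 : Mat n) := by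
      rw [Matrix.smul_one_eq_diagonal, Matrix.diagonal_add]
    have e2 : H = U * (Matrix.diagonal fun k => q k + D.M) * Uᵀ := by
      rw [e1, Matrix.mul_add, Matrix.add_mul, ← h3, Matrix.mul_smul, Matrix.smul_mul,
        Matrix.mul_one, h2]
    have e3 : G = U * (Matrix.diagonal fun k => (q k + D.M)⁻¹) * Uᵀ := by
      refine Matrix.inv_eq_left_inv ?_
      rw [e2]
      calc U * (Matrix.diagonal fun k => (q k + D.M)⁻¹) * Uᵀ
            * (U * (Matrix.diagonal fun k => q k + D.M) * Uᵀ)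
          = U * ((Matrix.diagonal fun k => (q k + D.M)⁻¹) * (Uᵀ * U)
            * (Matrix.diagonal fun k => q k + D.M)) * Uᵀ := by simp only [Matrix.mul_assoc]
        _ = 1 := by
            rw [h1, Matrix.mul_one, Matrix.diagonal_mul_diagonal]
            have : (fun k => (q k + D.M)⁻¹ * (q k + D.M)) = fun _ => (1 : ℝ) := by
              funext k
              exact inv_mul_cancel₀ (by have := hq k; positivity)
            rw [this, Matrix.diagonal_one, Matrix.mul_one, h2]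
    have e4 : D.M⁻¹ • (1 : Mat n) - G
        = (Uᵀ)ᵀ * (Matrix.diagonal fun k => D.M⁻¹ - (q k + D.M)⁻¹) * Uᵀ := by
      have e5 : (Matrix.diagonal fun k => D.M⁻¹ - (q k + D.M)⁻¹)
          = D.M⁻¹ • (1 : Mat n) - Matrix.diagonal fun k => (q k + D.M)⁻¹ := by
        rw [Matrix.smul_one_eq_diagonal, Matrix.diagonal_sub]
      rw [e5, Matrix.transpose_transpose, Matrix.mul_sub, Matrix.sub_mul, ← e3, Matrix.mul_smul,
        Matrix.smul_mul, Matrix.mul_one, h2]
    rw [e4, psd_conj_iff hU, Matrix.posSemidef_diagonal_iff]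
    intro k
    rw [sub_nonneg]
    exact inv_anti₀ hM0 (by have := hq k; linarith)
  -- `G = (1 - G E) A`
  have key : G = A - G * E * A := by
    rw [hE, Matrix.mul_sub, Matrix.sub_mul, hHG, Matrix.one_mul, Matrix.mul_assoc, hAA,
      Matrix.mul_one, sub_sub_cancel]
  rw [psd_iff]
  constructor
  · rw [Matrix.transpose_sub, Matrix.transpose_smul, Matrix.transpose_mul, Matrix.transpose_mul,
      hAs, hGs]
  · intro v
    have e1 : v ⬝ᵥ ((4 : ℝ) • (A * A) - G * G) *ᵥ v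
        = 4 * ((A *ᵥ v) ⬝ᵥ (A *ᵥ v)) - (G *ᵥ v) ⬝ᵥ (G *ᵥ v) := by
      rw [Matrix.sub_mulVec, dotProduct_sub, Matrix.smul_mulVec, dotProduct_smul, smul_eq_mul]
      have f : ∀ X : Mat n, Xᵀ = X → v ⬝ᵥ (X * X) *ᵥ v = (X *ᵥ v) ⬝ᵥ (X *ᵥ v) := by
        intro X hX
        rw [← Matrix.mulVec_mulVec, Matrix.dotProduct_mulVec, ← Matrix.mulVec_transpose, hX]
      rw [f A hAs, f G hGs]
    rw [e1]
    set w := A *ᵥ v with hw
    have e2 : G *ᵥ v = w - G *ᵥ (E *ᵥ w) := by
      conv_lhs => rw [key]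
      rw [Matrix.sub_mulVec, ← Matrix.mulVec_mulVec, ← Matrix.mulVec_mulVec]
    have h5 := sq_le_of_psd hHp.inv.posSemidef hG1 (E *ᵥ w)
    have h6 := sq_le_of_psd hE1 hE3 w
    set z := G *ᵥ (E *ᵥ w) with hz
    have h7 : z ⬝ᵥ z ≤ w ⬝ᵥ w := by
      calc z ⬝ᵥ z ≤ D.M⁻¹ ^ 2 * ((E *ᵥ w) ⬝ᵥ (E *ᵥ w)) := h5
        _ ≤ D.M⁻¹ ^ 2 * (D.M ^ 2 * (w ⬝ᵥ w)) := mul_le_mul_of_nonneg_left h6 (by positivity)
        _ = w ⬝ᵥ w := by field_simp
    have h8 : (G *ᵥ v) ⬝ᵥ (G *ᵥ v) ≤ 2 * (w ⬝ᵥ w) + 2 * (z ⬝ᵥ z) := by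
      rw [e2]
      simp only [dotProduct, Pi.sub_apply, Finset.mul_sum, ← Finset.sum_add_distrib]
      refine Finset.sum_le_sum fun i _ => ?_
      nlinarith [sq_nonneg (w i + z i)]
    linarith

/-- `tr (G² P) ≤ (4/m) ∑ (1 - β_i) P̃_ii` -/
theorem trG_le (D : TiltData n) {B : Mat n} (hB : B.PosDef) (c : Vec n) {L : Mat n} {β : Vec n}
    (h : Fr (D.A B c) B L β) {P : Mat n} (hP : P.PosSemidef) :
    ((B + D.M • (1 : Mat n))⁻¹ * (B + D.M • (1 : Mat n))⁻¹ * P).trace
      ≤ 4 / D.m * ∑ i, (1 - β i) * ((L * D.A B c) * P * (L * D.A B c)ᵀ) i i := by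
  have hm := D.hm
  have h1 := Fr.trace_mul_nonneg (G_le_A D hB.posSemidef c) hP
  rw [Matrix.sub_mul, Matrix.trace_sub, Matrix.smul_mul, Matrix.trace_smul, smul_eq_mul] at h1
  set A := D.A B c with hA
  have hAs : Aᵀ = A := A_tr D B c
  have hAp : A.PosDef := D.posA B hB.posSemidef c
  have hAA : A⁻¹ * A = 1 := Matrix.nonsing_inv_mul _ ((Matrix.isUnit_iff_isUnit_det _).1 hAp.isUnit)
  have hAA' : A * A⁻¹ = 1 := Matrix.mul_nonsing_inv _ ((Matrix.isUnit_iff_isUnit_det _).1 hAp.isUnit)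
  -- `m A² ≤ A (A⁻¹ - B) A`
  have h2 : (A * (A⁻¹ - B) * A - D.m • (A * A)).PosSemidef := by
    have h3 : (A⁻¹ - B - D.m • (1 : Mat n)).PosSemidef := by
      refine cast (congrArg Matrix.PosSemidef ?_) (D.up B hB.posSemidef c)
      rw [hA]; abel
    have h4 := h3.mul_mul_conjTranspose_same A
    rw [Matrix.conjTranspose_eq_transpose_of_trivial, hAs] at h4
    refine cast (congrArg Matrix.PosSemidef ?_) h4
    rw [Matrix.mul_sub A, Matrix.sub_mul, Matrix.mul_smul, Matrix.mul_one, Matrix.smul_mul]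
  have h3 := Fr.trace_mul_nonneg h2 hP
  rw [Matrix.sub_mul, Matrix.trace_sub, Matrix.smul_mul, Matrix.trace_smul, smul_eq_mul] at h3
  have e1 : (A * (A⁻¹ - B) * A * P).trace
      = ∑ i, (1 - β i) * ((L * A) * P * (L * A)ᵀ) i i := by
    have e2 : A * (A⁻¹ - B) * A = (L * A)ᵀ * (Matrix.diagonal fun i => 1 - β i) * (L * A) := by
      have e3 : (Matrix.diagonal fun i => 1 - β i) = (1 : Mat n) - Matrix.diagonal β := by
        rw [← Matrix.diagonal_one, Matrix.diagonal_sub]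
      rw [e3, Matrix.mul_sub ((L * A)ᵀ), Matrix.sub_mul, Matrix.mul_one, h.gram hAs,
        Matrix.mul_sub A, Matrix.sub_mul, hAA', Matrix.one_mul, Matrix.transpose_mul, hAs]
      congr 1
      conv_lhs => rw [h.hB]
      simp only [Matrix.mul_assoc]
    rw [e2, Matrix.mul_assoc, Matrix.mul_assoc, Matrix.trace_mul_comm]
    unfold Matrix.trace
    refine Finset.sum_congr rfl fun i _ => ?_
    rw [Matrix.diag_apply, Matrix.mul_assoc, Matrix.diagonal_mul]
  rw [e1] at h3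
  have h4 : (A * A * P).trace ≤ 1 / D.m * ∑ i, (1 - β i) * ((L * A) * P * (L * A)ᵀ) i i := by
    rw [one_div, le_inv_mul_iff₀ hm]
    linarith
  calc _ ≤ 4 * (A * A * P).trace := by linarith
    _ ≤ 4 * (1 / D.m * ∑ i, (1 - β i) * ((L * A) * P * (L * A)ᵀ) i i) := by linarith
    _ = _ := by ring

end Vale.Agent.P254.X602
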