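import Vale.Agent.P254.H602.TJet

set_option linter.all false

/-!
P254, block (X) (helper602): linearity of `N3`, of the frame map, fourth cumulant in a frame.
-/

namespace Vale.Agent.P254.X602

open Matrix Polynomial Filter Topology Asymptotics Set
open Vale.Agent.P254.L Vale.Agent.P254.S526 Vale.Agent.P254.Z546

variable {n : ℕ} {F : Profile} {D : TiltData n}

/-- `N3` as a linear map of its first slot -/
def N3L1 (P2 P3 : Mat n) (T T' : Ten n) : Mat n →ₗ[ℝ] ℝ where
  toFun P1 := N3 P1 P2 P3 T T'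
  map_add' X Y := by
    unfold N3
    simp only [← Finset.sum_add_distrib, Matrix.add_apply]
    refine Finset.sum_congr rfl fun a _ => Finset.sum_congr rfl fun b _ =>
      Finset.sum_congr rfl fun c _ => Finset.sum_congr rfl fun a' _ =>
      Finset.sum_congr rfl fun b' _ => Finset.sum_congr rfl fun c' _ => ?_
    ring
  map_smul' r X := by
    unfold N3
    simp only [Finset.mul_sum, Matrix.smul_apply, smul_eq_mul, RingHom.id_apply]
    refine Finset.sum_congr rfl fun a _ => Finset.sum_congr rfl fun b _ =>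
      Finset.sum_congr rfl fun c _ => Finset.sum_congr rfl fun a' _ =>
      Finset.sum_congr rfl fun b' _ => Finset.sum_congr rfl fun c' _ => ?_
    ring

/-- `N3` as a linear map of its second slot -/
def N3L2 (P1 P3 : Mat n) (T T' : Ten n) : Mat n →ₗ[ℝ] ℝ where
  toFun P2 := N3 P1 P2 P3 T T'
  map_add' X Y := by
    unfold N3
    simp only [← Finset.sum_add_distrib, Matrix.add_apply]
    refine Finset.sum_congr rfl fun a _ => Finset.sum_congr rfl fun b _ =>
      Finset.sum_congr rfl fun c _ => Finset.sum_congr rfl fun a' _ =>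
      Finset.sum_congr rfl fun b' _ => Finset.sum_congr rfl fun c' _ => ?_
    ring
  map_smul' r X := by
    unfold N3
    simp only [Finset.mul_sum, Matrix.smul_apply, smul_eq_mul, RingHom.id_apply]
    refine Finset.sum_congr rfl fun a _ => Finset.sum_congr rfl fun b _ =>
      Finset.sum_congr rfl fun c _ => Finset.sum_congr rfl fun a' _ =>
      Finset.sum_congr rfl fun b' _ => Finset.sum_congr rfl fun c' _ => ?_
    ring

/-- `N3` as a linear map of its first tensor -/
def N3LT (P1 P2 P3 : Mat n) (T' : Ten n) : Ten n →ₗ[ℝ] ℝ where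
  toFun T := N3 P1 P2 P3 T T'
  map_add' X Y := by
    unfold N3
    simp only [← Finset.sum_add_distrib, Pi.add_apply]
    refine Finset.sum_congr rfl fun a _ => Finset.sum_congr rfl fun b _ =>
      Finset.sum_congr rfl fun c _ => Finset.sum_congr rfl fun a' _ =>
      Finset.sum_congr rfl fun b' _ => Finset.sum_congr rfl fun c' _ => ?_
    ring
  map_smul' r X := by
    unfold N3
    simp only [Finset.mul_sum, Pi.smul_apply, smul_eq_mul, RingHom.id_apply]
    refine Finset.sum_congr rfl fun a _ => Finset.sum_congr rfl fun b _ =>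
      Finset.sum_congr rfl fun c _ => Finset.sum_congr rfl fun a' _ =>
      Finset.sum_congr rfl fun b' _ => Finset.sum_congr rfl fun c' _ => ?_
    ring

/-- `N3` as a linear map of its second tensor -/
def N3LT' (P1 P2 P3 : Mat n) (T : Ten n) : Ten n →ₗ[ℝ] ℝ where
  toFun T' := N3 P1 P2 P3 T T'
  map_add' X Y := by
    unfold N3
    simp only [← Finset.sum_add_distrib, Pi.add_apply]
    refine Finset.sum_congr rfl fun a _ => Finset.sum_congr rfl fun b _ =>
      Finset.sum_congr rfl fun c _ => Finset.sum_congr rfl fun a' _ =>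
      Finset.sum_congr rfl fun b' _ => Finset.sum_congr rfl fun c' _ => ?_
    ring
  map_smul' r X := by
    unfold N3
    simp only [Finset.mul_sum, Pi.smul_apply, smul_eq_mul, RingHom.id_apply]
    refine Finset.sum_congr rfl fun a _ => Finset.sum_congr rfl fun b _ =>
      Finset.sum_congr rfl fun c _ => Finset.sum_congr rfl fun a' _ =>
      Finset.sum_congr rfl fun b' _ => Finset.sum_congr rfl fun c' _ => ?_
    ring

theorem N3_sum1 (v : Vec n) (X : Fin n → Mat n) (P2 P3 : Mat n) (T T' : Ten n) :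
    N3 (∑ a, v a • X a) P2 P3 T T' = ∑ a, v a * N3 (X a) P2 P3 T T' := by
  have := map_sum (N3L1 P2 P3 T T') (fun a => v a • X a) Finset.univ
  simp only [map_smul] at this
  exact this

theorem N3_sum2 (v : Vec n) (X : Fin n → Mat n) (P1 P3 : Mat n) (T T' : Ten n) :
    N3 P1 (∑ a, v a • X a) P3 T T' = ∑ a, v a * N3 P1 (X a) P3 T T' := by
  have := map_sum (N3L2 P1 P3 T T') (fun a => v a • X a) Finset.univ
  simp only [map_smul] at this
  exact this

theorem N3_sumT (v : Vec n) (K : Fin n → Ten n) (P1 P2 P3 : Mat n) (T' : Ten n) :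
    N3 P1 P2 P3 (∑ a, v a • K a) T' = ∑ a, v a * N3 P1 P2 P3 (K a) T' := by
  have := map_sum (N3LT P1 P2 P3 T') (fun a => v a • K a) Finset.univ
  simp only [map_smul] at this
  exact this

theorem N3_sumT' (v : Vec n) (K : Fin n → Ten n) (P1 P2 P3 : Mat n) (T : Ten n) :
    N3 P1 P2 P3 T (∑ a, v a • K a) = ∑ a, v a * N3 P1 P2 P3 T (K a) := by
  have := map_sum (N3LT' P1 P2 P3 T) (fun a => v a • K a) Finset.univ
  simp only [map_smul] at this
  exact this

theorem N3_smulT (r : ℝ) (P1 P2 P3 : Mat n) (T T' : Ten n) :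
    N3 P1 P2 P3 (r • T) T' = r * N3 P1 P2 P3 T T' := (N3LT P1 P2 P3 T').map_smul r T

theorem N3_smulT' (r : ℝ) (P1 P2 P3 : Mat n) (T T' : Ten n) :
    N3 P1 P2 P3 T (r • T') = r * N3 P1 P2 P3 T T' := (N3LT' P1 P2 P3 T).map_smul r T'

theorem N3_smul1 (r : ℝ) (P1 P2 P3 : Mat n) (T T' : Ten n) :
    N3 (r • P1) P2 P3 T T' = r * N3 P1 P2 P3 T T' := (N3L1 P2 P3 T T').map_smul r P1

theorem N3_smul2 (r : ℝ) (P1 P2 P3 : Mat n) (T T' : Ten n) :
    N3 P1 (r • P2) P3 T T' = r * N3 P1 P2 P3 T T' := (N3L2 P1 P3 T T').map_smul r P2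

theorem N3_addT (P1 P2 P3 : Mat n) (T U T' : Ten n) :
    N3 P1 P2 P3 (T + U) T' = N3 P1 P2 P3 T T' + N3 P1 P2 P3 U T' :=
  (N3LT P1 P2 P3 T').map_add T U

theorem N3_subT (P1 P2 P3 : Mat n) (T U T' : Ten n) :
    N3 P1 P2 P3 (T - U) T' = N3 P1 P2 P3 T T' - N3 P1 P2 P3 U T' :=
  (N3LT P1 P2 P3 T').map_sub T U

theorem N3_negT (P1 P2 P3 : Mat n) (T T' : Ten n) :
    N3 P1 P2 P3 (-T) T' = - N3 P1 P2 P3 T T' :=
  (N3LT P1 P2 P3 T').map_neg T

/-- the frame map is linear -/
def frTL (L : Mat n) : Ten n →ₗ[ℝ] Ten n where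
  toFun T := frT L T
  map_add' X Y := by
    funext i j k
    simp only [frT, Pi.add_apply, ← Finset.sum_add_distrib]
    refine Finset.sum_congr rfl fun a _ => Finset.sum_congr rfl fun b _ =>
      Finset.sum_congr rfl fun c _ => ?_
    ring
  map_smul' r X := by
    funext i j k
    simp only [frT, Pi.smul_apply, smul_eq_mul, RingHom.id_apply, Finset.mul_sum]
    refine Finset.sum_congr rfl fun a _ => Finset.sum_congr rfl fun b _ =>
      Finset.sum_congr rfl fun c _ => ?_
    ring

theorem frT_symm {L : Mat n} {T : Ten n} (hT : TSymm T) : TSymm (frT L T) := by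
  constructor
  · intro i j k
    unfold frT
    rw [Finset.sum_comm]
    refine Finset.sum_congr rfl fun p _ => Finset.sum_congr rfl fun q _ =>
      Finset.sum_congr rfl fun k _ => ?_
    rw [hT.1 q p k]
    ring
  · intro i j k
    unfold frT
    refine Finset.sum_congr rfl fun a _ => ?_
    rw [Finset.sum_comm]
    refine Finset.sum_congr rfl fun p _ => Finset.sum_congr rfl fun q _ => ?_
    rw [hT.2 a q p]
    ring

/-- the fourth cumulant in a frame, as a family of 3-tensors -/
def fr4 (L : Mat n) (K : Fin n → Fin n → Fin n → Fin n → ℝ) : Fin n → Ten n := fun a i j k =>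
  ∑ s, ∑ p, ∑ q, ∑ r, L a s * L i p * L j q * L k r * K s p q r

theorem fr4_symm {L : Mat n} {K : Fin n → Fin n → Fin n → Fin n → ℝ}
    (h1 : ∀ i j k l, K i j k l = K j i k l) (h2 : ∀ i j k l, K i j k l = K i k j l)
    (h3 : ∀ i j k l, K i j k l = K i j l k) : KSymm (fr4 L K) := by
  refine ⟨?_, ?_, ?_⟩
  · intro i j k l
    unfold fr4
    rw [Finset.sum_comm]
    refine Finset.sum_congr rfl fun a _ => Finset.sum_congr rfl fun b _ =>
      Finset.sum_congr rfl fun c _ => Finset.sum_congr rfl fun d _ => ?_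
    rw [h1 b a c d]; ring
  · intro i j k l
    unfold fr4
    refine Finset.sum_congr rfl fun a _ => ?_
    rw [Finset.sum_comm]
    refine Finset.sum_congr rfl fun b _ =>
      Finset.sum_congr rfl fun c _ => Finset.sum_congr rfl fun d _ => ?_
    rw [h2 a c b d]; ring
  · intro i j k l
    unfold fr4
    refine Finset.sum_congr rfl fun a _ => Finset.sum_congr rfl fun b _ => ?_
    rw [Finset.sum_comm]
    refine Finset.sum_congr rfl fun c _ => Finset.sum_congr rfl fun d _ => ?_
    rw [h3 a b d c]; ring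

theorem K_cyc (D : TiltData n) (B : Mat n) (c : Vec n) (i j k l : Fin n) :
    D.K B c i j k l = D.K B c l i j k := by
  rw [D.K_symm3 B c i j k l, D.K_symm2 B c i j l k, D.K_symm1 B c i l j k]

/-- the vector `Lᵀ v` -/
def dirv (L : Mat n) (v : Vec n) : Vec n := fun k => ∑ a, v a * L a k

theorem frT_K1 (L : Mat n) (B : Mat n) (c v : Vec n) :
    frT L (K1 (D.K B c) (dirv L v)) = ∑ a, v a • fr4 L (D.K B c) a := by
  funext i j k
  rw [Finset.sum_apply, Finset.sum_apply, Finset.sum_apply]
  simp only [Pi.smul_apply, smul_eq_mul, frT, K1, dirv, fr4, Finset.mul_sum, Finset.sum_mul]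
  have e : ∀ p q r l, D.K B c p q r l = D.K B c l p q r := fun p q r l => K_cyc D B c p q r l
  -- LHS : p q r l a ; RHS : a s p q r
  have s1 : ∀ f : Fin n → Fin n → Fin n → Fin n → Fin n → ℝ,
      ∑ p, ∑ q, ∑ r, ∑ l, ∑ a, f p q r l a = ∑ a, ∑ l, ∑ p, ∑ q, ∑ r, f p q r l a := by
    intro f
    have h := fun G : (Fin n × Fin n × Fin n) → (Fin n × Fin n) → ℝ =>
      Finset.sum_comm (s := Finset.univ) (t := Finset.univ) (f := G)
    have h' := h fun x y => f x.1 x.2.1 x.2.2 y.2 y.1
    simp only [Fintype.sum_prod_type] at h'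
    rw [← h']
    refine Finset.sum_congr rfl fun p _ => Finset.sum_congr rfl fun q _ =>
      Finset.sum_congr rfl fun r _ => Finset.sum_comm
  rw [s1]
  refine Finset.sum_congr rfl fun a _ => Finset.sum_congr rfl fun s _ =>
    Finset.sum_congr rfl fun p _ => Finset.sum_congr rfl fun q _ =>
    Finset.sum_congr rfl fun r _ => ?_
  rw [e]
  ring

theorem conj_T1 (L : Mat n) {T : Ten n} (hT : TSymm T) (v : Vec n) (i j : Fin n) :
    (L * T1 T (dirv L v) * Lᵀ) i j = ∑ a, v a * frT L T a i j := by
  have hs := frT_symm (L := L) hT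
  have e : ∀ a, frT L T a i j = frT L T i j a := fun a => by rw [hs.1, hs.2]
  simp only [e]
  simp only [Matrix.mul_apply, Matrix.transpose_apply, T1, dirv, Matrix.of_apply, frT,
    Finset.sum_mul, Finset.mul_sum]
  -- LHS : q p k a ; RHS : a p q k
  have s1 : ∀ f : Fin n → Fin n → Fin n → Fin n → ℝ,
      ∑ q, ∑ p, ∑ k, ∑ a, f q p k a = ∑ a, ∑ p, ∑ q, ∑ k, f q p k a := by
    intro f
    calc ∑ q, ∑ p, ∑ k, ∑ a, f q p k a = ∑ p, ∑ q, ∑ k, ∑ a, f q p k a := Finset.sum_comm
      _ = ∑ p, ∑ q, ∑ a, ∑ k, f q p k a :=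
          Finset.sum_congr rfl fun p _ => Finset.sum_congr rfl fun q _ => Finset.sum_comm
      _ = ∑ p, ∑ a, ∑ q, ∑ k, f q p k a :=
          Finset.sum_congr rfl fun p _ => Finset.sum_comm
      _ = _ := Finset.sum_comm
  rw [s1]
  refine Finset.sum_congr rfl fun a _ => Finset.sum_congr rfl fun p _ =>
    Finset.sum_congr rfl fun q _ => Finset.sum_congr rfl fun k _ => ?_
  ring

/-- the flow term in the frame -/
theorem frT_slot3 {A B L Qh : Mat n} {β : Vec n} (h0 : SFr F A B L β) (T : Ten n) :
    frT L (slot3 (A * (Lᵀ * Qh * L)) T)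
      = slot3 ((Matrix.diagonal fun i => 1 / F.p (β i)) * Qh) (frT L T) := by
  have key : L * (A * (Lᵀ * Qh * L)) = (Matrix.diagonal fun i => 1 / F.p (β i)) * Qh * L := by
    calc L * (A * (Lᵀ * Qh * L)) = (L * A * Lᵀ) * Qh * L := by simp only [Matrix.mul_assoc]
      _ = _ := by rw [h0.hA]
  generalize A * (Lᵀ * Qh * L) = M at key ⊢
  generalize (Matrix.diagonal fun i => 1 / F.p (β i)) * Qh = N at key ⊢
  have key' : ∀ i l, ∑ a, L i a * M a l = ∑ a, N i a * L a l := by
    intro i l
    have := congrFun (congrFun key i) l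
    rwa [Matrix.mul_apply, Matrix.mul_apply] at this
  funext i j k
  simp only [frT, slot3, Finset.mul_sum, mul_add, Finset.sum_add_distrib]
  -- rotations of sums
  have r3 : ∀ f : Fin n → Fin n → Fin n → ℝ, ∑ b, ∑ c, ∑ l, f b c l = ∑ l, ∑ b, ∑ c, f b c l := by
    intro f
    calc ∑ b, ∑ c, ∑ l, f b c l = ∑ b, ∑ l, ∑ c, f b c l :=
          Finset.sum_congr rfl fun _ _ => Finset.sum_comm
      _ = _ := Finset.sum_comm
  have h1 : ∑ a, ∑ b, ∑ c, ∑ l, L i a * L j b * L k c * (M a l * T l b c)
      = ∑ l, ∑ a, ∑ b, ∑ c, N i l * (L l a * L j b * L k c * T a b c) := by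
    calc ∑ a, ∑ b, ∑ c, ∑ l, L i a * L j b * L k c * (M a l * T l b c)
        = ∑ a, ∑ l, ∑ b, ∑ c, L i a * L j b * L k c * (M a l * T l b c) :=
          Finset.sum_congr rfl fun a _ => r3 _
      _ = ∑ l, ∑ a, ∑ b, ∑ c, L i a * L j b * L k c * (M a l * T l b c) := Finset.sum_comm
      _ = ∑ l, (∑ a, L i a * M a l) * ∑ b, ∑ c, L j b * L k c * T l b c := by
          refine Finset.sum_congr rfl fun l _ => ?_
          rw [Finset.sum_mul]
          refine Finset.sum_congr rfl fun a _ => ?_
          simp only [Finset.mul_sum]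
          refine Finset.sum_congr rfl fun b _ => Finset.sum_congr rfl fun c _ => ?_
          ring
      _ = ∑ a, (∑ l, N i l * L l a) * ∑ b, ∑ c, L j b * L k c * T a b c := by
          refine Finset.sum_congr rfl fun l _ => ?_
          rw [key']
      _ = ∑ a, ∑ l, ∑ b, ∑ c, N i l * (L l a * L j b * L k c * T a b c) := by
          refine Finset.sum_congr rfl fun a _ => ?_
          rw [Finset.sum_mul]
          refine Finset.sum_congr rfl fun l _ => ?_
          simp only [Finset.mul_sum]
          refine Finset.sum_congr rfl fun b _ => Finset.sum_congr rfl fun c _ => ?_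
          ring
      _ = _ := Finset.sum_comm
  have h2 : ∑ a, ∑ b, ∑ c, ∑ l, L i a * L j b * L k c * (M b l * T a l c)
      = ∑ l, ∑ a, ∑ b, ∑ c, N j l * (L i a * L l b * L k c * T a b c) := by
    calc ∑ a, ∑ b, ∑ c, ∑ l, L i a * L j b * L k c * (M b l * T a l c)
        = ∑ a, ∑ l, ∑ b, ∑ c, L i a * L j b * L k c * (M b l * T a l c) :=
          Finset.sum_congr rfl fun a _ => r3 _
      _ = ∑ a, ∑ l, (∑ b, L j b * M b l) * ∑ c, L i a * L k c * T a l c := by
          refine Finset.sum_congr rfl fun a _ => Finset.sum_congr rfl fun l _ => ?_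
          rw [Finset.sum_mul]
          refine Finset.sum_congr rfl fun b _ => ?_
          simp only [Finset.mul_sum]
          refine Finset.sum_congr rfl fun c _ => ?_
          ring
      _ = ∑ a, ∑ b, (∑ l, N j l * L l b) * ∑ c, L i a * L k c * T a b c := by
          refine Finset.sum_congr rfl fun a _ => Finset.sum_congr rfl fun l _ => ?_
          rw [key']
      _ = ∑ a, ∑ b, ∑ l, ∑ c, N j l * (L i a * L l b * L k c * T a b c) := by
          refine Finset.sum_congr rfl fun a _ => Finset.sum_congr rfl fun b _ => ?_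
          rw [Finset.sum_mul]
          refine Finset.sum_congr rfl fun l _ => ?_
          simp only [Finset.mul_sum]
          refine Finset.sum_congr rfl fun c _ => ?_
          ring
      _ = ∑ a, ∑ l, ∑ b, ∑ c, N j l * (L i a * L l b * L k c * T a b c) :=
          Finset.sum_congr rfl fun a _ => Finset.sum_comm
      _ = _ := Finset.sum_comm
  have h3 : ∑ a, ∑ b, ∑ c, ∑ l, L i a * L j b * L k c * (M c l * T a b l)
      = ∑ l, ∑ a, ∑ b, ∑ c, N k l * (L i a * L j b * L l c * T a b c) := by
    calc ∑ a, ∑ b, ∑ c, ∑ l, L i a * L j b * L k c * (M c l * T a b l)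
        = ∑ a, ∑ b, ∑ l, ∑ c, L i a * L j b * L k c * (M c l * T a b l) :=
          Finset.sum_congr rfl fun a _ => Finset.sum_congr rfl fun b _ => Finset.sum_comm
      _ = ∑ a, ∑ b, ∑ l, (∑ c, L k c * M c l) * (L i a * L j b * T a b l) := by
          refine Finset.sum_congr rfl fun a _ => Finset.sum_congr rfl fun b _ =>
            Finset.sum_congr rfl fun l _ => ?_
          rw [Finset.sum_mul]
          refine Finset.sum_congr rfl fun c _ => ?_
          ring
      _ = ∑ a, ∑ b, ∑ c, (∑ l, N k l * L l c) * (L i a * L j b * T a b c) := by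
          refine Finset.sum_congr rfl fun a _ => Finset.sum_congr rfl fun b _ =>
            Finset.sum_congr rfl fun l _ => ?_
          rw [key']
      _ = ∑ a, ∑ b, ∑ c, ∑ l, N k l * (L i a * L j b * L l c * T a b c) := by
          refine Finset.sum_congr rfl fun a _ => Finset.sum_congr rfl fun b _ =>
            Finset.sum_congr rfl fun l _ => ?_
          rw [Finset.sum_mul]
          refine Finset.sum_congr rfl fun c _ => ?_
          ring
      _ = ∑ a, ∑ l, ∑ b, ∑ c, N k l * (L i a * L j b * L l c * T a b c) :=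
          Finset.sum_congr rfl fun a _ => r3 _
      _ = _ := Finset.sum_comm
  rw [h1, h2, h3]

/-- the three slots contribute equally -/
theorem NN_slot3 {P M : Mat n} {T : Ten n} (hT : TSymm T) :
    NN P (slot3 M T) T = 3 * NN P (fun i j k => ∑ l, M i l * T l j k) T := by
  have e0 : slot3 M T = (fun i j k => ∑ l, M i l * T l j k)
      + ((fun i j k => ∑ l, M j l * T i l k) + fun i j k => ∑ l, M k l * T i j l) := by
    funext i j k
    simp only [slot3, Pi.add_apply, Finset.sum_add_distrib]
    ring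
  have h2 : NN P (fun i j k => ∑ l, M j l * T i l k) T
      = NN P (fun i j k => ∑ l, M i l * T l j k) T := by
    unfold NN N3
    rw [Finset.sum_comm]
    refine Finset.sum_congr rfl fun a _ => Finset.sum_congr rfl fun b _ =>
      Finset.sum_congr rfl fun c _ => ?_
    rw [Finset.sum_comm]
    refine Finset.sum_congr rfl fun a' _ => Finset.sum_congr rfl fun b' _ =>
      Finset.sum_congr rfl fun c' _ => ?_
    rw [hT.1 b' a' c']
    have : ∑ l, M a l * T b l c = ∑ l, M a l * T l b c :=
      Finset.sum_congr rfl fun l _ => by rw [hT.1 b l c]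
    simp only [this]
    ring
  have h3 : NN P (fun i j k => ∑ l, M k l * T i j l) T
      = NN P (fun i j k => ∑ l, M j l * T i l k) T := by
    unfold NN N3
    refine Finset.sum_congr rfl fun a _ => ?_
    rw [Finset.sum_comm]
    refine Finset.sum_congr rfl fun b _ =>
      Finset.sum_congr rfl fun c _ => Finset.sum_congr rfl fun a' _ => ?_
    rw [Finset.sum_comm]
    refine Finset.sum_congr rfl fun b' _ => Finset.sum_congr rfl fun c' _ => ?_
    rw [hT.2 a' c' b']
    have : ∑ l, M b l * T a c l = ∑ l, M b l * T a l c :=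
      Finset.sum_congr rfl fun l _ => by rw [hT.2 a c l]
    simp only [this]
    ring
  rw [e0]
  unfold NN
  rw [N3_addT, N3_addT]
  unfold NN at h2 h3
  rw [h3, h2]
  ring

end Vale.Agent.P254.X602
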