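import Vale.Agent.P254.H602.Total

set_option linter.all false

/-!
P254, block (X) (helper602): at a contact point the inequality `ALG` gives a contradiction, provided
the weight decreases fast enough.
-/

namespace Vale.Agent.P254.X602

open Matrix Polynomial Filter Topology Asymptotics Set
open Vale.Agent.P254.L Vale.Agent.P254.S526 Vale.Agent.P254.Z546

variable {n : ℕ} {F : Profile} {D : TiltData n}

/-- `X` is bounded by a multiple of `P` -/
def PB (P X : Mat n) : Prop := ∃ C : ℝ, (C • P - X).PosSemidef ∧ (C • P + X).PosSemidef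

theorem PB.smul {P X : Mat n} (h : PB P X) (r : ℝ) : PB P (r • X) := by
  obtain ⟨C, h1, h2⟩ := h
  rcases le_total 0 r with hr | hr
  · refine ⟨r * C, ?_, ?_⟩
    · have := h1.smul hr
      rwa [smul_sub, smul_smul] at this
    · have := h2.smul hr
      rwa [smul_add, smul_smul] at this
  · have hr' : 0 ≤ -r := by linarith
    refine ⟨(-r) * C, ?_, ?_⟩
    · have := h2.smul hr'
      rw [smul_add, smul_smul, neg_smul] at this
      rwa [sub_eq_add_neg]
    · have := h1.smul hr'
      rw [smul_sub, smul_smul, neg_smul, sub_neg_eq_add] at this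
      exact this

theorem PB.add {P X Y : Mat n} (h : PB P X) (h' : PB P Y) : PB P (X + Y) := by
  obtain ⟨C, h1, h2⟩ := h
  obtain ⟨C', h1', h2'⟩ := h'
  refine ⟨C + C', ?_, ?_⟩
  · have := h1.add h1'
    refine cast (congrArg Matrix.PosSemidef ?_) this
    rw [add_smul]; abel
  · have := h2.add h2'
    refine cast (congrArg Matrix.PosSemidef ?_) this
    rw [add_smul]; abel

theorem PB.zero {P : Mat n} : PB P 0 := ⟨0, by simpa using Matrix.PosSemidef.zero,
  by simpa using Matrix.PosSemidef.zero⟩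

theorem PB.sum {P : Mat n} {ι : Type*} (s : Finset ι) {X : ι → Mat n} (h : ∀ a, PB P (X a)) :
    PB P (∑ a ∈ s, X a) := by
  classical
  induction s using Finset.induction_on with
  | empty => simpa using PB.zero
  | insert a s ha ih => rw [Finset.sum_insert ha]; exact (h a).add ih

theorem trace_cube_pos {P : Mat n} (hP : P.PosSemidef) (hP0 : P ≠ 0) : 0 < (P * P * P).trace := by
  obtain ⟨U, q, h1, h2, h3, h4⟩ := spec_symm hP.isHermitian
  have hq : ∀ k, 0 ≤ q k := fun k => by rw [h4]; exact hP.eigenvalues_nonneg k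
  have e : (P * P * P).trace = ∑ k, q k * q k * q k := by
    have e1 : P * P * P = U * Matrix.diagonal (fun k => q k * q k * q k) * Uᵀ := by
      conv_lhs => rw [h3]
      calc U * Matrix.diagonal q * Uᵀ * (U * Matrix.diagonal q * Uᵀ) * (U * Matrix.diagonal q * Uᵀ)
          = U * Matrix.diagonal q * (Uᵀ * U) * Matrix.diagonal q * (Uᵀ * U) * Matrix.diagonal q
            * Uᵀ := by simp only [Matrix.mul_assoc]
        _ = U * (Matrix.diagonal q * Matrix.diagonal q * Matrix.diagonal q) * Uᵀ := by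
            rw [h1]; simp only [Matrix.mul_assoc, Matrix.mul_one, Matrix.one_mul]
        _ = _ := by rw [Matrix.diagonal_mul_diagonal, Matrix.diagonal_mul_diagonal]
    rw [e1, Matrix.trace_mul_comm, ← Matrix.mul_assoc, h1, Matrix.one_mul, Matrix.trace_diagonal]
  rw [e]
  have hne : ∃ k, q k ≠ 0 := by
    by_contra hcon
    push Not at hcon
    apply hP0
    rw [h3]
    have : q = 0 := funext hcon
    rw [this]
    simp
  obtain ⟨k, hk⟩ := hne
  have hkp : 0 < q k := lt_of_le_of_ne (hq k) (Ne.symm hk)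
  refine Finset.sum_pos' (fun i _ => ?_) ⟨k, Finset.mem_univ k, ?_⟩
  · have := hq i; positivity
  · positivity

/-- the exact contact obtained from a point where the tests hold -/
theorem contact_of_tests {B : Mat n} (hB : B.PosDef) {c : Vec n} {L : Mat n} {β : Vec n}
    (h0 : SFr F (D.A B c) B L β) {P : Mat n} (hP : P.PosSemidef) (hP0 : P ≠ 0) {s : ℝ} (hs : 0 < s)
    (hle : ∀ P' : Mat n, P'.PosSemidef → NN P' (frT L (D.T B c)) (frT L (D.T B c))
      ≤ (s * s) * (P' * P' * P').trace)
    (heq : NN P (frT L (D.T B c)) (frT L (D.T B c)) = (s * s) * (P * P * P).trace)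
    (hc : ∀ v : Vec n, TestC D F B c L (s * s) P v 0) :
    Contact F β (s⁻¹ • frT L (D.T B c)) P (fun a => (s * s)⁻¹ • fr4 L (D.K B c) a) := by
  have hs0 : s ≠ 0 := hs.ne'
  have hTs : TSymm (frT L (D.T B c)) := frT_symm (D.T_symm B c)
  have hKs : KSymm (fr4 L (D.K B c)) := fr4_symm (D.K_symm1 B c) (D.K_symm2 B c) (D.K_symm3 B c)
  refine ⟨h0.hb, ?_, ?_, hP, hP0, ?_, ?_, ?_⟩
  · constructor
    · intro i j k
      simp only [Pi.smul_apply]
      rw [hTs.1 i j k]
    · intro i j k
      simp only [Pi.smul_apply]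
      rw [hTs.2 i j k]
  · refine ⟨?_, ?_, ?_⟩
    · intro i j k l
      simp only [Pi.smul_apply]
      rw [hKs.1 i j k l]
    · intro i j k l
      simp only [Pi.smul_apply]
      rw [hKs.2.1 i j k l]
    · intro i j k l
      simp only [Pi.smul_apply]
      rw [hKs.2.2 i j k l]
  · intro P' hP'
    have := hle P' hP'
    unfold NN at this ⊢
    rw [N3_smulT, N3_smulT']
    rw [← mul_assoc, ← mul_inv, inv_mul_le_iff₀ (by positivity)]
    exact this
  · unfold NN at heq ⊢
    rw [N3_smulT, N3_smulT', heq]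
    field_simp
  · intro a
    have hv := (contact_c hB h0 (psd_iff.1 hP).1 heq (X := fun _ => 0) (fun _ => by simp)
      (Pi.single a 1) (by simpa using hc (Pi.single a 1))).1
    have e0 : ∀ Y : Mat n, N3 0 P P (frT L (D.T B c)) (frT L (D.T B c)) = 0 := fun Y =>
      (N3L1 P P (frT L (D.T B c)) (frT L (D.T B c))).map_zero
    simp only [e0 0, mul_zero, Finset.sum_const_zero, Matrix.zero_mul, Matrix.trace_zero,
      add_zero, zero_add, Pi.single_apply, ite_mul, one_mul, zero_mul, Finset.sum_ite_eq',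
      Finset.mem_univ, if_true] at hv
    unfold NN at hv ⊢
    rw [N3_smulT, N3_smulT', Sd_smul, Matrix.smul_mul, Matrix.trace_smul, smul_eq_mul]
    have e1 : 2 * ((s * s)⁻¹ * (s⁻¹ * N3 P P P (fr4 L (D.K B c) a) (frT L (D.T B c))))
        = (s * s)⁻¹ * s⁻¹ * (2 * N3 P P P (fr4 L (D.K B c) a) (frT L (D.T B c))) := by ring
    rw [e1, hv]
    field_simp

/-- **the contradiction at a contact point** -/
theorem local_absurd {η C₀ : ℝ} (hALG : ALG F η C₀) {B : Mat n} (hB : B.PosDef) {c : Vec n}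
    {L : Mat n} {β : Vec n} (h0 : SFr F (D.A B c) B L β) {P : Mat n} (hP : P.PosSemidef)
    (hP0 : P ≠ 0) {lam : ℝ} (hlam : 1 < lam)
    (hle : ∀ P' : Mat n, P'.PosSemidef → NN P' (frT L (D.T B c)) (frT L (D.T B c))
      ≤ lam * (P' * P' * P').trace)
    (heq : NN P (frT L (D.T B c)) (frT L (D.T B c)) = lam * (P * P * P).trace)
    (hc : ∀ (v : Vec n) (X : Mat n), Xᵀ = X → PB P X → TestC D F B c L lam P v X)
    {κ : ℝ} {G : ℝ → ℝ} (hG : J1 (𝓝[≥] 0) G 1 (-κ))
    (hf : ∀ Qh : Mat n, (Qh - η • Matrix.diagonal fun i => F.p (β i)).PosSemidef →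
      ((C₀ • Matrix.diagonal fun i => F.p (β i)) - Qh).PosSemidef →
      TestF D F B c L lam G P (Lᵀ * Qh * L))
    (hη : 0 ≤ η) {Kb : ℝ}
    (hKb : ∀ (T' : Ten n) (Qh : Mat n), Contact F β T' P
        (fun a => lam⁻¹ • fr4 L (D.K B c) a) →
      (Qh - η • Matrix.diagonal fun i => F.p (β i)).PosSemidef →
      ((C₀ • Matrix.diagonal fun i => F.p (β i)) - Qh).PosSemidef →
      - (Kb * (P * P * P).trace) ≤ 6 * NN P (AQT F β T' Qh) T'
        + 3 * (Sflow F β Qh * (P * P * P)).trace)
    (hκ : lam * Kb < κ) : False := by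
  set s := Real.sqrt lam with hs
  have hlam0 : 0 < lam := by linarith
  have hs0 : 0 < s := Real.sqrt_pos.2 hlam0
  have hss : s * s = lam := Real.mul_self_sqrt hlam0.le
  have hcont := contact_of_tests hB h0 hP hP0 hs0 (by rw [hss]; exact hle) (by rw [hss]; exact heq)
    (fun v => by rw [hss]; exact hc v 0 (by simp) PB.zero)
  obtain ⟨Qh, X, hQ1, hQ2, hX, hd⟩ := hALG n β _ P _ hcont
  have hQ : Qh.PosSemidef := by
    have h1 : (Matrix.diagonal fun i => F.p (β i) : Mat n).PosSemidef := by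
      rw [Matrix.posSemidef_diagonal_iff]
      exact fun i => (h0.ppos i).le
    have := hQ1.add (h1.smul hη)
    rwa [sub_add_cancel] at this
  have hXs : ∀ a, (X a)ᵀ = X a := fun a => (hX a).1
  have hmain := contact_scaled hB h0 (psd_iff.1 hP).1 hs0 hG (by rw [hss]; exact heq) hXs hQ
    (fun v => by
      rw [hss]
      refine hc v _ ?_ ?_
      · rw [Matrix.transpose_sum]
        refine Finset.sum_congr rfl fun a _ => ?_
        rw [Matrix.transpose_smul, Matrix.transpose_smul, hXs]
      · exact PB.sum _ fun a => (PB.smul (hX a).2 s).smul (v a))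
    (by rw [hss]; exact hf Qh hQ1 hQ2)
  have hb := hKb _ Qh (by rw [hss] at hcont; exact hcont) hQ1 hQ2
  rw [hss] at hmain hd
  have hpos := trace_cube_pos hP hP0
  set tp := (P * P * P).trace with htp
  set Z := 6 * NN P (AQT F β (s⁻¹ • frT L (D.T B c)) Qh) (s⁻¹ • frT L (D.T B c))
    + 3 * (Sflow F β Qh * (P * P * P)).trace with hZ
  have h1 : 0 ≤ lam * lam * drift F β (s⁻¹ • frT L (D.T B c)) P
      (fun a => lam⁻¹ • fr4 L (D.K B c) a) Qh X := mul_nonneg (by positivity) hd
  have h2 : (lam - 1) * (lam * Z + κ * tp) ≤ 0 := by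
    have e : (lam - 1) * (lam * Z + κ * tp) = lam * (lam - 1) * Z + κ * (lam - 1) * tp := by ring
    rw [e]
    linarith
  have h3 : 0 < lam * Z + κ * tp := by
    have h4 : lam * (-(Kb * tp)) ≤ lam * Z := mul_le_mul_of_nonneg_left hb hlam0.le
    have h5 : 0 < (κ - lam * Kb) * tp := mul_pos (by linarith) hpos
    nlinarith
  have h6 : 0 < (lam - 1) * (lam * Z + κ * tp) := mul_pos (by linarith) h3
  linarith

end Vale.Agent.P254.X602
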