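import Vale.Agent.P254.H602.StXgen
import Vale.Agent.P254.Bdl.B19

set_option linter.all false

/-!
P254, block (X) (helper602): the nice measures satisfy `StrongT`.
-/

namespace Vale.Agent.P254.X602

open Matrix MeasureTheory Filter Topology
open Vale.Agent.P254.L (Mat Vec Ten NN frT TiltData)
open Vale.Agent.P254 Fr

variable {n : ℕ} {K : Set (E n)} {ε m : ℝ}

theorem strongT_nice (hK : IsCompact K) (hs : StrictConvex ℝ K) (hi : (interior K).Nonempty)
    (hε : 0 < ε) (hm : 0 < m) : StrongT (Fr.tiltData hK hs hi hε hm) := by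
  obtain ⟨δ, hδ, hτ⟩ := Fr.exists_tau_bd hK hi
  refine ⟨(n : ℝ) ^ 6 * δ ^ 2 * (1 / ε ^ 2) ^ 3, by positivity, fun B hB c P hP => ?_⟩
  show NN P (Fr.TF (Fr.wK K ε m) B c) (Fr.TF (Fr.wK K ε m) B c) ≤ _
  have hM : 0 < m + 1 / ε := by positivity
  rw [Fr.TF_eq hK hi hε hm hB, Fr.NN_frT]
  have hQ : ((Fr.WF B ε m)ᵀ * P * Fr.WF B ε m).PosSemidef := by
    have h := hP.mul_mul_conjTranspose_same (Fr.WF B ε m)ᵀ
    rwa [Matrix.conjTranspose_eq_transpose_of_trivial, Matrix.transpose_transpose] at h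
  refine (Fr.NN_le hQ hδ fun i j k => hτ _ _ i j k).trans ?_
  have h3 : ((Fr.WF B ε m)ᵀ * P * Fr.WF B ε m).trace
      = (1 / ε ^ 2) * (Fr.GF B (m + 1 / ε) * Fr.GF B (m + 1 / ε) * P).trace := by
    rw [Fr.WF_symm hε hm hB, Matrix.trace_mul_comm, ← Matrix.mul_assoc]
    unfold Fr.WF
    rw [Matrix.smul_mul, Matrix.mul_smul, Matrix.smul_mul, Matrix.smul_mul, Matrix.trace_smul,
      Matrix.trace_smul, smul_eq_mul, smul_eq_mul]
    ring
  rw [h3]
  have e : (Fr.tiltData hK hs hi hε hm).M = m + 1 / ε := rfl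
  have e2 : Fr.GF B (m + 1 / ε) = (B + (m + 1 / ε) • (1 : Mat n))⁻¹ := rfl
  rw [e, e2]
  refine le_of_eq ?_
  ring

end Vale.Agent.P254.X602
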