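import Vale.Agent.P254.Bdl.B3

set_option linter.all false

/-!
P254, block (X) (helper602): jets of the spectral function `S = A p(BA)` in its normal frame.

`SFr F A B L β` : `L A Lᵀ = diag (1 / p (β i))`, `B = Lᵀ diag (h (β i)) L`, `h x = x p x`.
In this frame `L S Lᵀ = 1`.
-/

namespace Vale.Agent.P254.X602

open Matrix Polynomial Filter Topology Asymptotics Set
open Vale.Agent.P254.L Vale.Agent.P254.S526 Vale.Agent.P254.Z546

variable {n : ℕ}

/-- the normal frame of `S = A p(BA)` -/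
structure SFr (F : Profile) (A B L : Mat n) (β : Vec n) : Prop where
  hb : ∀ i, β i ∈ Ioo (0 : ℝ) 1
  hL : IsUnit L
  hA : L * A * Lᵀ = Matrix.diagonal fun i => 1 / F.p (β i)
  hB : B = Lᵀ * (Matrix.diagonal fun i => F.h (β i)) * L

theorem exists_SFr (F : Profile) {A B L : Mat n} {β : Vec n} (h : Fr A B L β)
    (hb : ∀ i, β i ∈ Ioo (0 : ℝ) 1) :
    SFr F A B ((Matrix.diagonal fun i => (Real.sqrt (F.p (β i)))⁻¹) * L) β := by
  have hp : ∀ i, 0 < F.p (β i) := fun i => F.pos _ (hb i)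
  have hs : ∀ i, Real.sqrt (F.p (β i)) * Real.sqrt (F.p (β i)) = F.p (β i) := fun i =>
    Real.mul_self_sqrt (hp i).le
  have hs0 : ∀ i, Real.sqrt (F.p (β i)) ≠ 0 := fun i => (Real.sqrt_pos.2 (hp i)).ne'
  refine ⟨hb, ?_, ?_, ?_⟩
  · refine IsUnit.mul ?_ h.isUnit
    rw [Matrix.isUnit_iff_isUnit_det, Matrix.det_diagonal, isUnit_iff_ne_zero,
      Finset.prod_ne_zero_iff]
    exact fun i _ => inv_ne_zero (hs0 i)
  · rw [Matrix.transpose_mul, Matrix.diagonal_transpose]
    calc (Matrix.diagonal fun i => (Real.sqrt (F.p (β i)))⁻¹) * L * A *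
          (Lᵀ * Matrix.diagonal fun i => (Real.sqrt (F.p (β i)))⁻¹)
        = (Matrix.diagonal fun i => (Real.sqrt (F.p (β i)))⁻¹) * (L * A * Lᵀ) *
          (Matrix.diagonal fun i => (Real.sqrt (F.p (β i)))⁻¹) := by
          simp only [Matrix.mul_assoc]
      _ = _ := by
          rw [h.hA, Matrix.mul_one, Matrix.diagonal_mul_diagonal]
          congr 1
          funext i
          rw [← mul_inv, hs, one_div]
  · conv_lhs => rw [h.hB]
    rw [Matrix.transpose_mul, Matrix.diagonal_transpose]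
    calc Lᵀ * Matrix.diagonal β * L
        = Lᵀ * ((Matrix.diagonal fun i => (Real.sqrt (F.p (β i)))⁻¹) *
          (Matrix.diagonal fun i => F.h (β i)) *
          (Matrix.diagonal fun i => (Real.sqrt (F.p (β i)))⁻¹)) * L := by
          rw [Matrix.diagonal_mul_diagonal, Matrix.diagonal_mul_diagonal]
          congr 3
          funext i
          unfold Profile.h
          have h1 := hs i
          have h2 := hs0 i
          field_simp
          rw [sq, h1]
      _ = _ := by simp only [Matrix.mul_assoc]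

namespace SFr

variable {F : Profile} {A B L : Mat n} {β : Vec n}

theorem ppos (h : SFr F A B L β) (i : Fin n) : 0 < F.p (β i) := F.pos _ (h.hb i)

/-- the orthonormal frame belonging to an `S`-frame -/
theorem fr (h : SFr F A B L β) :
    Fr A B ((Matrix.diagonal fun i => Real.sqrt (F.p (β i))) * L) β := by
  have hs : ∀ i, Real.sqrt (F.p (β i)) * Real.sqrt (F.p (β i)) = F.p (β i) := fun i =>
    Real.mul_self_sqrt (h.ppos i).le
  refine ⟨?_, ?_⟩
  · rw [Matrix.transpose_mul, Matrix.diagonal_transpose]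
    calc (Matrix.diagonal fun i => Real.sqrt (F.p (β i))) * L * A *
          (Lᵀ * Matrix.diagonal fun i => Real.sqrt (F.p (β i)))
        = (Matrix.diagonal fun i => Real.sqrt (F.p (β i))) * (L * A * Lᵀ) *
          (Matrix.diagonal fun i => Real.sqrt (F.p (β i))) := by
          simp only [Matrix.mul_assoc]
      _ = _ := by
          rw [h.hA, Matrix.diagonal_mul_diagonal, Matrix.diagonal_mul_diagonal,
            ← Matrix.diagonal_one]
          congr 1
          funext i
          have h1 := hs i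
          have h2 := (h.ppos i).ne'
          calc Real.sqrt (F.p (β i)) * (1 / F.p (β i)) * Real.sqrt (F.p (β i))
              = (Real.sqrt (F.p (β i)) * Real.sqrt (F.p (β i))) / F.p (β i) := by ring
            _ = 1 := by rw [h1]; exact div_self h2
  · conv_lhs => rw [h.hB]
    rw [Matrix.transpose_mul, Matrix.diagonal_transpose]
    calc Lᵀ * (Matrix.diagonal fun i => F.h (β i)) * L
        = Lᵀ * ((Matrix.diagonal fun i => Real.sqrt (F.p (β i))) *
          (Matrix.diagonal β) *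
          (Matrix.diagonal fun i => Real.sqrt (F.p (β i)))) * L := by
          rw [Matrix.diagonal_mul_diagonal, Matrix.diagonal_mul_diagonal]
          congr 3
          funext i
          unfold Profile.h
          have h1 := hs i
          calc β i * F.p (β i) = β i * (Real.sqrt (F.p (β i)) * Real.sqrt (F.p (β i))) := by
                rw [h1]
            _ = _ := by ring
      _ = _ := by simp only [Matrix.mul_assoc]

/-- the inverse of the frame -/
theorem inv_right (h : SFr F A B L β) : L * L⁻¹ = 1 :=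
  Matrix.mul_nonsing_inv _ ((Matrix.isUnit_iff_isUnit_det _).1 h.hL)

theorem inv_left (h : SFr F A B L β) : L⁻¹ * L = 1 :=
  Matrix.nonsing_inv_mul _ ((Matrix.isUnit_iff_isUnit_det _).1 h.hL)

theorem invT_left (h : SFr F A B L β) : (L⁻¹)ᵀ * Lᵀ = 1 := by
  rw [← Matrix.transpose_mul, h.inv_right, Matrix.transpose_one]

theorem invT_right (h : SFr F A B L β) : Lᵀ * (L⁻¹)ᵀ = 1 := by
  rw [← Matrix.transpose_mul, h.inv_left, Matrix.transpose_one]

/-- in its frame the matrix `A q(BA)` is a function of the conjugated pair -/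
theorem conj_aeval {L : Mat n} (hL : IsUnit L) (A Bh : Mat n) (q : ℝ[X]) :
    L * (A * aeval (Lᵀ * Bh * L * A) q) * Lᵀ
      = (L * A * Lᵀ) * aeval (Bh * (L * A * Lᵀ)) q := by
  have h1 : aeval (Lᵀ * Bh * L * A) q * Lᵀ = Lᵀ * aeval (Bh * (L * A * Lᵀ)) q := by
    have := aeval_comm_mul Lᵀ (Bh * (L * A)) q
    have e1 : Lᵀ * Bh * L * A = Lᵀ * (Bh * (L * A)) := by simp only [Matrix.mul_assoc]
    have e2 : Bh * (L * A * Lᵀ) = Bh * (L * A) * Lᵀ := by simp only [Matrix.mul_assoc]
    rw [e1, e2]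
    exact this
  calc L * (A * aeval (Lᵀ * Bh * L * A) q) * Lᵀ
      = L * A * (aeval (Lᵀ * Bh * L * A) q * Lᵀ) := by simp only [Matrix.mul_assoc]
    _ = _ := by rw [h1]; simp only [Matrix.mul_assoc]

/-- `L S Lᵀ = 1` -/
theorem conj_S (h : SFr F A B L β) (hA : Aᵀ = A) : L * Sf F.p A B * Lᵀ = 1 := by
  classical
  obtain ⟨q, hq⟩ := Vale.Agent.P254.L.exists_interp F.p (Finset.univ.image β)
  have hq' : ∀ i, q.eval (β i) = F.p (β i) := fun i => hq _ (by simp)
  have e0 : Sf F.p A B = A * aeval (B * A) q := by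
    rw [Sf_eq hA h.fr, h.fr.A_aeval hA]; simp only [hq']
  have e1 : B * A = Lᵀ * (Matrix.diagonal fun i => F.h (β i)) * L * A := by
    conv_lhs => rw [h.hB]
  rw [e0, e1, conj_aeval h.hL, h.hA, Matrix.diagonal_mul_diagonal]
  have e2 : aeval (Matrix.diagonal fun i => F.h (β i) * (1 / F.p (β i)) : Mat n) q
      = Matrix.diagonal fun i => F.p (β i) := by
    have e3 : (Matrix.diagonal fun i => F.h (β i) * (1 / F.p (β i)) : Mat n)
        = Matrix.diagonal β := by
      congr 1
      funext i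
      unfold Profile.h
      have := (h.ppos i).ne'
      field_simp
    have h3 : Fr (1 : Mat n) (Matrix.diagonal β) 1 β := ⟨by simp, by simp⟩
    have h4 := h3.aeval_BA q
    rw [Matrix.mul_one] at h4
    rw [e3, h4]
    simp [hq']
  rw [e2, Matrix.diagonal_mul_diagonal, ← Matrix.diagonal_one]
  congr 1
  funext i
  have := (h.ppos i).ne'
  field_simp

end SFr

theorem ev_nhds' {x : ℝ} (hx : x ∈ Ioo (0 : ℝ) 1) {f f1 : ℝ → ℝ}
    (h : ∀ x ∈ Ioo (0 : ℝ) 1, HasDerivAt f (f1 x) x) : ∀ᶠ y in 𝓝 x, HasDerivAt f (f1 y) y := by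
  filter_upwards [isOpen_Ioo.mem_nhds hx] with y hy
  exact h y hy

theorem conj_o {l : Filter ℝ} {g : ℝ → ℝ} {M N : ℝ → Mat n} (L : Mat n)
    (h : ∀ a b, (fun t => M t a b - N t a b) =o[l] g) (i j : Fin n) :
    (fun t => (L * M t * Lᵀ) i j - (L * N t * Lᵀ) i j) =o[l] g := by
  have h1 : (fun t => ∑ b, ∑ a, (M t a b - N t a b) * (L i a * L j b)) =o[l] g := by
    refine IsLittleO.fun_sum fun b _ => IsLittleO.fun_sum fun a _ => ?_
    have := (h a b).const_mul_left (L i a * L j b)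
    refine this.congr_left fun t => ?_
    ring
  refine h1.congr_left fun t => ?_
  simp only [Matrix.mul_apply, Matrix.transpose_apply, Finset.sum_mul]
  rw [← Finset.sum_sub_distrib]
  refine Finset.sum_congr rfl fun b _ => ?_
  rw [← Finset.sum_sub_distrib]
  refine Finset.sum_congr rfl fun a _ => ?_
  ring

/-- second order jet of `L S(A t, B) Lᵀ` along a curve of matrices `A t`, `B` fixed -/
theorem Sf_jet2 {F : Profile} {A : ℝ → Mat n} {A0 B L X Y : Mat n} {β : Vec n}
    (h0 : SFr F A0 B L β) (hs : A0ᵀ = A0)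
    (hA : ∀ i j, J2 (𝓝 0) (fun t => A t i j) (A0 i j) (X i j) (Y i j))
    (hfr : ∀ᶠ t in 𝓝 (0 : ℝ), (A t)ᵀ = A t ∧ ∃ L β, Fr (A t) B L β) (i j : Fin n) :
    J2 (𝓝 0) (fun t => (L * Sf F.p (A t) B * Lᵀ) i j) ((1 : Mat n) i j)
      (dd1 F.h F.h1 (β i) (β j) * (L * X * Lᵀ) i j)
      (dd1 F.h F.h1 (β i) (β j) * (L * Y * Lᵀ) i j
        + ∑ k, F.h (β k) * dd2 F.h F.h1 F.h2 (β i) (β k) (β j) * (L * X * Lᵀ) i k
            * (L * X * Lᵀ) k j) := by
  have hfin : (Set.range β).Finite := Set.finite_range β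
  obtain ⟨q, hq⟩ := S526.exists_interp F hfin
  have hm : ∀ i, β i ∈ Set.range β := fun i => ⟨i, rfl⟩
  have hC : Curve (𝓝 0) A (fun _ => B) A0 B :=
    { hl := le_rfl
      symm0 := hs
      hA := fun i j => ((hA i j).toJ1 le_rfl).sub_isBigO
      hB := fun i j => by simpa using isBigO_zero (fun t : ℝ => t) (𝓝 0)
      fr := hfr }
  have hρ : ∀ i, (fun x => F.p x - q.eval x) =o[𝓝 (β i)] fun x => (x - β i) ^ 2 := fun i =>
    rho_o (ev_nhds' (h0.hb i) F.d1) (F.d2 _ (h0.hb i)) (hq _ (hm i)).1 (hq _ (hm i)).2.1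
      (hq _ (hm i)).2.2
  have hP := fun a b => hC.Sf_poly h0.fr (f := F.p) (q := q) hρ a b
  -- conjugated remainder
  have hP' : (fun t => (L * Sf F.p (A t) B * Lᵀ) i j
      - (L * (A t * aeval (B * A t) q) * Lᵀ) i j) =o[𝓝 0] fun t => t ^ 2 := conj_o L hP i j
  have hA1 : ∀ i j, J2 (𝓝 0) (fun t => (L * A t * Lᵀ) i j)
      (Matrix.diagonal (fun i => 1 / F.p (β i)) i j) ((L * X * Lᵀ) i j) ((L * Y * Lᵀ) i j) := by
    intro i j
    refine (J2_conj L hA i j).congr_coef ?_ rfl rfl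
    rw [h0.hA]
  have hJ := SQ_jet2 le_rfl q (b' := fun i => F.h (β i)) hA1 i j
  have hab : ∀ i, 1 / F.p (β i) * F.h (β i) = β i := by
    intro i
    unfold Profile.h
    have := (h0.ppos i).ne'
    field_simp
  simp only [hab] at hJ
  have hJ' : J2 (𝓝 0) (fun t => (L * (A t * aeval (B * A t) q) * Lᵀ) i j) ((1 : Mat n) i j)
      (dd1 F.h F.h1 (β i) (β j) * (L * X * Lᵀ) i j)
      (dd1 F.h F.h1 (β i) (β j) * (L * Y * Lᵀ) i j
        + ∑ k, F.h (β k) * dd2 F.h F.h1 F.h2 (β i) (β k) (β j) * (L * X * Lᵀ) i k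
            * (L * X * Lᵀ) k j) := by
    refine hJ.congr (Eventually.of_forall fun t => ?_) ?_ ?_ ?_
    · have e1 : B * A t = Lᵀ * (Matrix.diagonal fun i => F.h (β i)) * L * A t := by
        conv_lhs => rw [h0.hB]
      simp only
      rw [e1, SFr.conj_aeval h0.hL]
    · have : (fun i => 1 / F.p (β i) * q.eval (β i)) = fun _ => (1 : ℝ) := by
        funext i
        rw [(hq _ (hm i)).1]
        have := (h0.ppos i).ne'
        field_simp
      rw [this, Matrix.diagonal_one]
    · rw [hq.pd1_h (hm i) (hm j)]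
    · rw [hq.pd1_h (hm i) (hm j)]
      congr 1
      refine Finset.sum_congr rfl fun k _ => ?_
      rw [hq.pd2_h (hm i) (hm k) (hm j)]
  refine (IsLittleO.add hP' hJ').congr_left fun t => ?_
  simp only
  ring

/-- first order jet of `L S(A t, B + t Q) Lᵀ`, `Q = Lᵀ Qh L` -/
theorem Sf_jet1 {F : Profile} {l : Filter ℝ} (hl : l ≤ 𝓝 0) {A : ℝ → Mat n}
    {A0 B L X Qh : Mat n} {β : Vec n}
    (h0 : SFr F A0 B L β) (hs : A0ᵀ = A0)
    (hA : ∀ i j, J1 l (fun t => A t i j) (A0 i j) (X i j))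
    (hfr : ∀ᶠ t in l, (A t)ᵀ = A t ∧ ∃ L' β', Fr (A t) (B + t • (Lᵀ * Qh * L)) L' β')
    (i j : Fin n) :
    J1 l (fun t => (L * Sf F.p (A t) (B + t • (Lᵀ * Qh * L)) * Lᵀ) i j) ((1 : Mat n) i j)
      (dd1 F.h F.h1 (β i) (β j) * (L * X * Lᵀ) i j
        + 1 / F.p (β i) * (1 / F.p (β j)) * dd1 F.p F.p1 (β i) (β j) * Qh i j) := by
  have hfin : (Set.range β).Finite := Set.finite_range β
  obtain ⟨q, hq⟩ := S526.exists_interp F hfin
  have hm : ∀ i, β i ∈ Set.range β := fun i => ⟨i, rfl⟩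
  have hC : Curve l A (fun t => B + t • (Lᵀ * Qh * L)) A0 B :=
    { hl := hl
      symm0 := hs
      hA := fun i j => (hA i j).sub_isBigO
      hB := fun i j => by
        have h3 : (fun t : ℝ => (Lᵀ * Qh * L) i j * t) =O[l] fun t => t :=
          (isBigO_refl _ _).const_mul_left _
        refine h3.congr_left fun t => ?_
        simp only [Matrix.add_apply, Matrix.smul_apply, smul_eq_mul]
        ring
      fr := hfr }
  have hρ : ∀ i, (fun x => F.p x - q.eval x) =o[𝓝 (β i)] fun x => (x - β i) ^ 2 := fun i =>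
    rho_o (ev_nhds' (h0.hb i) F.d1) (F.d2 _ (h0.hb i)) (hq _ (hm i)).1 (hq _ (hm i)).2.1
      (hq _ (hm i)).2.2
  have hP := fun a b => hC.Sf_poly h0.fr (f := F.p) (q := q) hρ a b
  have hP' : (fun t => (L * Sf F.p (A t) (B + t • (Lᵀ * Qh * L)) * Lᵀ) i j
      - (L * (A t * aeval ((B + t • (Lᵀ * Qh * L)) * A t) q) * Lᵀ) i j) =o[l] fun t => t :=
    (conj_o L hP i j).trans (sq_isLittleO hl)
  have hA1 : ∀ i j, J1 l (fun t => (L * A t * Lᵀ) i j)
      (Matrix.diagonal (fun i => 1 / F.p (β i)) i j) ((L * X * Lᵀ) i j) := by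
    intro i j
    refine (J1_conj L hA i j).congr_coef ?_ rfl
    rw [h0.hA]
  have hB1 : ∀ i j, J1 l (fun t : ℝ => ((Matrix.diagonal fun i => F.h (β i)) + t • Qh) i j)
      (Matrix.diagonal (fun i => F.h (β i)) i j) (Qh i j) := by
    intro i j
    refine ((J1.const (Matrix.diagonal (fun i => F.h (β i)) i j)).add
      (J1.id.mul_const (Qh i j))).congr (Eventually.of_forall fun t => ?_) ?_ ?_
    · simp only [Matrix.add_apply, Matrix.smul_apply, smul_eq_mul]
    · ring
    · ring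
  have hJ := SQ_jet1 hl q hA1 hB1 i j
  have hab : ∀ i, 1 / F.p (β i) * F.h (β i) = β i := by
    intro i
    unfold Profile.h
    have := (h0.ppos i).ne'
    field_simp
  simp only [hab] at hJ
  have hJ' : J1 l (fun t => (L * (A t * aeval ((B + t • (Lᵀ * Qh * L)) * A t) q) * Lᵀ) i j)
      ((1 : Mat n) i j)
      (dd1 F.h F.h1 (β i) (β j) * (L * X * Lᵀ) i j
        + 1 / F.p (β i) * (1 / F.p (β j)) * dd1 F.p F.p1 (β i) (β j) * Qh i j) := by
    refine hJ.congr (Eventually.of_forall fun t => ?_) ?_ ?_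
    · have e1 : (B + t • (Lᵀ * Qh * L)) * A t
          = Lᵀ * ((Matrix.diagonal fun i => F.h (β i)) + t • Qh) * L * A t := by
        conv_lhs => rw [h0.hB]
        simp only [Matrix.mul_add, Matrix.add_mul, Matrix.mul_smul, Matrix.smul_mul]
      simp only
      rw [e1, SFr.conj_aeval h0.hL]
    · have : (fun i => 1 / F.p (β i) * q.eval (β i)) = fun _ => (1 : ℝ) := by
        funext i
        rw [(hq _ (hm i)).1]
        have := (h0.ppos i).ne'
        field_simp
      rw [this, Matrix.diagonal_one]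
    · rw [hq.pd1_h (hm i) (hm j), hq.pd1_p (hm i) (hm j)]
  refine (IsLittleO.add hP' hJ').congr_left fun t => ?_
  simp only
  ring

end Vale.Agent.P254.X602
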