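import Vale.Agent.P254.H602.Global

set_option linter.all false

/-!
P254, block (X) (helper602): `ALG F η C₀` (general control) implies the sharp inequality `(P)`.
-/

namespace Vale.Agent.P254.X602

open Matrix Polynomial Filter Topology Asymptotics Set
open Vale.Agent.P254.L Vale.Agent.P254.S526 Vale.Agent.P254.Z546

variable {n : ℕ} {F : Profile} {D : TiltData n}

/-- the lower bound of the profile near `1` -/
def PLow (F : Profile) : Prop := ∃ c : ℝ, 0 < c ∧ ∀ x ∈ Ioo (0 : ℝ) 1, c * (1 - x) ^ 2 ≤ F.p x ^ 3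

theorem frame_of {B : Mat n} (hB : B.PosDef) (c : Vec n) :
    ∃ (L : Mat n) (β : Vec n), Fr (D.A B c) B L β :=
  exists_Fr (D.posA B hB.posSemidef c) hB.isHermitian

theorem Rden_pos {B : Mat n} (hB : B.PosDef) (c : Vec n) {P : Mat n} (hP : P.PosSemidef)
    (hP0 : P ≠ 0) : 0 < ((Sf F.p (D.A B c) B * P) ^ 3).trace := by
  obtain ⟨L, β, h⟩ := frame_of (D := D) hB c
  exact den_pos (A_tr D B c) h (fun i => F.pos _ (h.beta_mem hB c i)) hP hP0

/-! ### continuity -/

theorem cont_S : ContinuousOn (fun p : Mat n × Vec n => Sf F.p (D.A p.1 p.2) p.1)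
    ({B | B.PosDef} ×ˢ univ) := by
  have hsub : ({B : Mat n | B.PosDef} ×ˢ (univ : Set (Vec n)))
      ⊆ ({B | B.PosSemidef} ×ˢ univ) := by
    rintro ⟨B, c⟩ ⟨h, -⟩
    exact ⟨Matrix.PosDef.posSemidef h, trivial⟩
  rintro ⟨B, c⟩ ⟨h, -⟩
  have hB : B.PosDef := h
  obtain ⟨L, β, hF⟩ := frame_of (D := D) hB c
  have hβ : ∀ i, β i ∈ Ioo (0 : ℝ) 1 := hF.beta_mem hB c
  have hA : Tendsto (fun p : Mat n × Vec n => D.A p.1 p.2)
      (𝓝[({B | B.PosDef} ×ˢ univ)] (B, c)) (𝓝 (D.A B c)) := by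
    refine tendsto_pi_nhds.2 fun i => tendsto_pi_nhds.2 fun j => ?_
    exact ((D.cA i j).mono hsub) (B, c) ⟨h, trivial⟩
  have hBt : Tendsto (fun p : Mat n × Vec n => p.1)
      (𝓝[({B | B.PosDef} ×ˢ univ)] (B, c)) (𝓝 B) :=
    (continuous_fst.tendsto (B, c)).mono_left nhdsWithin_le_nhds
  refine Sf_tendsto hF (A_tr D B c) hA hBt (fun i => (F.d1 _ (hβ i)).continuousAt) ?_
  filter_upwards [self_mem_nhdsWithin] with p hp
  have hp1 : p.1.PosDef := hp.1
  exact ⟨A_tr D _ _, frame_of hp1 p.2⟩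

theorem cont_T (i j k : Fin n) : ContinuousOn (fun p : Mat n × Vec n => D.T p.1 p.2 i j k)
    ({B | B.PosDef} ×ˢ univ) := by
  refine (D.cT i j k).mono ?_
  rintro ⟨B, c⟩ ⟨h, -⟩
  exact ⟨Matrix.PosDef.posSemidef h, trivial⟩

theorem cont_Rat : ContinuousOn (fun p : Mat n × Vec n × Mat n => Rat F D p.1 p.2.1 p.2.2)
    ({B | B.PosDef} ×ˢ (univ ×ˢ PP n)) := by
  have hproj : ContinuousOn (fun p : Mat n × Vec n × Mat n => (p.1, p.2.1))
      ({B : Mat n | B.PosDef} ×ˢ ((univ : Set (Vec n)) ×ˢ PP n)) := by fun_prop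
  have hmaps : MapsTo (fun p : Mat n × Vec n × Mat n => (p.1, p.2.1))
      ({B : Mat n | B.PosDef} ×ˢ ((univ : Set (Vec n)) ×ˢ PP n)) ({B | B.PosDef} ×ˢ univ) :=
    fun p hp => ⟨hp.1, trivial⟩
  have hS := (cont_S (F := F) (D := D)).comp hproj hmaps
  have hT := fun i j k => (cont_T (D := D) i j k).comp hproj hmaps
  have hPc : ContinuousOn (fun p : Mat n × Vec n × Mat n => p.2.2)
      ({B : Mat n | B.PosDef} ×ˢ ((univ : Set (Vec n)) ×ˢ PP n)) := by fun_prop
  unfold Rat
  refine ContinuousOn.div ?_ ?_ ?_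
  · unfold NN N3
    refine continuousOn_finsetSum _ fun a _ => continuousOn_finsetSum _ fun b _ =>
      continuousOn_finsetSum _ fun c _ => continuousOn_finsetSum _ fun a' _ =>
      continuousOn_finsetSum _ fun b' _ => continuousOn_finsetSum _ fun c' _ => ?_
    have hPe : ∀ i j, ContinuousOn (fun p : Mat n × Vec n × Mat n => p.2.2 i j)
        ({B : Mat n | B.PosDef} ×ˢ ((univ : Set (Vec n)) ×ˢ PP n)) := fun i j => by fun_prop
    exact (((((hPe a a').mul (hPe b b')).mul (hPe c c')).mul (hT a b c)).mul (hT a' b' c'))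
  · have h3 : Continuous fun M : Mat n => (M ^ 3).trace := by
      have h4 : Continuous fun M : Mat n => M.trace := continuous_id.matrix_trace
      exact h4.comp (continuous_pow 3)
    refine h3.comp_continuousOn ?_
    exact hS.mul hPc
  · rintro ⟨B, c, P⟩ ⟨h1, -, h2⟩
    exact (Rden_pos (F := F) (D := D) h1 c h2.1 (PP_ne_zero h2)).ne'

/-! ### boundaries -/

theorem n_pos_of_PP {P : Mat n} (h : P ∈ PP n) : 0 < n := by
  by_contra hn
  have : n = 0 := by omega
  subst this
  have := h.2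
  simp [Matrix.trace] at this

theorem psd_conj' {N P : Mat n} (hP : P.PosSemidef) : (N * P * Nᵀ).PosSemidef := by
  have h1 := hP.mul_mul_conjTranspose_same N
  rwa [Matrix.conjTranspose_eq_transpose_of_trivial] at h1

theorem top_bd (hT : StrongT D) (hF : PLow F) :
    ∃ b : ℝ, 0 < b ∧ ∀ B : Mat n, B.PosDef → (B - b • (1 : Mat n)).PosSemidef →
      ∀ c, ∀ P ∈ PP n, Rat F D B c P ≤ 1 := by
  obtain ⟨C, hC0, hC⟩ := hT
  obtain ⟨cp, hcp, hp⟩ := hF
  have hm := D.hm
  have hM := D.hM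
  have hM0 : 0 < D.M := by linarith
  -- `K³ ≥ C n²`
  set K : ℝ := (C * n ^ 2 + 1) * (4 / D.m) with hK
  have hK0 : 0 < K := by positivity
  set b : ℝ := D.M * K ^ 3 / cp + 1 with hb
  have hb0 : 0 < b := by positivity
  refine ⟨b, hb0, fun B hB hBb c P hP => ?_⟩
  obtain ⟨L, β, h⟩ := frame_of (D := D) hB c
  have hβ : ∀ i, β i ∈ Ioo (0 : ℝ) 1 := h.beta_mem hB c
  have hbM : 0 < b + D.M := by linarith
  -- `β ≥ b/(b+M)`
  have hβb : ∀ i, b / (b + D.M) ≤ β i := by
    intro i
    refine fr_le_beta h ?_ i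
    have h1 := (D.lo B hB.posSemidef c).smul (div_nonneg hb0.le hbM.le)
    have h2 := hBb.smul (div_nonneg hM0.le hbM.le)
    refine cast (congrArg Matrix.PosSemidef ?_) (h1.add h2)
    ext i j
    simp only [Matrix.sub_apply, Matrix.smul_apply, Matrix.add_apply, smul_eq_mul]
    field_simp
    ring
  have hD : ∀ i, 1 - β i ≤ D.M / (b + D.M) := by
    intro i
    have h1 := hβb i
    have e : 1 - b / (b + D.M) = D.M / (b + D.M) := by field_simp; ring
    linarith
  set Pt := (L * D.A B c) * P * (L * D.A B c)ᵀ with hPt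
  have hPtp : Pt.PosSemidef := psd_conj' hP.1
  have hPti : ∀ i, 0 ≤ Pt i i := fun i => hPtp.diag_nonneg
  have hden := Rden_pos (F := F) (D := D) hB c hP.1 (PP_ne_zero hP)
  unfold Rat
  rw [div_le_one hden]
  have h1 := hC B hB.posSemidef c P hP.1
  have h2 := trG_le D hB c h hP.1
  have h3 := den_ge (A_tr D B c) h (fun i => (F.pos _ (hβ i)).le) P hP.1
  have hn : 0 < (n : ℝ) := by exact_mod_cast n_pos_of_PP hP
  set x := ∑ i, (1 - β i) * Pt i i with hx
  set y := ∑ i, F.p (β i) * Pt i i with hy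
  have hx0 : 0 ≤ x := Finset.sum_nonneg fun i _ => mul_nonneg (by linarith [(hβ i).2]) (hPti i)
  -- `K (1-β) ≤ p`
  have h4 : ∀ i, K * (1 - β i) ≤ F.p (β i) := by
    intro i
    have hd0 : 0 < 1 - β i := by linarith [(hβ i).2]
    have hpp := F.pos _ (hβ i)
    refine le_of_pow_le_pow_left₀ (n := 3) (by norm_num) hpp.le ?_
    refine le_trans ?_ (hp _ (hβ i))
    have h5 : K ^ 3 * (1 - β i) ≤ cp := by
      have h6 : K ^ 3 * (1 - β i) ≤ K ^ 3 * (D.M / (b + D.M)) :=
        mul_le_mul_of_nonneg_left (hD i) (by positivity)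
      have h7 : K ^ 3 * (D.M / (b + D.M)) ≤ cp := by
        rw [← mul_div_assoc, div_le_iff₀ hbM]
        have h8 : cp * (b + D.M) = D.M * K ^ 3 + cp + cp * D.M := by
          rw [hb]; field_simp
        rw [h8]
        nlinarith [mul_pos hcp hM0]
      linarith
    calc (K * (1 - β i)) ^ 3 = (K ^ 3 * (1 - β i)) * (1 - β i) ^ 2 := by ring
      _ ≤ cp * (1 - β i) ^ 2 := mul_le_mul_of_nonneg_right h5 (sq_nonneg _)
  have h5 : K * x ≤ y := by
    rw [hx, hy, Finset.mul_sum]
    refine Finset.sum_le_sum fun i _ => ?_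
    have := mul_le_mul_of_nonneg_right (h4 i) (hPti i)
    linarith
  have h6 : (K * x) ^ 3 ≤ n ^ 2 * ((Sf F.p (D.A B c) B * P) ^ 3).trace :=
    (pow_le_pow_left₀ (by positivity) h5 3).trans h3
  set g := ((B + D.M • (1 : Mat n))⁻¹ * (B + D.M • (1 : Mat n))⁻¹ * P).trace with hg
  -- final comparison
  have hn1 : (1 : ℝ) ≤ n := by exact_mod_cast n_pos_of_PP hP
  have hg3 : C * g ^ 3 * n ^ 2 ≤ (K * x) ^ 3 := by
    by_cases hgn : g ≤ 0
    · have : g ^ 3 ≤ 0 := by
        have : g ^ 3 = g * g ^ 2 := by ring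
        rw [this]; exact mul_nonpos_of_nonpos_of_nonneg hgn (sq_nonneg _)
      have h7 : C * g ^ 3 * n ^ 2 ≤ 0 :=
        mul_nonpos_of_nonpos_of_nonneg (mul_nonpos_of_nonneg_of_nonpos hC0 this) (by positivity)
      have h8 : 0 ≤ (K * x) ^ 3 := by positivity
      linarith
    · push Not at hgn
      have h7 : g ^ 3 ≤ (4 / D.m * x) ^ 3 := pow_le_pow_left₀ hgn.le h2 3
      have h8 : C * n ^ 2 ≤ (C * n ^ 2 + 1) ^ 3 := by
        have hc : 0 ≤ C * (n:ℝ) ^ 2 := by positivity
        nlinarith [sq_nonneg (C * (n:ℝ) ^ 2), mul_nonneg hc (sq_nonneg (C * (n:ℝ) ^ 2))]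
      calc C * g ^ 3 * n ^ 2 = (C * n ^ 2) * g ^ 3 := by ring
        _ ≤ (C * n ^ 2) * (4 / D.m * x) ^ 3 := mul_le_mul_of_nonneg_left h7 (by positivity)
        _ ≤ (C * n ^ 2 + 1) ^ 3 * (4 / D.m * x) ^ 3 :=
            mul_le_mul_of_nonneg_right h8 (by positivity)
        _ = (K * x) ^ 3 := by rw [hK]; ring
  have h9 : (C * g ^ 3) * n ^ 2 ≤ ((Sf F.p (D.A B c) B * P) ^ 3).trace * n ^ 2 := by
    linarith [hg3.trans h6]
  have h10 := le_of_mul_le_mul_right h9 (by positivity : (0:ℝ) < (n:ℝ) ^ 2)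
  linarith

theorem side_bd (a b : ℝ) (ha : 0 < a) : ∃ ρ : ℝ, ∀ B : Mat n,
    (B - a • (1 : Mat n)).PosSemidef → (b • (1 : Mat n) - B).PosSemidef →
      ∀ c : Vec n, ρ ≤ ‖c‖ → ∀ P ∈ PP n, Rat F D B c P ≤ 1 := by
  by_cases hab : a ≤ b
  swap
  · refine ⟨0, fun B h1 h2 c _ P hP => ?_⟩
    exfalso
    have h3 := (h1.add h2)
    have hn := n_pos_of_PP hP
    have h4 := h3.diag_nonneg (i := ⟨0, hn⟩)
    simp only [Matrix.add_apply, Matrix.sub_apply, Matrix.smul_apply, Matrix.one_apply_eq,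
      smul_eq_mul, mul_one] at h4
    linarith
  have hm := D.hm
  have hM := D.hM
  have hbM : 0 < b + D.M := by linarith
  set δ : ℝ := min a D.m / (b + D.M) with hδ
  have hδ0 : 0 < δ := div_pos (lt_min ha hm) hbM
  obtain ⟨pm, pM, Mf, hpm, -, -, hp, -⟩ := profile_bds F hδ0
  obtain ⟨ρ, hρ⟩ := D.vT b (pm ^ 3 / (n ^ 2 + 1)) (by positivity)
  refine ⟨ρ, fun B h1 h2 c hc P hP => ?_⟩
  have hB : B.PosDef := by
    have := (Matrix.PosDef.one (n := Fin n) (R := ℝ)).smul ha
    have h3 := this.add_posSemidef h1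
    refine cast (congrArg Matrix.PosDef ?_) h3
    abel
  obtain ⟨L, β, h⟩ := frame_of (D := D) hB c
  have hβ : ∀ i, β i ∈ Ioo (0 : ℝ) 1 := h.beta_mem hB c
  have hβ' := beta_range ha hab hB c h1 h2 h
  have hden := Rden_pos (F := F) (D := D) hB c hP.1 (PP_ne_zero hP)
  have hT := hρ B hB.posSemidef h2 c hc P hP.1
  unfold Rat
  rw [div_le_one hden]
  set Pt := (L * D.A B c) * P * (L * D.A B c)ᵀ with hPt
  have hPtp : Pt.PosSemidef := psd_conj' hP.1
  have hPti : ∀ i, 0 ≤ Pt i i := fun i => hPtp.diag_nonneg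
  have h3 := den_ge (A_tr D B c) h (fun i => (F.pos _ (hβ i)).le) P hP.1
  -- `tr (A P) = ∑ Pt i i`
  have htr : (D.A B c * P).trace = ∑ i, Pt i i := by
    have e1 : (D.A B c * P).trace = ((L * D.A B c)ᵀ * (L * D.A B c) * P).trace := by
      rw [h.gram (A_tr D B c)]
    rw [e1, Matrix.mul_assoc, Matrix.trace_mul_comm, hPt]
    rfl
  have h4 : pm * (D.A B c * P).trace ≤ ∑ i, F.p (β i) * Pt i i := by
    rw [htr, Finset.mul_sum]
    exact Finset.sum_le_sum fun i _ => mul_le_mul_of_nonneg_right (hp _ (hβ' i)).1 (hPti i)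
  have h5 : 0 ≤ (D.A B c * P).trace := by
    rw [htr]; exact Finset.sum_nonneg fun i _ => hPti i
  have h6 := (pow_le_pow_left₀ (by positivity) h4 3).trans h3
  have hn1 : (1 : ℝ) ≤ n := by exact_mod_cast n_pos_of_PP hP
  set tr := (D.A B c * P).trace with htr'
  have h7 : pm ^ 3 * tr ^ 3 ≤ n ^ 2 * ((Sf F.p (D.A B c) B * P) ^ 3).trace := by
    calc pm ^ 3 * tr ^ 3 = (pm * tr) ^ 3 := by ring
      _ ≤ _ := h6
  refine hT.trans ?_
  rw [div_mul_eq_mul_div, div_le_iff₀ (by positivity)]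
  nlinarith [hden]

/-! ### the theorem -/

theorem NN_smulP (r : ℝ) (P : Mat n) (T T' : Ten n) : NN (r • P) T T' = r ^ 3 * NN P T T' := by
  unfold NN N3
  simp only [Finset.mul_sum, Matrix.smul_apply, smul_eq_mul]
  refine Finset.sum_congr rfl fun a _ => Finset.sum_congr rfl fun b _ =>
    Finset.sum_congr rfl fun c _ => Finset.sum_congr rfl fun a' _ =>
    Finset.sum_congr rfl fun b' _ => Finset.sum_congr rfl fun c' _ => ?_
  ring

theorem trace_smulP (r : ℝ) (S P : Mat n) : ((S * (r • P)) ^ 3).trace = r ^ 3 * ((S * P) ^ 3).trace := by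
  rw [Matrix.mul_smul, _root_.smul_pow, Matrix.trace_smul, smul_eq_mul]

theorem trace_pos_of_ne {P : Mat n} (hP : P.PosSemidef) (hP0 : P ≠ 0) : 0 < P.trace := by
  refine lt_of_le_of_ne hP.trace_nonneg (fun h => hP0 ?_)
  exact (hP.trace_eq_zero_iff).1 h.symm

/-- the bound of the ratio on `PP` in product form, for all positive semidefinite matrices -/
theorem le_of_Rat {B : Mat n} (hB : B.PosDef) (c : Vec n) {lam : ℝ}
    (h : ∀ P ∈ PP n, Rat F D B c P ≤ lam) {P : Mat n} (hP : P.PosSemidef) :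
    NN P (D.T B c) (D.T B c) ≤ lam * ((Sf F.p (D.A B c) B * P) ^ 3).trace := by
  by_cases hP0 : P = 0
  · rw [hP0]
    have : NN (0 : Mat n) (D.T B c) (D.T B c) = 0 := by
      have := NN_smulP 0 (0 : Mat n) (D.T B c) (D.T B c)
      rw [zero_smul] at this
      rw [this]; ring
    rw [this, Matrix.mul_zero]
    simp
  · have ht := trace_pos_of_ne hP hP0
    set r := P.trace with hr
    have hmem : r⁻¹ • P ∈ PP n := by
      refine ⟨hP.smul (inv_nonneg.2 ht.le), ?_⟩
      rw [Matrix.trace_smul, smul_eq_mul, ← hr, inv_mul_cancel₀ ht.ne']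
    have h1 := h _ hmem
    unfold Rat at h1
    rw [div_le_iff₀ (Rden_pos hB c hmem.1 (PP_ne_zero hmem)), NN_smulP, trace_smulP] at h1
    have h2 : 0 < r⁻¹ ^ 3 := by positivity
    have h3 : r⁻¹ ^ 3 * NN P (D.T B c) (D.T B c)
        ≤ r⁻¹ ^ 3 * (lam * ((Sf F.p (D.A B c) B * P) ^ 3).trace) := by linarith
    exact le_of_mul_le_mul_left h3 h2

theorem trace_frame (L S P : Mat n) :
    (((L * S * Lᵀ) * P) ^ 3).trace = ((S * (Lᵀ * P * L)) ^ 3).trace := by
  have h := trace_cyc3 L (S * Lᵀ * P) 1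
  have h' := trace_cyc3 (S * Lᵀ * P) L 1
  have e1 : L * S * Lᵀ * P = L * (S * Lᵀ * P) * 1 := by
    simp only [Matrix.mul_assoc, Matrix.mul_one]
  have e2 : S * Lᵀ * P * 1 * L = S * (Lᵀ * P * L) := by
    simp only [Matrix.mul_assoc, Matrix.one_mul]
  rw [e1, h, e2]

/-- **`(P)` in general position** -/
theorem pos_form {η C₀ : ℝ} (hALG : ALG F η C₀) (hη : 0 < η) (hηC : η ≤ C₀) (hF : PLow F)
    (hT : StrongT D) {B : Mat n} (hB : B.PosDef) (c : Vec n) {P : Mat n} (hP : P.PosSemidef) :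
    NN P (D.T B c) (D.T B c) ≤ ((Sf F.p (D.A B c) B * P) ^ 3).trace := by
  have key : ∀ P ∈ PP n, Rat F D B c P ≤ 1 := by
    intro P0 hP0
    by_contra hcon
    push Not at hcon
    obtain ⟨a0, b0, Rm, ha0, hab, hmain⟩ := exists_max (D := D) cont_Rat (top_bd hT hF)
      (fun a b ha => side_bd a b ha) hη hηC hB hP0 hcon
    have hm := D.hm
    have hM := D.hM
    have hbM : 0 < b0 + D.M := by linarith
    set δ : ℝ := min a0 D.m / (b0 + D.M) with hδ
    have hδ0 : 0 < δ := div_pos (lt_min ha0 hm) hbM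
    obtain ⟨Kb, hKb0, hKb⟩ := exists_Kb F n hδ0 hη.le (hη.le.trans hηC)
    obtain ⟨B1, c1, P1, hB1, h1, h2, hP1, hgt, hRm, hmax, hflow⟩ :=
      hmain (Rm * Kb + 1 + |Rm * Kb|) (by
        have := neg_abs_le (Rm * Kb); linarith)
    obtain ⟨L0, β, hF0⟩ := frame_of (D := D) hB1 c1
    have hβ : ∀ i, β i ∈ Ioo (0 : ℝ) 1 := hF0.beta_mem hB1 c1
    have hβ' := beta_range ha0 hab hB1 c1 h1 h2 hF0
    have h0 := exists_SFr F hF0 hβ
    set L : Mat n := (Matrix.diagonal fun i => (Real.sqrt (F.p (β i)))⁻¹) * L0 with hL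
    set Pf : Mat n := (L⁻¹)ᵀ * P1 * L⁻¹ with hPf
    have hconj : Lᵀ * Pf * L = P1 := by
      rw [hPf]
      calc Lᵀ * ((L⁻¹)ᵀ * P1 * L⁻¹) * L = (Lᵀ * (L⁻¹)ᵀ) * P1 * (L⁻¹ * L) := by
            simp only [Matrix.mul_assoc]
        _ = P1 := by rw [h0.invT_right, h0.inv_left, Matrix.one_mul, Matrix.mul_one]
    have hPfp : Pf.PosSemidef := by
      rw [← psd_conj_iff h0.hL, hconj]; exact hP1.1
    have hPf0 : Pf ≠ 0 := by
      intro h
      rw [h] at hconj
      apply PP_ne_zero hP1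
      rw [← hconj]; simp
    have hNNf : ∀ (P' : Mat n) (T : Ten n), NN P' (frT L T) (frT L T) = NN (Lᵀ * P' * L) T T :=
      fun P' T => Fr.NN_frT _ _ _ _
    have hS1 : L * Sf F.p (D.A B1 c1) B1 * Lᵀ = 1 := h0.conj_S (A_tr D B1 c1)
    set lam := Rat F D B1 c1 P1 with hlam
    have hmax1 : ∀ P' ∈ PP n, Rat F D B1 c1 P' ≤ lam := by
      intro P' hP'
      exact hmax.self_of_nhds P' hP'
    have hden1 := Rden_pos (F := F) (D := D) hB1 c1 hP1.1 (PP_ne_zero hP1)
    have heq1 : NN P1 (D.T B1 c1) (D.T B1 c1)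
        = lam * ((Sf F.p (D.A B1 c1) B1 * P1) ^ 3).trace := by
      rw [hlam]; unfold Rat; field_simp
    have hcube : ∀ P' : Mat n, (P' * P' * P').trace
        = ((Sf F.p (D.A B1 c1) B1 * (Lᵀ * P' * L)) ^ 3).trace := by
      intro P'
      rw [← trace_frame, hS1, Matrix.one_mul]
      simp only [pow_succ, pow_zero, Matrix.one_mul]
    refine local_absurd hALG hB1 h0 hPfp hPf0 hgt ?_ ?_ ?_
      (κ := Rm * Kb + 1 + |Rm * Kb|) (G := fun t => Real.exp (-((Rm * Kb + 1 + |Rm * Kb|) * t)))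
      ?_ ?_ hη.le (Kb := Kb) ?_ ?_
    · intro P' hP'
      rw [hNNf, hcube]
      refine le_of_Rat hB1 c1 hmax1 ?_
      exact (psd_conj_iff h0.hL).2 hP'
    · rw [hNNf, hcube, hconj]
      exact heq1
    · intro v X hX hPB
      unfold TestC
      obtain ⟨C, hC1, hC2⟩ := hPB
      have ht1 : Tendsto (fun t : ℝ => c1 + t • dirv L v) (𝓝 0) (𝓝 c1) := by
        have : Continuous fun t : ℝ => c1 + t • dirv L v := by fun_prop
        have := this.tendsto 0
        simpa using this
      have ht2 : ∀ᶠ t in 𝓝 (0 : ℝ), |t| * (|C| + 1) < 1 := by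
        have : Tendsto (fun t : ℝ => |t| * (|C| + 1)) (𝓝 0) (𝓝 (|0| * (|C| + 1))) := by
          apply Continuous.tendsto
          fun_prop
        rw [abs_zero, zero_mul] at this
        exact this.eventually (gt_mem_nhds one_pos)
      filter_upwards [ht1.eventually hmax, ht2] with t ht ht2
      rw [hNNf, trace_frame]
      refine le_of_Rat hB1 _ ht ?_
      refine (psd_conj_iff h0.hL).2 ?_
      -- `P + t X ≥ 0`
      have hC3 : ((|C| + 1) • Pf - X).PosSemidef := by
        have := hC1.add (hPfp.smul (show 0 ≤ |C| + 1 - C by have := le_abs_self C; linarith))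
        refine cast (congrArg Matrix.PosSemidef ?_) this
        rw [sub_smul]; abel
      have hC4 : ((|C| + 1) • Pf + X).PosSemidef := by
        have := hC2.add (hPfp.smul (show 0 ≤ |C| + 1 - C by have := le_abs_self C; linarith))
        refine cast (congrArg Matrix.PosSemidef ?_) this
        rw [sub_smul]; abel
      rcases le_total 0 t with h | h
      · rw [abs_of_nonneg h] at ht2
        have := (hC4.smul h).add (hPfp.smul (show 0 ≤ 1 - t * (|C| + 1) by linarith))
        refine cast (congrArg Matrix.PosSemidef ?_) this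
        rw [smul_add, smul_smul, sub_smul, one_smul]; abel
      · rw [abs_of_nonpos h] at ht2
        have := (hC3.smul (neg_nonneg.2 h)).add
          (hPfp.smul (show 0 ≤ 1 - (-t) * (|C| + 1) by linarith))
        refine cast (congrArg Matrix.PosSemidef ?_) this
        rw [smul_sub, smul_smul, sub_smul, one_smul, neg_smul t X]; abel
    · refine (J1.of_hasDerivWithinAt (s := Ici 0) (f := fun t : ℝ =>
        Real.exp (-((Rm * Kb + 1 + |Rm * Kb|) * t))) (f1 := -(Rm * Kb + 1 + |Rm * Kb|)) ?_).congr_coef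
        ?_ rfl
      · have h3 : HasDerivAt (fun t : ℝ => -((Rm * Kb + 1 + |Rm * Kb|) * t))
            (-(Rm * Kb + 1 + |Rm * Kb|)) 0 := by
          have := (hasDerivAt_id (0:ℝ)).const_mul (-(Rm * Kb + 1 + |Rm * Kb|))
          refine (this.congr_deriv (by ring)).congr_of_eventuallyEq
            (Eventually.of_forall fun t => ?_)
          simp only [_root_.id]
          ring
        have h4 := h3.exp
        simp only [mul_zero, neg_zero, Real.exp_zero, one_mul] at h4
        exact h4.hasDerivWithinAt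
      · simp
    · intro Qh hQ1 hQ2
      unfold TestF
      have hAinv : (D.A B1 c1)⁻¹ = Lᵀ * (Matrix.diagonal fun i => F.p (β i)) * L := by
        refine Matrix.inv_eq_right_inv ?_
        have h3 : L * D.A B1 c1 * Lᵀ * (Matrix.diagonal fun i => F.p (β i)) = 1 := by
          rw [h0.hA, Matrix.diagonal_mul_diagonal, ← Matrix.diagonal_one]
          congr 1
          funext i
          have := (h0.ppos i).ne'
          field_simp
        have h4 : L * (D.A B1 c1 * (Lᵀ * (Matrix.diagonal fun i => F.p (β i)) * L)) = L := by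
          calc L * (D.A B1 c1 * (Lᵀ * (Matrix.diagonal fun i => F.p (β i)) * L))
              = (L * D.A B1 c1 * Lᵀ * (Matrix.diagonal fun i => F.p (β i))) * L := by
                simp only [Matrix.mul_assoc]
            _ = L := by rw [h3, Matrix.one_mul]
        calc D.A B1 c1 * (Lᵀ * (Matrix.diagonal fun i => F.p (β i)) * L)
            = (L⁻¹ * L) * (D.A B1 c1 * (Lᵀ * (Matrix.diagonal fun i => F.p (β i)) * L)) := by
              rw [h0.inv_left, Matrix.one_mul]
          _ = L⁻¹ * (L * (D.A B1 c1 * (Lᵀ * (Matrix.diagonal fun i => F.p (β i)) * L))) :=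
              Matrix.mul_assoc _ _ _
          _ = 1 := by rw [h4, h0.inv_left]
      have hq1 : (Lᵀ * Qh * L - η • (D.A B1 c1)⁻¹).PosSemidef := by
        have := (psd_conj_iff h0.hL).2 hQ1
        refine cast (congrArg Matrix.PosSemidef ?_) this
        rw [hAinv, Matrix.mul_sub, Matrix.sub_mul, Matrix.mul_smul, Matrix.smul_mul]
      have hq2 : (C₀ • (D.A B1 c1)⁻¹ - Lᵀ * Qh * L).PosSemidef := by
        have := (psd_conj_iff h0.hL).2 hQ2
        refine cast (congrArg Matrix.PosSemidef ?_) this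
        rw [hAinv, Matrix.mul_sub, Matrix.sub_mul, Matrix.mul_smul, Matrix.smul_mul]
      have hQp : (Lᵀ * Qh * L).PosSemidef := by
        have := hq1.add ((D.posA B1 hB1.posSemidef c1).inv.posSemidef.smul hη.le)
        rwa [sub_add_cancel] at this
      have hfl := hflow (Lᵀ * Qh * L) hq1 hq2
      filter_upwards [hfl, self_mem_nhdsWithin] with t ht ht0
      rw [hNNf, trace_frame, hconj]
      have hBt : (B1 + t • (Lᵀ * Qh * L)).PosDef := hB1.add_posSemidef (hQp.smul ht0)
      have hd := Rden_pos (F := F) (D := D) hBt (c1 + t • ((Lᵀ * Qh * L) *ᵥ D.mu B1 c1)) hP1.1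
        (PP_ne_zero hP1)
      unfold Rat at ht
      rw [div_le_iff₀ hd] at ht
      exact ht
    · intro T' Qh hc hQ1 hQ2
      exact hKb β hβ' T' Pf _ Qh hc hQ1 hQ2
    · have h3 : lam * Kb ≤ Rm * Kb := mul_le_mul_of_nonneg_right hRm hKb0
      have := abs_nonneg (Rm * Kb)
      linarith
  have := le_of_Rat hB c key hP
  rwa [one_mul] at this

/-- **The sharp inequality `(P)` from `ALG` with a general control**, for every measure satisfying the
strong decay of the third cumulant. -/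
theorem PIneq_of_ALG {η C₀ : ℝ} (hALG : ALG F η C₀) (hη : 0 < η) (hηC : η ≤ C₀) (hF : PLow F)
    (hT : StrongT D) {B : Mat n} (hB : B.PosDef) (c : Vec n) :
    PIneq F (D.A B c) B (D.T B c) := by
  intro L a b' hL hLA hBe P hP
  have hAp := D.posA B hB.posSemidef c
  -- `a > 0`
  have ha : ∀ i, 0 < a i := by
    have h1 : (L * D.A B c * Lᵀ).PosDef := by
      have h2 : (Lᵀ)ᵀ = L := Matrix.transpose_transpose L
      have := (posDef_conj_iff (L := Lᵀ) (isUnit_transpose hL)).2 hAp
      rwa [h2] at this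
    rw [hLA, Matrix.posDef_diagonal_iff] at h1
    exact h1
  have hs : ∀ i, Real.sqrt (a i) * Real.sqrt (a i) = a i := fun i => Real.mul_self_sqrt (ha i).le
  have hs0 : ∀ i, Real.sqrt (a i) ≠ 0 := fun i => (Real.sqrt_pos.2 (ha i)).ne'
  -- orthonormal frame
  have hFr : Fr (D.A B c) B ((Matrix.diagonal fun i => (Real.sqrt (a i))⁻¹) * L)
      (fun i => a i * b' i) := by
    constructor
    · rw [Matrix.transpose_mul, Matrix.diagonal_transpose]
      calc (Matrix.diagonal fun i => (Real.sqrt (a i))⁻¹) * L * D.A B c *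
            (Lᵀ * Matrix.diagonal fun i => (Real.sqrt (a i))⁻¹)
          = (Matrix.diagonal fun i => (Real.sqrt (a i))⁻¹) * (L * D.A B c * Lᵀ) *
            (Matrix.diagonal fun i => (Real.sqrt (a i))⁻¹) := by simp only [Matrix.mul_assoc]
        _ = 1 := by
            rw [hLA, Matrix.diagonal_mul_diagonal, Matrix.diagonal_mul_diagonal,
              ← Matrix.diagonal_one]
            congr 1
            funext i
            have h1 := hs i
            have h2 := hs0 i
            field_simp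
            rw [sq, h1]
    · conv_lhs => rw [hBe]
      rw [Matrix.transpose_mul, Matrix.diagonal_transpose]
      calc Lᵀ * Matrix.diagonal b' * L
          = Lᵀ * ((Matrix.diagonal fun i => (Real.sqrt (a i))⁻¹) *
            (Matrix.diagonal fun i => a i * b' i) *
            (Matrix.diagonal fun i => (Real.sqrt (a i))⁻¹)) * L := by
            rw [Matrix.diagonal_mul_diagonal, Matrix.diagonal_mul_diagonal]
            congr 3
            funext i
            have h1 := hs i
            have h2 := hs0 i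
            have h3 := (ha i).ne'
            field_simp
            rw [sq, h1]
        _ = _ := by simp only [Matrix.mul_assoc]
  have hβ : ∀ i, a i * b' i ∈ Ioo (0 : ℝ) 1 := hFr.beta_mem hB c
  -- `L S Lᵀ = diag (a p (a b'))`
  have hS : L * Sf F.p (D.A B c) B * Lᵀ = Matrix.diagonal fun i => a i * F.p (a i * b' i) := by
    rw [Sf_eq (A_tr D B c) hFr]
    have e1 : (Matrix.diagonal fun i => (Real.sqrt (a i))⁻¹) * L * D.A B c * Lᵀ
        = Matrix.diagonal fun i => Real.sqrt (a i) := by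
      calc (Matrix.diagonal fun i => (Real.sqrt (a i))⁻¹) * L * D.A B c * Lᵀ
          = (Matrix.diagonal fun i => (Real.sqrt (a i))⁻¹) * (L * D.A B c * Lᵀ) := by
            simp only [Matrix.mul_assoc]
        _ = _ := by
            rw [hLA, Matrix.diagonal_mul_diagonal]
            congr 1
            funext i
            have h1 := hs i
            have h2 := hs0 i
            rw [inv_mul_eq_div, div_eq_iff h2, h1]
    have e2 : L * ((Matrix.diagonal fun i => (Real.sqrt (a i))⁻¹) * L * D.A B c)ᵀ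
        = Matrix.diagonal fun i => Real.sqrt (a i) := by
      have := congrArg Matrix.transpose e1
      rw [Matrix.transpose_mul, Matrix.transpose_transpose, Matrix.diagonal_transpose] at this
      exact this
    calc L * (((Matrix.diagonal fun i => (Real.sqrt (a i))⁻¹) * L * D.A B c)ᵀ
          * (Matrix.diagonal fun i => F.p (a i * b' i))
          * ((Matrix.diagonal fun i => (Real.sqrt (a i))⁻¹) * L * D.A B c)) * Lᵀ
        = (L * ((Matrix.diagonal fun i => (Real.sqrt (a i))⁻¹) * L * D.A B c)ᵀ)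
          * (Matrix.diagonal fun i => F.p (a i * b' i))
          * ((Matrix.diagonal fun i => (Real.sqrt (a i))⁻¹) * L * D.A B c * Lᵀ) := by
          simp only [Matrix.mul_assoc]
      _ = _ := by
          rw [e1, e2, Matrix.diagonal_mul_diagonal, Matrix.diagonal_mul_diagonal]
          congr 1
          funext i
          have h1 := hs i
          calc Real.sqrt (a i) * F.p (a i * b' i) * Real.sqrt (a i)
              = (Real.sqrt (a i) * Real.sqrt (a i)) * F.p (a i * b' i) := by ring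
            _ = _ := by rw [h1]
  rw [← hS, trace_frame, Fr.NN_frT]
  exact pos_form hALG hη hηC hF hT hB c ((psd_conj_iff hL).2 hP)

end Vale.Agent.P254.X602
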