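import Vale.Agent.P254.H602.SFrame
import Vale.Agent.P254.H602.Func

set_option linter.all false

/-!
P254, block (X) (helper602): jets of `T` and `S` of the tilts, in an `S`-frame.
-/

namespace Vale.Agent.P254.X602

open Matrix Polynomial Filter Topology Asymptotics Set
open Vale.Agent.P254.L Vale.Agent.P254.S526 Vale.Agent.P254.Z546

variable {n : ℕ} {F : Profile} {D : TiltData n}

theorem frT_jet2 {l : Filter ℝ} (L : Mat n) {T : ℝ → Ten n} {T0 T1 T2 : Ten n}
    (hT : TJ2 l T T0 T1 T2) : TJ2 l (fun t => frT L (T t)) (frT L T0) (frT L T1) (frT L T2) := by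
  intro i j k
  exact J2.sum Finset.univ (fun a _ => J2.sum Finset.univ (fun b _ => J2.sum Finset.univ
    (fun c _ => (hT a b c).const_mul (L i a * L j b * L k c))))

theorem frT_jet1 {l : Filter ℝ} (L : Mat n) {T : ℝ → Ten n} {T0 T1 : Ten n}
    (hT : TJ1 l T T0 T1) : TJ1 l (fun t => frT L (T t)) (frT L T0) (frT L T1) := by
  intro i j k
  exact J1.sum Finset.univ (fun a _ => J1.sum Finset.univ (fun b _ => J1.sum Finset.univ
    (fun c _ => (hT a b c).const_mul (L i a * L j b * L k c))))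

/-- contraction of the fourth cumulant with a vector -/
def K1 (K : Fin n → Fin n → Fin n → Fin n → ℝ) (e : Vec n) : Ten n := fun i j k =>
  ∑ l, e l * K i j k l

/-- half the contraction of the fifth cumulant with a matrix -/
noncomputable def R2 (R : Fin n → Fin n → Fin n → Fin n → Fin n → ℝ) (Q : Mat n) : Ten n :=
  fun i j k => 1 / 2 * ∑ l, ∑ r, Q l r * R i j k l r

/-- half the contraction of the fourth cumulant with a matrix -/
noncomputable def K2 (K : Fin n → Fin n → Fin n → Fin n → ℝ) (Q : Mat n) : Mat n :=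
  Matrix.of fun i j => 1 / 2 * ∑ l, ∑ r, Q l r * K i j l r

/-- contraction of the third cumulant with a vector (last slot) -/
def T1 (T : Ten n) (e : Vec n) : Mat n := Matrix.of fun i j => ∑ k, e k * T i j k

/-- the rank one matrix `e eᵀ` -/
def rk (e : Vec n) : Mat n := Matrix.of fun i j => e i * e j

theorem T_jet_c {B : Mat n} (hB : B.PosSemidef) (c e : Vec n) :
    TJ2 (𝓝 0) (fun t : ℝ => D.T B (c + t • e)) (D.T B c) (K1 (D.K B c) e)
      (R2 (D.R B c) (rk e)) := by
  intro i j k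
  have h1 := J2.of_hasDerivAt (f := fun t : ℝ => D.T B (c + t • e) i j k)
      (f' := fun t => ∑ l, e l * D.K B (c + t • e) i j k l)
      (f2 := ∑ l, e l * ∑ r, e r * D.R B (c + (0 : ℝ) • e) i j k l r)
      (Eventually.of_forall fun t => D.dT B hB c e i j k t)
      (by
        have h2 := HasDerivAt.fun_sum (u := Finset.univ) (fun l _ =>
          (D.dK B hB c e i j k l 0).const_mul (e l))
        exact h2)
  simp only [zero_smul, add_zero] at h1
  refine h1.congr_coef rfl rfl ?_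
  simp only [R2, rk, Matrix.of_apply, Finset.mul_sum, Finset.sum_div]
  refine Finset.sum_congr rfl fun l _ => Finset.sum_congr rfl fun r _ => ?_
  ring

theorem A_jet_c {B : Mat n} (hB : B.PosSemidef) (c e : Vec n) :
    MJ2 (𝓝 0) (fun t : ℝ => D.A B (c + t • e)) (D.A B c) (T1 (D.T B c) e)
      (K2 (D.K B c) (rk e)) := by
  intro i j
  have h1 := J2.of_hasDerivAt (f := fun t : ℝ => D.A B (c + t • e) i j)
      (f' := fun t => ∑ k, e k * D.T B (c + t • e) i j k)
      (f2 := ∑ k, e k * ∑ l, e l * D.K B (c + (0 : ℝ) • e) i j k l)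
      (Eventually.of_forall fun t => D.dA B hB c e i j t)
      (by
        have h2 := HasDerivAt.fun_sum (u := Finset.univ) (fun k _ =>
          (D.dT B hB c e i j k 0).const_mul (e k))
        exact h2)
  simp only [zero_smul, add_zero] at h1
  refine h1.congr_coef rfl rfl ?_
  simp only [K2, rk, Matrix.of_apply, Finset.mul_sum, Finset.sum_div]
  refine Finset.sum_congr rfl fun l _ => Finset.sum_congr rfl fun r _ => ?_
  ring

/-- `(AQ)·T` summed over the three slots -/
def slot3 (M : Mat n) (T : Ten n) : Ten n := fun i j k =>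
  ∑ l, (M i l * T l j k + M j l * T i l k + M k l * T i j l)

theorem T_jet_f {B : Mat n} (hB : B.PosSemidef) (c : Vec n) {Q : Mat n} (hQ : Q.PosSemidef) :
    TJ1 (𝓝[≥] 0) (fun t : ℝ => D.T (B + t • Q) (c + t • (Q *ᵥ D.mu B c))) (D.T B c)
      (- slot3 (D.A B c * Q) (D.T B c) - R2 (D.R B c) Q) := by
  intro i j k
  have h1 := J1.of_hasDerivWithinAt (D.fT B hB c Q hQ i j k)
  simp only [zero_smul, add_zero] at h1
  exact h1

theorem A_jet_f {B : Mat n} (hB : B.PosSemidef) (c : Vec n) {Q : Mat n} (hQ : Q.PosSemidef) :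
    MJ1 (𝓝[≥] 0) (fun t : ℝ => D.A (B + t • Q) (c + t • (Q *ᵥ D.mu B c))) (D.A B c)
      (- (D.A B c * Q * D.A B c) - K2 (D.K B c) Q) := by
  intro i j
  have h1 := J1.of_hasDerivWithinAt (D.fA B hB c Q hQ i j)
  simp only [zero_smul, add_zero] at h1
  exact h1

theorem A_tr (D : TiltData n) (B : Mat n) (c : Vec n) : (D.A B c)ᵀ = D.A B c := by
  ext i j; rw [Matrix.transpose_apply]; exact D.A_symm B c j i

/-- jet of `S` in the `c`-direction `e` -/
theorem S_jet_c {B : Mat n} (hB : B.PosDef) {c : Vec n} {L : Mat n} {β : Vec n}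
    (h0 : SFr F (D.A B c) B L β) (e : Vec n) :
    MJ2 (𝓝 0) (fun t : ℝ => L * Sf F.p (D.A B (c + t • e)) B * Lᵀ) 1
      (Matrix.of fun i j => dd1 F.h F.h1 (β i) (β j) * (L * T1 (D.T B c) e * Lᵀ) i j)
      (Matrix.of fun i j => dd1 F.h F.h1 (β i) (β j) * (L * K2 (D.K B c) (rk e) * Lᵀ) i j
        + ∑ k, F.h (β k) * dd2 F.h F.h1 F.h2 (β i) (β k) (β j) * (L * T1 (D.T B c) e * Lᵀ) i k
            * (L * T1 (D.T B c) e * Lᵀ) k j) := by
  intro i j
  exact Sf_jet2 h0 (A_tr D B c) (A_jet_c hB.posSemidef c e) (Eventually.of_forall fun t =>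
    ⟨A_tr D B _, exists_Fr (D.posA B hB.posSemidef _) hB.isHermitian⟩) i j

/-- jet of `S` along the flow with the control `Q = Lᵀ Qh L` -/
theorem S_jet_f {B : Mat n} (hB : B.PosDef) {c : Vec n} {L Qh : Mat n} {β : Vec n}
    (h0 : SFr F (D.A B c) B L β) (hQ : (Lᵀ * Qh * L).PosSemidef) :
    MJ1 (𝓝[≥] 0) (fun t : ℝ => L * Sf F.p (D.A (B + t • (Lᵀ * Qh * L))
        (c + t • ((Lᵀ * Qh * L) *ᵥ D.mu B c))) (B + t • (Lᵀ * Qh * L)) * Lᵀ) 1
      (Sflow F β Qh - Matrix.of fun i j => dd1 F.h F.h1 (β i) (β j)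
        * (L * K2 (D.K B c) (Lᵀ * Qh * L) * Lᵀ) i j) := by
  intro i j
  have hpd : ∀ t : ℝ, 0 ≤ t → (B + t • (Lᵀ * Qh * L)).PosDef := fun t ht =>
    hB.add_posSemidef (hQ.smul ht)
  have h := Sf_jet1 nhdsWithin_le_nhds h0 (A_tr D B c) (A_jet_f hB.posSemidef c hQ) (by
    filter_upwards [self_mem_nhdsWithin] with t ht
    exact ⟨A_tr D _ _, exists_Fr (D.posA _ (hpd t ht).posSemidef _) (hpd t ht).isHermitian⟩) i j
  refine h.congr_coef rfl ?_
  have e1 : L * (D.A B c * (Lᵀ * Qh * L) * D.A B c) * Lᵀ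
      = (Matrix.diagonal fun i => 1 / F.p (β i)) * Qh * Matrix.diagonal fun i => 1 / F.p (β i) := by
    calc L * (D.A B c * (Lᵀ * Qh * L) * D.A B c) * Lᵀ
        = (L * D.A B c * Lᵀ) * Qh * (L * D.A B c * Lᵀ) := by simp only [Matrix.mul_assoc]
      _ = _ := by rw [h0.hA]
  have e2 : (L * (-(D.A B c * (Lᵀ * Qh * L) * D.A B c) - K2 (D.K B c) (Lᵀ * Qh * L)) * Lᵀ) i j
      = - (1 / F.p (β i) * Qh i j * (1 / F.p (β j)))
        - (L * K2 (D.K B c) (Lᵀ * Qh * L) * Lᵀ) i j := by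
    rw [Matrix.mul_sub, Matrix.sub_mul, Matrix.mul_neg, Matrix.neg_mul, e1, Matrix.sub_apply,
      Matrix.neg_apply, Matrix.mul_diagonal, Matrix.diagonal_mul]
  rw [e2, Matrix.sub_apply, Matrix.of_apply, Sflow, Matrix.of_apply]
  have hpi := (h0.ppos i).ne'
  have hpj := (h0.ppos j).ne'
  have e3 : dd1 (fun x => (1 - x) * F.p x) (fun x => - F.p x + (1 - x) * F.p1 x) (β i) (β j)
      = dd1 F.p F.p1 (β i) (β j) - dd1 F.h F.h1 (β i) (β j) := by
    unfold dd1 Profile.h Profile.h1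
    split_ifs with h
    · ring
    · have : β i - β j ≠ 0 := sub_ne_zero.2 h
      field_simp
      ring
  rw [e3]
  field_simp
  ring

end Vale.Agent.P254.X602
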