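import Vale.Agent.P254.H602.ContactC

set_option linter.all false

/-!
P254, block (X) (helper602): the contact inequality for a general control, and its rescaled form.
-/

namespace Vale.Agent.P254.X602

open Matrix Polynomial Filter Topology Asymptotics Set
open Vale.Agent.P254.L Vale.Agent.P254.S526 Vale.Agent.P254.Z546

variable {n : ℕ} {F : Profile} {D : TiltData n}

/-- `R2` is linear in the matrix -/
noncomputable def R2L (R : Fin n → Fin n → Fin n → Fin n → Fin n → ℝ) : Mat n →ₗ[ℝ] Ten n where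
  toFun Q := R2 R Q
  map_add' X Y := by
    funext i j k
    simp only [R2, Pi.add_apply, Matrix.add_apply, add_mul, Finset.sum_add_distrib]
    ring
  map_smul' r X := by
    funext i j k
    simp only [R2, Pi.smul_apply, Matrix.smul_apply, smul_eq_mul, RingHom.id_apply,
      Finset.mul_sum]
    refine Finset.sum_congr rfl fun a _ => Finset.sum_congr rfl fun b _ => ?_
    ring

/-- `K2` is linear in the matrix -/
noncomputable def K2L (K : Fin n → Fin n → Fin n → Fin n → ℝ) : Mat n →ₗ[ℝ] Mat n where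
  toFun Q := K2 K Q
  map_add' X Y := by
    ext i j
    simp only [K2, Matrix.of_apply, Matrix.add_apply, add_mul, Finset.sum_add_distrib]
    ring
  map_smul' r X := by
    ext i j
    simp only [K2, Matrix.of_apply, Matrix.smul_apply, smul_eq_mul, RingHom.id_apply,
      Finset.mul_sum]
    refine Finset.sum_congr rfl fun a _ => Finset.sum_congr rfl fun b _ => ?_
    ring

/-- the trace form of the derivative of `S`, linear in `Y` -/
noncomputable def DKL (F : Profile) (β : Vec n) (L N : Mat n) : Mat n →ₗ[ℝ] ℝ where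
  toFun Y := (DK F β (L * Y * Lᵀ) * N).trace
  map_add' X Y := by
    have e : DK F β (L * (X + Y) * Lᵀ) = DK F β (L * X * Lᵀ) + DK F β (L * Y * Lᵀ) := by
      ext i j
      simp only [DK, Matrix.of_apply, Matrix.add_apply, Matrix.mul_add, Matrix.add_mul]
      ring
    rw [e, Matrix.add_mul, Matrix.trace_add]
  map_smul' r X := by
    have e : DK F β (L * (r • X) * Lᵀ) = r • DK F β (L * X * Lᵀ) := by
      ext i j
      simp only [DK, Matrix.of_apply, Matrix.smul_apply, Matrix.mul_smul, Matrix.smul_mul,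
        smul_eq_mul]
      ring
    rw [e, Matrix.smul_mul, Matrix.trace_smul, smul_eq_mul, RingHom.id_apply, smul_eq_mul]

theorem rk_sum (L U : Mat n) (q : Vec n) :
    Lᵀ * (U * Matrix.diagonal q * Uᵀ) * L = ∑ k, q k • rk (dirv L fun a => U a k) := by
  ext i j
  simp only [Matrix.sum_apply, Matrix.smul_apply, rk, dirv, Matrix.of_apply, smul_eq_mul]
  have e : Lᵀ * (U * Matrix.diagonal q * Uᵀ) * L
      = (Lᵀ * U) * Matrix.diagonal q * (Lᵀ * U)ᵀ := by
    rw [Matrix.transpose_mul, Matrix.transpose_transpose]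
    simp only [Matrix.mul_assoc]
  rw [e, Matrix.mul_apply]
  refine Finset.sum_congr rfl fun k _ => ?_
  rw [Matrix.mul_diagonal, Matrix.transpose_apply, Matrix.mul_apply, Matrix.mul_apply]
  have e1 : ∀ i, ∑ a, Lᵀ i a * U a k = ∑ a, U a k * L a i := fun i =>
    Finset.sum_congr rfl fun a _ => by rw [Matrix.transpose_apply]; ring
  rw [e1, e1]
  ring

/-- **the contact inequality**: the generator applied to the test function is `≤ 0` -/
theorem contact_total {B : Mat n} (hB : B.PosDef) {c : Vec n} {L : Mat n} {β : Vec n}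
    (h0 : SFr F (D.A B c) B L β) {P : Mat n} (hP : Pᵀ = P) {lam κ : ℝ} {G : ℝ → ℝ}
    (hG : J1 (𝓝[≥] 0) G 1 (-κ))
    (heq : NN P (frT L (D.T B c)) (frT L (D.T B c)) = lam * (P * P * P).trace)
    {X : Fin n → Mat n} (hX : ∀ a, (X a)ᵀ = X a)
    {Qh : Mat n} (hQ : Qh.PosSemidef)
    (hc : ∀ v : Vec n, TestC D F B c L lam P v (∑ a, v a • X a))
    (hf : TestF D F B c L lam G P (Lᵀ * Qh * L)) :
    - 6 * NN P (AQT F β (frT L (D.T B c)) Qh) (frT L (D.T B c))
      + (∑ a, ∑ a', Qh a a' * gen F β lam P (frT L (D.T B c)) (fr4 L (D.K B c)) X a a')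
      - lam * (3 * (Sflow F β Qh * (P * P * P)).trace)
      + κ * (lam - 1) * (P * P * P).trace ≤ 0 := by
  have hQL : (Lᵀ * Qh * L).PosSemidef := (psd_conj_iff h0.hL).2 hQ
  obtain ⟨U, q, h1, h2, h3, h4⟩ := spec_symm hQ.isHermitian
  have hq : ∀ k, 0 ≤ q k := fun k => by rw [h4]; exact hQ.eigenvalues_nonneg k
  have hF := contact_f hB h0 hP hG heq hQL hf
  have hC := fun k => mul_nonpos_of_nonneg_of_nonpos (hq k)
    (contact_c hB h0 hP heq hX (fun a => U a k) (hc _)).2
  have hS := Finset.sum_nonpos (s := Finset.univ) fun k _ => hC k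
  have hQe : Lᵀ * Qh * L = ∑ k, q k • rk (dirv L fun a => U a k) := by
    rw [h3, rk_sum]
  have eR : NN P (frT L (R2 (D.R B c) (Lᵀ * Qh * L))) (frT L (D.T B c))
      = ∑ k, q k * NN P (frT L (R2 (D.R B c) (rk (dirv L fun a => U a k)))) (frT L (D.T B c)) := by
    have := map_sum ((N3LT P P P (frT L (D.T B c))) ∘ₗ (frTL L) ∘ₗ (R2L (D.R B c)))
      (fun k => q k • rk (dirv L fun a => U a k)) Finset.univ
    rw [← hQe] at this
    simp only [map_smul] at this
    exact this
  have eK : (DK F β (L * K2 (D.K B c) (Lᵀ * Qh * L) * Lᵀ) * (P * P * P)).trace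
      = ∑ k, q k * (DK F β (L * K2 (D.K B c) (rk (dirv L fun a => U a k)) * Lᵀ)
        * (P * P * P)).trace := by
    have := map_sum ((DKL F β L (P * P * P)) ∘ₗ (K2L (D.K B c)))
      (fun k => q k • rk (dirv L fun a => U a k)) Finset.univ
    rw [← hQe] at this
    simp only [map_smul] at this
    exact this
  have eg : ∑ k, q k * ∑ a, ∑ a', U a k * U a' k
        * gen F β lam P (frT L (D.T B c)) (fr4 L (D.K B c)) X a a'
      = ∑ a, ∑ a', Qh a a' * gen F β lam P (frT L (D.T B c)) (fr4 L (D.K B c)) X a a' := by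
    simp only [Finset.mul_sum]
    calc ∑ k, ∑ a, ∑ a', q k * (U a k * U a' k
          * gen F β lam P (frT L (D.T B c)) (fr4 L (D.K B c)) X a a')
        = ∑ a, ∑ k, ∑ a', q k * (U a k * U a' k
          * gen F β lam P (frT L (D.T B c)) (fr4 L (D.K B c)) X a a') := Finset.sum_comm
      _ = ∑ a, ∑ a', ∑ k, q k * (U a k * U a' k
          * gen F β lam P (frT L (D.T B c)) (fr4 L (D.K B c)) X a a') :=
          Finset.sum_congr rfl fun _ _ => Finset.sum_comm
      _ = _ := by
          refine Finset.sum_congr rfl fun a _ => Finset.sum_congr rfl fun a' _ => ?_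
          have e : Qh a a' = ∑ k, q k * (U a k * U a' k) := by
            conv_lhs => rw [h3]
            rw [Matrix.mul_apply]
            refine Finset.sum_congr rfl fun k _ => ?_
            rw [Matrix.mul_diagonal, Matrix.transpose_apply]
            ring
          rw [e, Finset.sum_mul]
          refine Finset.sum_congr rfl fun k _ => ?_
          ring
  rw [eR, eK] at hF
  have hS' : (∑ k, q k * ∑ a, ∑ a', U a k * U a' k
        * gen F β lam P (frT L (D.T B c)) (fr4 L (D.K B c)) X a a')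
      + 2 * (∑ k, q k * NN P (frT L (R2 (D.R B c) (rk (dirv L fun a => U a k))))
          (frT L (D.T B c)))
      - lam * (3 * ∑ k, q k * (DK F β (L * K2 (D.K B c) (rk (dirv L fun a => U a k)) * Lᵀ)
        * (P * P * P)).trace) ≤ 0 := by
    refine le_trans (le_of_eq ?_) hS
    simp only [Finset.mul_sum, ← Finset.sum_add_distrib, ← Finset.sum_sub_distrib]
    refine Finset.sum_congr rfl fun k _ => ?_
    simp only [← Finset.mul_sum]
    ring
  rw [eg] at hS'
  linarith

/-! ### rescaling -/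

theorem Sd_smul (F : Profile) (β : Vec n) (r : ℝ) (T : Ten n) (a : Fin n) :
    Sd F β (r • T) a = r • Sd F β T a := by
  ext i j
  simp only [Sd, Matrix.of_apply, Pi.smul_apply, Matrix.smul_apply, smul_eq_mul]
  ring

theorem Gam_smul (F : Profile) (β : Vec n) (r : ℝ) (T : Ten n) (a a' : Fin n) :
    Gam F β (r • T) a a' = (r * r) • Gam F β T a a' := by
  ext i j
  simp only [Gam, Matrix.of_apply, Pi.smul_apply, Matrix.smul_apply, smul_eq_mul, Finset.mul_sum]
  refine Finset.sum_congr rfl fun k _ => ?_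
  ring

theorem AQT_smul (F : Profile) (β : Vec n) (r : ℝ) (T : Ten n) (Q : Mat n) :
    AQT F β (r • T) Q = r • AQT F β T Q := by
  funext i j k
  simp only [AQT, Pi.smul_apply, smul_eq_mul, Finset.mul_sum]
  refine Finset.sum_congr rfl fun l _ => ?_
  ring

theorem gen_smul (F : Profile) (β : Vec n) {s : ℝ} (P : Mat n) (T : Ten n)
    (K : Fin n → Ten n) (X : Fin n → Mat n) (a a' : Fin n) :
    gen F β (s * s) P (s • T) (fun a => (s * s) • K a) (fun a => s • X a) a a'
      = (s * s) * (s * s) * gen F β 1 P T K X a a' := by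
  unfold gen NN
  simp only [Sd_smul, Gam_smul, N3_smulT, N3_smulT', N3_smul1, N3_smul2, Matrix.smul_mul,
    Matrix.mul_smul, Matrix.trace_smul, smul_eq_mul, Matrix.mul_add, Matrix.trace_add]
  ring

/-- the drift of Bdl/B3 in terms of `gen` -/
theorem drift_eq (F : Profile) (β : Vec n) (T : Ten n) (P : Mat n) (K : Fin n → Ten n)
    (Q : Mat n) (X : Fin n → Mat n) :
    drift F β T P K Q X = - 6 * NN P (AQT F β T Q) T + (∑ a, ∑ a', Q a a' * gen F β 1 P T K X a a')
      - 3 * (Sflow F β Q * (P * P * P)).trace := by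
  have e : ∑ a, ∑ a', Q a a' * gen F β 1 P T K X a a'
      = (∑ a, ∑ a', Q a a' * (NN P (K a) (K a') + 6 * N3 (X a) P P (K a') T
      + 3 * N3 (X a) (X a') P T T))
      - (∑ a, ∑ a', Q a a' * (3 * (Gam F β T a a' * (P * P * P)).trace
      + 3 * (Sd F β T a * P * Sd F β T a' * (P * P)).trace
      + 3 * (X a * (Sd F β T a' * (P * P) + P * Sd F β T a' * P + P * P * Sd F β T a')).trace
      + 3 * (X a * X a' * P).trace)) := by
    simp only [← Finset.sum_sub_distrib]
    refine Finset.sum_congr rfl fun a _ => Finset.sum_congr rfl fun a' _ => ?_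
    unfold gen
    ring
  unfold drift
  rw [e]
  ring

/-- **the rescaled contact inequality**: `T' = T/√lam`, `K' = K/lam`, `X = √lam X'` -/
theorem contact_scaled {B : Mat n} (hB : B.PosDef) {c : Vec n} {L : Mat n} {β : Vec n}
    (h0 : SFr F (D.A B c) B L β) {P : Mat n} (hP : Pᵀ = P) {s κ : ℝ} (hs : 0 < s) {G : ℝ → ℝ}
    (hG : J1 (𝓝[≥] 0) G 1 (-κ))
    (heq : NN P (frT L (D.T B c)) (frT L (D.T B c)) = (s * s) * (P * P * P).trace)
    {X : Fin n → Mat n} (hX : ∀ a, (X a)ᵀ = X a)
    {Qh : Mat n} (hQ : Qh.PosSemidef)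
    (hc : ∀ v : Vec n, TestC D F B c L (s * s) P v (∑ a, v a • (s • X a)))
    (hf : TestF D F B c L (s * s) G P (Lᵀ * Qh * L)) :
    (s * s) * (s * s) * drift F β (s⁻¹ • frT L (D.T B c)) P
        (fun a => (s * s)⁻¹ • fr4 L (D.K B c) a) Qh X
      + (s * s) * (s * s - 1) * (6 * NN P (AQT F β (s⁻¹ • frT L (D.T B c)) Qh)
        (s⁻¹ • frT L (D.T B c)) + 3 * (Sflow F β Qh * (P * P * P)).trace)
      + κ * (s * s - 1) * (P * P * P).trace ≤ 0 := by
  have h := contact_total hB h0 hP hG heq (X := fun a => s • X a)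
    (fun a => by rw [Matrix.transpose_smul, hX]) hQ hc hf
  set T := frT L (D.T B c) with hT
  set K := fr4 L (D.K B c) with hK
  have hs0 : s ≠ 0 := hs.ne'
  have eT : T = s • (s⁻¹ • T) := by rw [smul_smul, mul_inv_cancel₀ hs0, one_smul]
  have eK : K = fun a => (s * s) • ((s * s)⁻¹ • K a) := by
    funext a
    rw [smul_smul, mul_inv_cancel₀ (mul_ne_zero hs0 hs0), one_smul]
  set T' := s⁻¹ • T with hT'
  set K' : Fin n → Ten n := fun a => (s * s)⁻¹ • K a with hK'
  have eK' : K = fun a => (s * s) • K' a := eK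
  rw [drift_eq]
  have eg : ∀ a a', gen F β (s * s) P T K (fun a => s • X a) a a'
      = (s * s) * (s * s) * gen F β 1 P T' K' X a a' := by
    intro a a'
    rw [eK', eT]
    exact gen_smul F β P T' K' X a a'
  have e1 : NN P (AQT F β T Qh) T = (s * s) * NN P (AQT F β T' Qh) T' := by
    conv_lhs => rw [eT]
    rw [AQT_smul]
    unfold NN
    rw [N3_smulT, N3_smulT']
    ring
  simp only [eg] at h
  rw [e1] at h
  have e2 : ∑ a, ∑ a', Qh a a' * (s * s * (s * s) * gen F β 1 P T' K' X a a')
      = s * s * (s * s) * ∑ a, ∑ a', Qh a a' * gen F β 1 P T' K' X a a' := by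
    simp only [Finset.mul_sum]
    refine Finset.sum_congr rfl fun a _ => Finset.sum_congr rfl fun a' _ => ?_
    ring
  rw [e2] at h
  nlinarith [h]

end Vale.Agent.P254.X602
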